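import Vale.Agent.Lib.P197X.Gottlieb

/-!
# P197X: the one column lemma on tuples of subsets (blueprint Sec 4)
-/

open Finset

namespace Vale.Agent.Lib.P197X

variable {X : Type*} [DecidableEq X]

/-- The injective functions from `Fin l` with values in `Z`. -/
def injF (l : ℕ) (Z : Finset X) : Finset (Fin l → X) :=
  (Fintype.piFinset fun _ => Z).filter Function.Injective

private theorem mem_injF {l : ℕ} {Z : Finset X} {ξ : Fin l → X} :
    ξ ∈ injF l Z ↔ (∀ i, ξ i ∈ Z) ∧ Function.Injective ξ := by
  simp [injF, Fintype.mem_piFinset]

/-- Peeling the value at `0`: injective functions on `Fin (l+1)` with values in `Z` are a value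
`z ∈ Z` and an injective function on `Fin l` with values in `Z \ {z}`. -/
theorem sum_injF_succ {A : Type*} [AddCommMonoid A] (l : ℕ) (Z : Finset X) (f : (Fin (l + 1) → X) → A) :
    ∑ ξ ∈ injF (l + 1) Z, f ξ =
      ∑ z ∈ Z, ∑ ξ' ∈ injF l (Z.erase z), f (Fin.cons z ξ') := by
  rw [Finset.sum_sigma']
  refine Finset.sum_bij' (fun ξ _ => (⟨ξ 0, Fin.tail ξ⟩ : Σ _ : X, Fin l → X))
    (fun p _ => Fin.cons p.1 p.2) ?_ ?_ ?_ ?_ ?_
  · intro ξ hξ
    rw [mem_injF] at hξ
    simp only [Finset.mem_sigma, mem_injF]
    refine ⟨hξ.1 0, fun i => ?_, ?_⟩
    · rw [Finset.mem_erase]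
      refine ⟨?_, hξ.1 _⟩
      intro h
      have := hξ.2 h
      exact (Fin.succ_ne_zero i) this
    · intro a b hab
      have := hξ.2 hab
      exact Fin.succ_injective _ this
  · rintro ⟨z, ξ'⟩ hp
    simp only [Finset.mem_sigma, mem_injF] at hp
    rw [mem_injF]
    constructor
    · intro i
      refine Fin.cases ?_ (fun j => ?_) i
      · simpa using hp.1
      · have := hp.2.1 j
        simpa using Finset.mem_of_mem_erase this
    · rw [Fin.cons_injective_iff]
      refine ⟨?_, hp.2.2⟩
      rintro ⟨j, hj⟩
      have := hp.2.1 j
      have hj' : ξ' j = z := hj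
      rw [hj'] at this
      simp at this
  · intro ξ _
    simp
  · rintro ⟨z, ξ'⟩ _
    simp
  · intro ξ _
    simp

private theorem eq_univ_of_inj {l : ℕ} {Z : Finset X} (hZ : Z.card = l) {ξ : Fin l → X}
    (hξ : ξ ∈ injF l Z) {z : X} (hz : z ∈ Z) : ∃ i, ξ i = z := by
  rw [mem_injF] at hξ
  have him : (Finset.univ.image ξ) = Z := by
    apply Finset.eq_of_subset_of_card_le
    · intro a ha
      obtain ⟨i, -, rfl⟩ := Finset.mem_image.1 ha
      exact hξ.1 i
    · rw [Finset.card_image_of_injective _ hξ.2, hZ]
      simp
  rw [← him] at hz
  obtain ⟨i, -, hi⟩ := Finset.mem_image.1 hz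
  exact ⟨i, hi⟩

/-- **One column lemma.** -/
theorem claimB (l : ℕ) (d : Fin l → ℕ) (hd : ∀ i : Fin l, l ≤ d i + i)
    (y : (Fin l → Finset X) → ℤ)
    (hyp : ∀ (Bm : Fin l → Finset X) (Z : Finset X), Z.card = l →
      (∀ i, (Bm i).card + 1 = d i) → Pairwise (Function.onFun Disjoint Bm) →
      (∀ i, Disjoint (Bm i) Z) →
      ∑ ξ ∈ injF l Z, y (fun i => insert (ξ i) (Bm i)) = 0) :
    ∀ B : Fin l → Finset X, (∀ i, (B i).card = d i) → Pairwise (Function.onFun Disjoint B) →
      y B = 0 := by
  induction l with
  | zero =>
    intro B _ _
    have h := hyp B ∅ (by simp) (fun i => i.elim0) (fun i => i.elim0) (fun i => i.elim0)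
    have hs : injF 0 (∅ : Finset X) = {fun i => i.elim0} := by
      ext ξ
      simp only [Finset.mem_singleton, mem_injF]
      constructor
      · intro _
        funext i
        exact i.elim0
      · intro _
        exact ⟨fun i => i.elim0, fun i => i.elim0⟩
    rw [hs, Finset.sum_singleton] at h
    have heq : (fun i : Fin 0 => insert ((fun i : Fin 0 => i.elim0 : Fin 0 → X) i) (B i)) = B := by
      funext i
      exact i.elim0
    rwa [heq] at h
  | succ l ih =>
    intro B hB hBd
    set A := B 0 with hA
    have hk : (A).card = d 0 := hB 0
    have hk1 : l + 1 ≤ d 0 := by simpa using hd 0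
    let y' : (Fin l → Finset X) → ℤ := fun C =>
      if ∀ i, Disjoint (C i) A then y (Fin.cons A C) else 0
    have hd' : ∀ i : Fin l, l ≤ d i.succ + i := by
      intro i
      have := hd i.succ
      simp only [Fin.val_succ] at this
      omega
    have key := ih (fun i => d i.succ) hd' y' ?_ (Fin.tail B) (fun i => hB i.succ) ?_
    · have hdj : ∀ i, Disjoint (Fin.tail B i) A := by
        intro i
        exact hBd (Fin.succ_ne_zero i)
      have h1 : y' (Fin.tail B) = y (Fin.cons A (Fin.tail B)) := by
        simp only [y']
        rw [if_pos hdj]
      have h2 : (Fin.cons A (Fin.tail B) : Fin (l + 1) → Finset X) = B := by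
        rw [hA]
        exact Fin.cons_self_tail B
      rw [h2] at h1
      rw [← h1]
      exact key
    · intro Bm' Z' hZ' hcard' hpd' hdZ'
      by_cases hgood : (∀ i, Disjoint (Bm' i) A) ∧ Disjoint Z' A
      · obtain ⟨hgood1, hgood2⟩ := hgood
        -- the main case
        set U' := A ∪ Z' with hU'
        have hU'card : U'.card = d 0 + l := by
          rw [hU', Finset.card_union_of_disjoint hgood2.symm, hk, hZ']
        let g : Finset X → ℤ := fun S =>
          ∑ ξ ∈ injF l (U' \ S), y (Fin.cons S (fun i => insert (ξ i) (Bm' i)))
        have hgot := gottlieb U' (d 0) (by omega) g ?_ A Finset.subset_union_left hk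
        · have hsd : U' \ A = Z' := by
            rw [hU', Finset.union_sdiff_cancel_left hgood2.symm]
          simp only [g] at hgot
          rw [hsd] at hgot
          rw [← hgot]
          refine Finset.sum_congr rfl (fun ξ hξ => ?_)
          simp only [y']
          have hdj : ∀ i, Disjoint (insert (ξ i) (Bm' i)) A := by
            intro i
            rw [Finset.disjoint_insert_left]
            refine ⟨?_, hgood1 i⟩
            exact Finset.disjoint_left.1 hgood2 ((mem_injF.1 hξ).1 i)
          rw [if_pos hdj]
        · intro S hS hScard
          -- `Z = U' \ S`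
          have hZcard : (U' \ S).card = l + 1 := by
            rw [Finset.card_sdiff_of_subset hS, hU'card]
            omega
          have hh := hyp (Fin.cons S Bm') (U' \ S) hZcard ?_ ?_ ?_
          · rw [sum_injF_succ] at hh
            rw [← hh]
            refine Finset.sum_congr rfl (fun z hz => ?_)
            simp only [g]
            have herase : U' \ insert z S = (U' \ S).erase z := by
              ext a
              simp only [Finset.mem_sdiff, Finset.mem_insert, Finset.mem_erase]
              tauto
            rw [herase]
            refine Finset.sum_congr rfl (fun ξ' _ => ?_)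
            congr 1
            funext i
            refine Fin.cases ?_ (fun j => ?_) i
            · simp
            · simp
          · intro i
            refine Fin.cases ?_ (fun j => ?_) i
            · simpa using hScard
            · simpa using hcard' j
          · intro i j hij
            have hSd : ∀ j, Disjoint S (Bm' j) := by
              intro j
              refine Finset.disjoint_of_subset_left hS ?_
              rw [hU', Finset.disjoint_union_left]
              exact ⟨(hgood1 j).symm, (hdZ' j).symm⟩
            revert hij
            refine Fin.cases ?_ (fun i' => ?_) i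
            · refine Fin.cases ?_ (fun j' => ?_) j
              · intro h
                exact absurd rfl h
              · intro _
                simpa [Function.onFun] using hSd j'
            · refine Fin.cases ?_ (fun j' => ?_) j
              · intro _
                simpa [Function.onFun] using (hSd i').symm
              · intro h
                have : i' ≠ j' := fun e => h (by rw [e])
                simpa [Function.onFun] using hpd' this
          · intro i
            refine Fin.cases ?_ (fun j => ?_) i
            · simpa using Finset.disjoint_sdiff
            · simp only [Fin.cons_succ]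
              refine Finset.disjoint_of_subset_right Finset.sdiff_subset ?_
              rw [hU', Finset.disjoint_union_right]
              exact ⟨hgood1 j, hdZ' j⟩
      · -- every term vanishes
        refine Finset.sum_eq_zero (fun ξ hξ => ?_)
        simp only [y']
        rw [if_neg]
        intro hall
        apply hgood
        constructor
        · intro i
          have := hall i
          rw [Finset.disjoint_insert_left] at this
          exact this.2
        · rw [Finset.disjoint_left]
          intro z hz hzA
          obtain ⟨i, hi⟩ := eq_univ_of_inj hZ' hξ hz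
          have := hall i
          rw [Finset.disjoint_insert_left] at this
          exact this.1 (hi ▸ hzA)
    · intro i j hij
      have : i.succ ≠ j.succ := fun e => hij (Fin.succ_injective _ e)
      exact hBd this

end Vale.Agent.Lib.P197X
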