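import Vale.Agent.Lib.P197W.Pos
import Vale.Agent.Lib.P197W.SumF
import Vale.Agent.Lib.P197W.Conj

/-!
# P197X: diagrams from column heights, the dominance order, the predicate KP (blueprint Sec 1)
-/

open Equiv Finset

namespace Vale.Agent.Lib.P197X

open Vale.Agent.Lib.P197 Vale.Agent.Lib.P197W

/-- The triangular number. -/
abbrev NN (m : ℕ) : ℕ := m * (m + 1) / 2

private theorem ofCols_aux (C : Multiset ℕ) (c : ℕ × ℕ)
    (h : c.2 < Multiset.card (C.filter fun x => c.1 < x)) :
    c.1 < C.sum ∧ c.2 < Multiset.card C := by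
  refine ⟨?_, lt_of_lt_of_le h (Multiset.card_le_card (Multiset.filter_le _ _))⟩
  have hpos : 0 < Multiset.card (C.filter fun x => c.1 < x) := by omega
  obtain ⟨x, hx⟩ := Multiset.card_pos_iff_exists_mem.mp hpos
  rw [Multiset.mem_filter] at hx
  have : x ≤ C.sum := Multiset.single_le_sum (fun _ _ => Nat.zero_le _) x hx.1
  omega

/-- The diagram whose multiset of positive column heights is `C`. -/
def ofCols (C : Multiset ℕ) : YoungDiagram where
  cells := ((range C.sum) ×ˢ (range (Multiset.card C))).filter fun c =>
    c.2 < Multiset.card (C.filter fun x => c.1 < x)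
  isLowerSet := by
    intro a b hab ha
    have ha' : a ∈ ((range C.sum) ×ˢ (range (Multiset.card C))).filter fun c =>
        c.2 < Multiset.card (C.filter fun x => c.1 < x) := ha
    have hb : b.2 < Multiset.card (C.filter fun x => b.1 < x) := by
      have h2 := (Finset.mem_filter.mp ha').2
      have hmono : Multiset.card (C.filter fun x => a.1 < x) ≤
          Multiset.card (C.filter fun x => b.1 < x) := by
        apply Multiset.card_le_card
        apply Multiset.monotone_filter_right
        intro x hx
        exact lt_of_le_of_lt hab.1 hx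
      exact lt_of_le_of_lt hab.2 (lt_of_lt_of_le h2 hmono)
    have hb2 := ofCols_aux C b hb
    show b ∈ ((range C.sum) ×ˢ (range (Multiset.card C))).filter fun c =>
        c.2 < Multiset.card (C.filter fun x => c.1 < x)
    rw [Finset.mem_filter, Finset.mem_product, Finset.mem_range, Finset.mem_range]
    exact ⟨hb2, hb⟩

/-- The multiset of positive column heights of a diagram. -/
def colsOf (μ : YoungDiagram) : Multiset ℕ := (Multiset.range (μ.rowLen 0)).map μ.colLen

theorem mem_ofCols (C : Multiset ℕ) (i j : ℕ) :
    (i, j) ∈ ofCols C ↔ j < Multiset.card (C.filter fun x => i < x) := by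
  constructor
  · intro h
    have h' : (i, j) ∈ ((range C.sum) ×ˢ (range (Multiset.card C))).filter fun c =>
        c.2 < Multiset.card (C.filter fun x => c.1 < x) := h
    exact (Finset.mem_filter.mp h').2
  · intro h
    have hb2 := ofCols_aux C (i, j) h
    show (i, j) ∈ ((range C.sum) ×ˢ (range (Multiset.card C))).filter fun c =>
        c.2 < Multiset.card (C.filter fun x => c.1 < x)
    rw [Finset.mem_filter, Finset.mem_product, Finset.mem_range, Finset.mem_range]
    exact ⟨hb2, h⟩

theorem rowLen_ofCols (C : Multiset ℕ) (i : ℕ) :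
    (ofCols C).rowLen i = Multiset.card (C.filter fun x => i < x) := by
  apply eq_of_forall_lt_iff
  intro j
  rw [← YoungDiagram.mem_iff_lt_rowLen, mem_ofCols]

private theorem sum_card_filter (C : Multiset ℕ) (S : ℕ) (hS : ∀ x ∈ C, x ≤ S) :
    ∑ i ∈ range S, Multiset.card (C.filter fun x => i < x) = C.sum := by
  induction C using Multiset.induction_on with
  | empty => simp
  | cons a C ih =>
    have h1 := ih (fun x hx => hS x (Multiset.mem_cons_of_mem hx))
    have ha : a ≤ S := hS a (Multiset.mem_cons_self a C)
    have h2 : ∀ i ∈ range S, Multiset.card ((a ::ₘ C).filter fun x => i < x) =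
        (if i < a then 1 else 0) + Multiset.card (C.filter fun x => i < x) := by
      intro i _
      by_cases h : i < a
      · rw [Multiset.filter_cons_of_pos _ h, Multiset.card_cons, if_pos h, add_comm]
      · rw [Multiset.filter_cons_of_neg _ h, if_neg h, zero_add]
    rw [Finset.sum_congr rfl h2, Finset.sum_add_distrib, h1, Multiset.sum_cons]
    congr 1
    have h3 : (range S).filter (fun i => i < a) = range a := by
      ext i
      simp only [Finset.mem_filter, Finset.mem_range]
      omega
    rw [← Finset.card_filter, h3, Finset.card_range]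

theorem card_ofCols (C : Multiset ℕ) : (ofCols C).card = C.sum := by
  have h : (ofCols C).cells = (range C.sum).biUnion fun i =>
      (range (Multiset.card (C.filter fun x => i < x))).image fun j => (i, j) := by
    ext ⟨i, j⟩
    simp only [Finset.mem_biUnion, Finset.mem_range, Finset.mem_image, YoungDiagram.mem_cells,
      mem_ofCols, Prod.mk.injEq]
    constructor
    · intro hj
      exact ⟨i, (ofCols_aux C (i, j) hj).1, j, hj, rfl, rfl⟩
    · rintro ⟨i', _, j', hj', rfl, rfl⟩
      exact hj'
  show (ofCols C).cells.card = C.sum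
  rw [h, Finset.card_biUnion]
  · have : ∀ i ∈ range C.sum, ((range (Multiset.card (C.filter fun x => i < x))).image
        fun j => (i, j)).card = Multiset.card (C.filter fun x => i < x) := by
      intro i _
      rw [Finset.card_image_of_injective _ (fun a b hab => (Prod.mk.inj hab).2), Finset.card_range]
    rw [Finset.sum_congr rfl this]
    exact sum_card_filter C _ (fun x hx => Multiset.single_le_sum (fun _ _ => Nat.zero_le _) x hx)
  · intro i _ i' _ hne
    rw [Function.onFun, Finset.disjoint_left]
    intro c hc hc'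
    rw [Finset.mem_image] at hc hc'
    obtain ⟨_, _, rfl⟩ := hc
    obtain ⟨_, _, h⟩ := hc'
    exact hne (Prod.mk.inj h).1.symm

theorem card_filter_colsOf (μ : YoungDiagram) (i : ℕ) :
    Multiset.card ((colsOf μ).filter fun x => i < x) = μ.rowLen i := by
  unfold colsOf
  rw [Multiset.filter_map, Multiset.card_map]
  have h : (Multiset.range (μ.rowLen 0)).filter ((fun x => i < x) ∘ μ.colLen) =
      (Finset.range (μ.rowLen i)).val := by
    have h2 : ((Finset.range (μ.rowLen 0)).filter fun j => i < μ.colLen j) =
        Finset.range (μ.rowLen i) := by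
      ext j
      simp only [Finset.mem_filter, Finset.mem_range]
      rw [← YoungDiagram.mem_iff_lt_colLen, YoungDiagram.mem_iff_lt_rowLen]
      constructor
      · exact fun h => h.2
      · exact fun h => ⟨lt_of_lt_of_le h (μ.rowLen_anti 0 i (Nat.zero_le i)), h⟩
    rw [← h2]
    rfl
  rw [h]
  simp

theorem ofCols_colsOf (μ : YoungDiagram) : ofCols (colsOf μ) = μ := by
  ext ⟨i, j⟩
  rw [YoungDiagram.mem_cells, YoungDiagram.mem_cells, mem_ofCols, card_filter_colsOf,
    YoungDiagram.mem_iff_lt_rowLen]

theorem pos_of_mem_colsOf {μ : YoungDiagram} {c : ℕ} (h : c ∈ colsOf μ) : 1 ≤ c := by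
  unfold colsOf at h
  rw [Multiset.mem_map] at h
  obtain ⟨j, hj, rfl⟩ := h
  rw [Multiset.mem_range] at hj
  have : (0, j) ∈ μ := YoungDiagram.mem_iff_lt_rowLen.mpr hj
  exact YoungDiagram.mem_iff_lt_colLen.mp this

private lemma card_filter_pred_eq (S : Multiset ℕ) (c : ℕ) :
    Multiset.card (S.filter fun x => c < x + 1) =
      Multiset.card (S.filter fun x => c < x) + S.count c := by
  induction S using Multiset.induction_on with
  | empty => simp
  | cons a S ih =>
    by_cases h1 : c < a
    · have h2 : c < a + 1 := by omega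
      have h3 : c ≠ a := by omega
      rw [Multiset.filter_cons_of_pos (p := fun x => c < x + 1) S h2,
        Multiset.filter_cons_of_pos (p := fun x => c < x) S h1,
        Multiset.card_cons, Multiset.card_cons, Multiset.count_cons_of_ne h3, ih]
      omega
    · rw [Multiset.filter_cons_of_neg (p := fun x => c < x) S h1]
      by_cases h3 : c = a
      · subst h3
        rw [Multiset.filter_cons_of_pos (p := fun x => c < x + 1) S (Nat.lt_succ_self c),
          Multiset.card_cons, ih, Multiset.count_cons_self]
        omega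
      · have h2 : ¬ c < a + 1 := by omega
        rw [Multiset.filter_cons_of_neg (p := fun x => c < x + 1) S h2,
          Multiset.count_cons_of_ne h3, ih]

private lemma multiset_ext_of_filter (A B : Multiset ℕ) (hA : ∀ c ∈ A, 1 ≤ c) (hB : ∀ c ∈ B, 1 ≤ c)
    (h : ∀ i, Multiset.card (A.filter fun x => i < x) = Multiset.card (B.filter fun x => i < x)) :
    A = B := by
  ext c
  have key : ∀ S : Multiset ℕ, (∀ c ∈ S, 1 ≤ c) →
      S.count c + Multiset.card (S.filter fun x => c < x) =
        if c = 0 then Multiset.card (S.filter fun x => c < x) else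
          Multiset.card (S.filter fun x => c - 1 < x) := by
    intro S hS
    split_ifs with hc
    · subst hc
      have : S.count 0 = 0 := by
        rw [Multiset.count_eq_zero]
        intro h0
        have := hS 0 h0
        omega
      omega
    · have h1 := card_filter_pred_eq S c
      have h2 : (S.filter fun x => c < x + 1) = S.filter fun x => c - 1 < x := by
        apply Multiset.filter_congr
        intro x hx
        have := hS x hx
        omega
      rw [h2] at h1
      omega
  have hA' := key A hA
  have hB' := key B hB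
  rw [h c] at hA'
  by_cases hc : c = 0
  · simp only [hc, if_true] at hA' hB'
    subst hc
    omega
  · simp only [hc, if_false] at hA' hB'
    rw [h (c - 1)] at hA'
    omega

theorem colsOf_ofCols (C : Multiset ℕ) (hC : ∀ c ∈ C, 1 ≤ c) : colsOf (ofCols C) = C := by
  apply multiset_ext_of_filter
  · exact fun c hc => pos_of_mem_colsOf hc
  · exact hC
  · intro i
    rw [card_filter_colsOf, rowLen_ofCols]

theorem sum_colsOf (μ : YoungDiagram) : (colsOf μ).sum = μ.card := by
  classical
  unfold colsOf
  have h1 : ((Multiset.range (μ.rowLen 0)).map μ.colLen).sum =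
      ∑ j ∈ Finset.range (μ.rowLen 0), μ.colLen j := rfl
  rw [h1]
  have h2 : μ.card = ∑ j ∈ Finset.range (μ.rowLen 0),
      (μ.cells.filter fun c => c.2 = j).card := by
    apply Finset.card_eq_sum_card_fiberwise
    intro c hc
    have hc' : c ∈ μ := hc
    rcases c with ⟨i, j⟩
    simp only [Finset.coe_range, Set.mem_Iio]
    have h0 : (0, j) ∈ μ := μ.up_left_mem (Nat.zero_le i) le_rfl hc'
    exact YoungDiagram.mem_iff_lt_rowLen.mp h0
  rw [h2]
  refine Finset.sum_congr rfl fun j _ => ?_
  rw [YoungDiagram.colLen_eq_card]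
  rfl

/-- `γ` dominates `τ`. -/
def Dom (γ τ : YoungDiagram) : Prop :=
  ∀ k : ℕ, ∑ i ∈ range k, τ.rowLen i ≤ ∑ i ∈ range k, γ.rowLen i

/-- The non zero row lengths of `τ` are pairwise different. -/
def StrictDiag (τ : YoungDiagram) : Prop :=
  ∀ i : ℕ, τ.rowLen (i + 1) < τ.rowLen i ∨ τ.rowLen i = 0

/-- The character triple sum of three diagrams is non zero. -/
def KP (la mu nu : YoungDiagram) : Prop :=
  ∃ (n : ℕ) (T₁ : Filling n la) (T₂ : Filling n mu) (T₃ : Filling n nu),
    ∑ π : Perm (Fin n), rr T₁ π * rr T₂ π * rr T₃ π ≠ 0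

/-- The size of a diagram equals the number of labels of any filling. -/
theorem card_of_filling {n : ℕ} {μ : YoungDiagram} (T : Filling n μ) : μ.card = n := by
  have h := Fintype.card_congr T
  simpa [YoungDiagram.card] using h.symm

/-- A filling exists when the size is right. -/
theorem exists_filling (n : ℕ) (μ : YoungDiagram) (h : μ.card = n) : Nonempty (Filling n μ) := by
  have h' : Fintype.card {c // c ∈ μ.cells} = n := by
    simpa [YoungDiagram.card] using h
  exact ⟨(Fintype.equivFinOfCardEq h').symm⟩

/-- `KP` for one filling is `KP` for all fillings. -/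
theorem KP_all {la mu nu : YoungDiagram} (h : KP la mu nu) {n : ℕ}
    (T₁ : Filling n la) (T₂ : Filling n mu) (T₃ : Filling n nu) :
    ∑ π : Perm (Fin n), rr T₁ π * rr T₂ π * rr T₃ π ≠ 0 := by
  obtain ⟨n', S₁, S₂, S₃, hS⟩ := h
  obtain rfl : n' = n := (card_of_filling S₁).symm.trans (card_of_filling T₁)
  rw [rr_indep T₁ S₁, rr_indep T₂ S₂, rr_indep T₃ S₃]
  exact hS

/-- A non zero polynomial gives `KP`. -/
theorem KP_of_poly {n : ℕ} {la mu nu : YoungDiagram}
    (T₁ : Filling n la) (T₂ : Filling n mu) (T₃ : Filling n nu) (h : polyP T₁ T₂ T₃ ≠ 0) :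
    KP la mu nu :=
  ⟨n, T₁, T₂, T₃, pos_of_poly T₁ T₂ T₃ h⟩

/-- `KP` gives the Kronecker coefficient. -/
theorem kronecker_of_KP {la mu nu : YoungDiagram} (h : KP la mu nu) {n : ℕ}
    (T₁ : Filling n la) (T₂ : Filling n mu) (T₃ : Filling n nu) :
    0 < kronecker T₁ T₂ T₃ :=
  kronecker_pos T₁ T₂ T₃ (KP_all h T₁ T₂ T₃)

end Vale.Agent.Lib.P197X
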