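import Vale.Agent.Lib.P197X.Cols
import Vale.Agent.Lib.P197.Orthonormal

/-!
# P197X: column strict fillings of content `τ` of a diagram `γ` dominating `τ` (blueprint Sec 6)
-/

open Equiv Finset

namespace Vale.Agent.Lib.P197X

open Vale.Agent.Lib.P197 Vale.Agent.Lib.P197W

/-- The top set: `t` columns of largest height. -/
theorem exists_top_set {ι : Type*} [DecidableEq ι] (J : Finset ι) (c : ι → ℕ) (t : ℕ)
    (ht : t ≤ J.card) :
    ∃ A ⊆ J, A.card = t ∧ ∀ j ∈ A, ∀ j' ∈ J \ A, c j' ≤ c j := by
  induction t with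
  | zero => exact ⟨∅, by simp, by simp, by simp⟩
  | succ t ih =>
    obtain ⟨A, hAJ, hcard, hA⟩ := ih (by omega)
    have hne : (J \ A).Nonempty := by
      rw [← Finset.card_pos, Finset.card_sdiff_of_subset hAJ]
      omega
    obtain ⟨j0, hj0, hmax⟩ := Finset.exists_max_image (J \ A) c hne
    have hj0' := Finset.mem_sdiff.mp hj0
    refine ⟨insert j0 A, ?_, ?_, ?_⟩
    · exact Finset.insert_subset hj0'.1 hAJ
    · rw [Finset.card_insert_of_notMem hj0'.2, hcard]
    · intro j hj j' hj'
      have hj'1 := Finset.mem_sdiff.mp hj'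
      have hj'2 : j' ∈ J \ A := by
        refine Finset.mem_sdiff.mpr ⟨hj'1.1, fun h => hj'1.2 (Finset.mem_insert_of_mem h)⟩
      rcases Finset.mem_insert.mp hj with rfl | hjA
      · exact hmax j' hj'2
      · exact hA j hjA j' hj'2

private theorem sum_min_one {ι : Type*} [DecidableEq ι] (J : Finset ι) (c : ι → ℕ) :
    ∑ j ∈ J, min (c j) 1 = (J.filter fun j => 1 ≤ c j).card := by
  rw [Finset.card_filter]
  refine Finset.sum_congr rfl fun j _ => ?_
  by_cases h : 1 ≤ c j
  · simp [h]
  · have : c j = 0 := by omega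
    simp [this]

/-- **Gale Ryser** in the form of a zero one matrix with rows `M a` and column sums `c`.
`τ` is non increasing on `range l`. -/
theorem gale_ryser {ι : Type*} [DecidableEq ι] (J : Finset ι) (l : ℕ) (τ : ℕ → ℕ)
    (c : ι → ℕ) (hanti : ∀ a b, a ≤ b → τ b ≤ τ a)
    (hsum : ∑ a ∈ range l, τ a = ∑ j ∈ J, c j)
    (hdom : ∀ k, k ≤ l → ∑ a ∈ range k, τ a ≤ ∑ j ∈ J, min (c j) k) :
    ∃ M : ℕ → Finset ι, (∀ a ∈ range l, M a ⊆ J ∧ (M a).card = τ a) ∧
      ∀ j ∈ J, ((range l).filter fun a => j ∈ M a).card = c j := by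
  induction l generalizing τ c with
  | zero =>
    refine ⟨fun _ => ∅, by simp, ?_⟩
    intro j hj
    have h0 : ∑ j ∈ J, c j = 0 := by simpa using hsum.symm
    have := (Finset.sum_eq_zero_iff.mp h0) j hj
    simp [this]
  | succ l ih =>
    -- the first row
    set t := τ 0 with ht
    have h1 : t ≤ (J.filter fun j => 1 ≤ c j).card := by
      have := hdom 1 (by omega)
      rw [sum_min_one] at this
      simpa [ht] using this
    have htJ : t ≤ J.card := h1.trans (Finset.card_filter_le _ _)
    obtain ⟨A, hAJ, hAcard, hAtop⟩ := exists_top_set J c t htJ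
    -- `c` is positive on `A`
    have hApos : ∀ j ∈ A, 1 ≤ c j := by
      intro j hj
      by_contra hlt
      have hc0 : c j = 0 := by omega
      have hsub : (J.filter fun j => 1 ≤ c j) ⊆ A.erase j := by
        intro x hx
        have hx' := Finset.mem_filter.mp hx
        refine Finset.mem_erase.mpr ⟨?_, ?_⟩
        · rintro rfl
          omega
        · by_contra hxA
          have := hAtop j hj x (Finset.mem_sdiff.mpr ⟨hx'.1, hxA⟩)
          omega
      have h2 := Finset.card_le_card hsub
      rw [Finset.card_erase_of_mem hj, hAcard] at h2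
      have hpos : 0 < t := by
        rw [← hAcard]
        exact Finset.card_pos.mpr ⟨j, hj⟩
      omega
    -- the smaller data
    set τ' : ℕ → ℕ := fun a => τ (a + 1) with hτ'
    set c' : ι → ℕ := fun j => c j - (if j ∈ A then 1 else 0) with hc'
    have hc'add : ∀ j ∈ J, c' j + (if j ∈ A then 1 else 0) = c j := by
      intro j _
      simp only [hc']
      by_cases hj : j ∈ A
      · have := hApos j hj
        simp only [hj, if_true]
        omega
      · simp [hj]
    have hsumA : ∑ j ∈ J, (if j ∈ A then 1 else 0) = t := by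
      rw [← hAcard, Finset.card_eq_sum_ones, Finset.sum_ite_mem]
      rw [Finset.inter_eq_right.mpr hAJ]
    have hsum0 : ∑ a ∈ range (l + 1), τ a = ∑ a ∈ range l, τ (a + 1) + τ 0 :=
      Finset.sum_range_succ' _ _
    have hanti' : ∀ a b, a ≤ b → τ' b ≤ τ' a := fun a b hab => hanti _ _ (by omega)
    have hsum' : ∑ a ∈ range l, τ' a = ∑ j ∈ J, c' j := by
      have h3 : ∑ j ∈ J, c j = ∑ j ∈ J, c' j + t := by
        rw [← hsumA, ← Finset.sum_add_distrib]
        exact Finset.sum_congr rfl fun j hj => (hc'add j hj).symm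
      rw [hsum0, h3] at hsum
      simp only [hτ']
      omega
    have hdom' : ∀ k, k ≤ l → ∑ a ∈ range k, τ' a ≤ ∑ j ∈ J, min (c' j) k := by
      intro k hk
      by_cases hcase : ∃ j ∈ J \ A, k < c j
      · -- case (a)
        obtain ⟨j, hj, hjk⟩ := hcase
        have hAbig : ∀ x ∈ A, k ≤ c' x := by
          intro x hx
          have := hAtop x hx j hj
          simp only [hc', hx, if_true]
          omega
        have hle1 : ∑ a ∈ range k, τ' a ≤ k * t := by
          calc ∑ a ∈ range k, τ' a ≤ ∑ _a ∈ range k, t :=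
                Finset.sum_le_sum fun a _ => hanti 0 (a + 1) (by omega)
            _ = k * t := by simp
        have hle2 : k * t ≤ ∑ j ∈ J, min (c' j) k := by
          calc k * t = ∑ _x ∈ A, k := by simp [hAcard, mul_comm]
            _ = ∑ x ∈ A, min (c' x) k :=
                Finset.sum_congr rfl fun x hx => (min_eq_right (hAbig x hx)).symm
            _ ≤ ∑ j ∈ J, min (c' j) k :=
                Finset.sum_le_sum_of_subset_of_nonneg hAJ fun _ _ _ => Nat.zero_le _
        exact hle1.trans hle2
      · -- case (b)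
        push Not at hcase
        have hpt : ∀ j ∈ J, min (c j) (k + 1) = min (c' j) k + (if j ∈ A then 1 else 0) := by
          intro j hj
          by_cases hjA : j ∈ A
          · have := hApos j hjA
            simp only [hc', hjA, if_true]
            omega
          · have := hcase j (Finset.mem_sdiff.mpr ⟨hj, hjA⟩)
            simp only [hc', hjA, if_false]
            omega
        have h4 : ∑ j ∈ J, min (c j) (k + 1) = ∑ j ∈ J, min (c' j) k + t := by
          rw [← hsumA, ← Finset.sum_add_distrib]
          exact Finset.sum_congr rfl hpt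
        have h5 := hdom (k + 1) (by omega)
        rw [h4, Finset.sum_range_succ'] at h5
        simp only [hτ']
        omega
    obtain ⟨M', hM'1, hM'2⟩ := ih τ' c' hanti' hsum' hdom'
    refine ⟨fun a => Nat.casesOn a A M', ?_, ?_⟩
    · intro a ha
      cases a with
      | zero => exact ⟨hAJ, hAcard⟩
      | succ b =>
        have hb : b ∈ range l := by
          simp only [Finset.mem_range] at ha ⊢
          omega
        exact hM'1 b hb
    · intro j hj
      have h6 := hM'2 j hj
      rw [Finset.card_filter, Finset.sum_range_succ']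
      rw [Finset.card_filter] at h6
      simp only [Nat.rec_zero] at h6 ⊢
      have h7 := hc'add j hj
      omega

/-- Cells of the first `k` rows counted by columns. -/
private theorem sum_rowLen_range_eq_min (γ : YoungDiagram) (k : ℕ) :
    ∑ i ∈ range k, γ.rowLen i = ∑ j ∈ range (γ.rowLen 0), min (γ.colLen j) k := by
  classical
  have h1 : ∀ i, γ.rowLen i = ∑ j ∈ range (γ.rowLen 0), (if i < γ.colLen j then 1 else 0) := by
    intro i
    rw [← Finset.card_filter]
    have : (range (γ.rowLen 0)).filter (fun j => i < γ.colLen j) = range (γ.rowLen i) := by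
      ext j
      simp only [mem_filter, mem_range]
      rw [← YoungDiagram.mem_iff_lt_colLen, YoungDiagram.mem_iff_lt_rowLen]
      constructor
      · exact fun h => h.2
      · exact fun h => ⟨lt_of_lt_of_le h (γ.rowLen_anti 0 i (Nat.zero_le _)), h⟩
    rw [this, card_range]
  rw [Finset.sum_congr rfl (fun i _ => h1 i), Finset.sum_comm]
  refine Finset.sum_congr rfl fun j _ => ?_
  rw [← Finset.card_filter]
  have : (range k).filter (fun i => i < γ.colLen j) = range (min (γ.colLen j) k) := by
    ext i
    simp only [mem_filter, mem_range, lt_min_iff]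
    tauto
  rw [this, card_range]

/-- The sum of the column heights. -/
private theorem sum_colLen_eq_card (γ : YoungDiagram) :
    ∑ j ∈ range (γ.rowLen 0), γ.colLen j = γ.card := by
  have h0 := sum_rowLen_range_eq_min γ (γ.colLen 0)
  have h1 : ∑ j ∈ range (γ.rowLen 0), min (γ.colLen j) (γ.colLen 0) =
      ∑ j ∈ range (γ.rowLen 0), γ.colLen j := by
    refine Finset.sum_congr rfl fun j _ => ?_
    exact min_eq_left (γ.colLen_anti 0 j (Nat.zero_le _))
  rw [← h1, ← h0, Finset.sum_range]
  exact Vale.Agent.Lib.P197.sum_rowLen_eq _ γ le_rfl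

/-- The colouring of the cells from the zero one matrix. -/
private theorem exists_cell_coloring (γ : YoungDiagram) (l : ℕ) (t : ℕ → ℕ) (M : ℕ → Finset ℕ)
    (hM : ∀ a ∈ range l, M a ⊆ range (γ.rowLen 0) ∧ (M a).card = t a)
    (hc : ∀ j ∈ range (γ.rowLen 0), ((range l).filter fun a => j ∈ M a).card = γ.colLen j) :
    ∃ g : ℕ × ℕ → ℕ, (∀ i i' j, (i', j) ∈ γ → i < i' → g (i, j) < g (i', j)) ∧
      (∀ a, a < l → (γ.cells.filter fun c => g c = a).card = t a) ∧
      (∀ a, l ≤ a → (γ.cells.filter fun c => g c = a) = ∅) := by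
  classical
  let L : ℕ → Finset ℕ := fun j => (range l).filter fun a => j ∈ M a
  let g : ℕ × ℕ → ℕ := fun c =>
    if h : c.1 < (L c.2).card then (L c.2).orderEmbOfFin rfl ⟨c.1, h⟩ else 0
  have hJ : ∀ i j, (i, j) ∈ γ → j ∈ range (γ.rowLen 0) := by
    intro i j h
    rw [mem_range]
    exact lt_of_lt_of_le (YoungDiagram.mem_iff_lt_rowLen.1 h) (γ.rowLen_anti 0 i (Nat.zero_le _))
  have hlt : ∀ i j, (i, j) ∈ γ → i < (L j).card := by
    intro i j h
    have := hc j (hJ i j h)
    change i < ((range l).filter fun a => j ∈ M a).card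
    rw [this]
    exact YoungDiagram.mem_iff_lt_colLen.1 h
  have hgval : ∀ i j (h : i < (L j).card), g (i, j) = (L j).orderEmbOfFin rfl ⟨i, h⟩ := by
    intro i j h
    change (if h' : i < (L j).card then (L j).orderEmbOfFin rfl ⟨i, h'⟩ else 0) = _
    rw [dif_pos h]
  have hgmem : ∀ i j, (i, j) ∈ γ → g (i, j) ∈ L j := by
    intro i j h
    rw [hgval i j (hlt i j h)]
    exact Finset.orderEmbOfFin_mem _ _ _
  have hmono : ∀ i i' j, (i', j) ∈ γ → i < i' → g (i, j) < g (i', j) := by
    intro i i' j h hii
    have h' := hlt i' j h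
    have h'' : i < (L j).card := lt_trans hii h'
    rw [hgval i j h'', hgval i' j h']
    exact ((L j).orderEmbOfFin rfl).strictMono (by simpa using hii)
  refine ⟨g, hmono, ?_, ?_⟩
  · intro a ha
    have haM := hM a (mem_range.2 ha)
    rw [← haM.2]
    refine Finset.card_bij (fun c _ => c.2) ?_ ?_ ?_
    · intro c hc'
      rw [mem_filter] at hc'
      obtain ⟨hcell, hca⟩ := hc'
      have hcell' : (c.1, c.2) ∈ γ := hcell
      have := hgmem c.1 c.2 hcell'
      change g c ∈ L c.2 at this
      rw [hca] at this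
      exact (mem_filter.1 this).2
    · intro c hc' d hd' hcd
      rw [mem_filter] at hc' hd'
      obtain ⟨hcell, hca⟩ := hc'
      obtain ⟨hdcell, hda⟩ := hd'
      have hcell' : (c.1, c.2) ∈ γ := hcell
      have hdcell' : (d.1, d.2) ∈ γ := hdcell
      have hcd2 : c.2 = d.2 := hcd
      have hdcell'' : (d.1, c.2) ∈ γ := by rw [hcd2]; exact hdcell'
      have h1 : c.1 = d.1 := by
        rcases lt_trichotomy c.1 d.1 with h | h | h
        · have := hmono c.1 d.1 c.2 hdcell'' h
          have e1 : g (c.1, c.2) = a := hca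
          have e2 : g (d.1, c.2) = a := by rw [hcd2]; exact hda
          omega
        · exact h
        · have := hmono d.1 c.1 c.2 hcell' h
          have e1 : g (c.1, c.2) = a := hca
          have e2 : g (d.1, c.2) = a := by rw [hcd2]; exact hda
          omega
      exact Prod.ext h1 hcd2
    · intro j hj
      have hjJ := haM.1 hj
      have haL : a ∈ L j := mem_filter.2 ⟨mem_range.2 ha, hj⟩
      have hrange : a ∈ Set.range ((L j).orderEmbOfFin rfl) := by
        rw [Finset.range_orderEmbOfFin]
        exact haL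
      obtain ⟨i, hi⟩ := hrange
      have hi' : (i : ℕ) < γ.colLen j := by
        have h3 : (L j).card = γ.colLen j := hc j hjJ
        have hi2 : (i : ℕ) < (L j).card := i.2
        omega
      refine ⟨((i : ℕ), j), ?_, rfl⟩
      rw [mem_filter]
      refine ⟨YoungDiagram.mem_iff_lt_colLen.2 hi', ?_⟩
      rw [hgval (i : ℕ) j i.2]
      exact hi
  · intro a ha
    rw [Finset.filter_eq_empty_iff]
    intro c hcell hca
    have hcell' : (c.1, c.2) ∈ γ := hcell
    have := hgmem c.1 c.2 hcell'
    change g c ∈ L c.2 at this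
    rw [hca] at this
    have := mem_range.1 (mem_filter.1 this).1
    omega

/-- The colouring form. -/
theorem exists_strict_coloring {n : ℕ} {τ γ : YoungDiagram} (T : Filling n τ) (S : Filling n γ)
    (hdom : Dom γ τ) :
    ∃ f : Perm (Fin n), ∀ u u', colOf S u = colOf S u' → rowOf S u < rowOf S u' →
      rowOf T (f u) < rowOf T (f u') := by
  classical
  have hτcard : τ.card = n := card_of_filling T
  have hγcard : γ.card = n := card_of_filling S
  have hτsum : ∑ a ∈ range (τ.colLen 0), τ.rowLen a = n := by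
    rw [← hτcard, Finset.sum_range]
    exact Vale.Agent.Lib.P197.sum_rowLen_eq _ τ le_rfl
  have hγsum : ∑ j ∈ range (γ.rowLen 0), γ.colLen j = n := by
    rw [← hγcard]
    exact sum_colLen_eq_card γ
  obtain ⟨M, hM1, hM2⟩ := gale_ryser (range (γ.rowLen 0)) (τ.colLen 0) τ.rowLen γ.colLen
    (fun a b hab => τ.rowLen_anti a b hab) (by rw [hτsum, hγsum])
    (fun k _ => by
      rw [← sum_rowLen_range_eq_min]
      exact hdom k)
  obtain ⟨g, hg1, hg2, hg3⟩ := exists_cell_coloring γ (τ.colLen 0) τ.rowLen M hM1 hM2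
  -- the colouring of the labels
  let col : Fin n → ℕ := fun u => g (S u).1
  have hcount : ∀ a, (univ.filter fun u => col u = a).card =
      (γ.cells.filter fun c => g c = a).card := by
    intro a
    refine Finset.card_bij (fun u _ => (S u).1) ?_ ?_ ?_
    · intro u hu
      rw [mem_filter] at hu ⊢
      exact ⟨(S u).2, hu.2⟩
    · intro u _ v _ huv
      exact S.injective (Subtype.ext huv)
    · intro c hc
      rw [mem_filter] at hc
      refine ⟨S.symm ⟨c, hc.1⟩, ?_, by simp⟩
      rw [mem_filter]
      refine ⟨mem_univ _, ?_⟩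
      change g (S (S.symm ⟨c, hc.1⟩)).1 = a
      simpa using hc.2
  have hTcount : ∀ a, (univ.filter fun x => rowOf T x = a).card = τ.rowLen a := by
    intro a
    rw [YoungDiagram.rowLen_eq_card]
    refine Finset.card_bij (fun u _ => (T u).1) ?_ ?_ ?_
    · intro u hu
      rw [mem_filter] at hu
      rw [YoungDiagram.row, mem_filter]
      exact ⟨(T u).2, hu.2⟩
    · intro u _ v _ huv
      exact T.injective (Subtype.ext huv)
    · intro c hc
      rw [YoungDiagram.row, mem_filter] at hc
      refine ⟨T.symm ⟨c, hc.1⟩, ?_, by simp⟩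
      rw [mem_filter]
      refine ⟨mem_univ _, ?_⟩
      change (T (T.symm ⟨c, hc.1⟩)).1.1 = a
      simpa using hc.2
  have hdeg : degF (rowOf T) = degF col := by
    ext a
    rw [degF_apply, degF_apply, hTcount, hcount]
    by_cases ha : a < τ.colLen 0
    · rw [hg2 a ha]
    · rw [hg3 a (not_lt.1 ha), card_empty]
      have : (a, 0) ∉ τ := by
        rw [YoungDiagram.mem_iff_lt_colLen]
        exact ha
      by_contra hne
      exact this (YoungDiagram.mem_iff_lt_rowLen.2 (Nat.pos_of_ne_zero hne))
  obtain ⟨f, hf⟩ := exists_perm_of_degF hdeg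
  refine ⟨f, ?_⟩
  intro u u' hcol hrow
  rw [hf u, hf u']
  have hcell : ((S u').1.1, (S u').1.2) ∈ γ := (S u').2
  have hu : (S u).1 = (rowOf S u, colOf S u) := rfl
  have hu' : (S u').1 = (rowOf S u', colOf S u') := rfl
  change g (S u).1 < g (S u').1
  rw [hu, hu', hcol]
  have hcell2 : (rowOf S u', colOf S u') ∈ γ := hcell
  exact hg1 _ _ _ hcell2 hrow

end Vale.Agent.Lib.P197X
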