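import Mathlib

/-!
# P197X: injectivity of the down operator on subsets above the middle (blueprint Sec 3)
-/

open Finset

namespace Vale.Agent.Lib.P197X

variable {X : Type*} [DecidableEq X]

private lemma sum_insert_eq (U : Finset X) (j : ℕ) (F : Finset X → X → ℤ) :
    ∑ B ∈ powersetCard j U, ∑ z ∈ U \ B, F (insert z B) z =
      ∑ A ∈ powersetCard (j + 1) U, ∑ z ∈ A, F A z := by
  rw [Finset.sum_sigma', Finset.sum_sigma']
  refine Finset.sum_bij' (fun x _ => ⟨insert x.2 x.1, x.2⟩) (fun x _ => ⟨x.1.erase x.2, x.2⟩)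
    ?_ ?_ ?_ ?_ ?_
  · rintro ⟨B, z⟩ hx
    simp only [mem_sigma, mem_powersetCard, mem_sdiff] at hx ⊢
    obtain ⟨⟨hB, hc⟩, hz, hzB⟩ := hx
    refine ⟨⟨?_, ?_⟩, mem_insert_self _ _⟩
    · exact insert_subset hz hB
    · rw [card_insert_of_notMem hzB, hc]
  · rintro ⟨A, z⟩ hx
    simp only [mem_sigma, mem_powersetCard, mem_sdiff] at hx ⊢
    obtain ⟨⟨hA, hc⟩, hz⟩ := hx
    refine ⟨⟨(erase_subset _ _).trans hA, ?_⟩, hA hz, ?_⟩
    · rw [card_erase_of_mem hz, hc]; rfl
    · exact notMem_erase _ _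
  · rintro ⟨B, z⟩ hx
    simp only [mem_sigma, mem_powersetCard, mem_sdiff] at hx
    simp [erase_insert hx.2.2]
  · rintro ⟨A, z⟩ hx
    simp only [mem_sigma, mem_powersetCard] at hx
    simp [insert_erase hx.2]
  · rintro ⟨B, z⟩ _
    rfl

private lemma sq_sum_expand (S : Finset X) (a : X → ℤ) :
    (∑ z ∈ S, a z) ^ 2 = ∑ z ∈ S, (a z) ^ 2 + ∑ z ∈ S, ∑ w ∈ S.erase z, a z * a w := by
  rw [sq, Finset.sum_mul_sum, ← Finset.sum_add_distrib]
  refine Finset.sum_congr rfl fun z hz => ?_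
  rw [← Finset.add_sum_erase S _ hz, sq]

/-- The commutation identity for the up and down operators. -/
private lemma identity (U : Finset X) (j : ℕ) (g : Finset X → ℤ) :
    ∑ B ∈ powersetCard j U, (∑ z ∈ U \ B, g (insert z B)) ^ 2 + (U.card : ℤ) *
        ∑ A ∈ powersetCard (j + 1) U, g A ^ 2 =
      ∑ C ∈ powersetCard (j + 2) U, (∑ w ∈ C, g (C.erase w)) ^ 2 +
        (2 * (j + 1 : ℤ)) * ∑ A ∈ powersetCard (j + 1) U, g A ^ 2 := by
  -- the two diagonal terms
  have h1 : ∑ B ∈ powersetCard j U, ∑ z ∈ U \ B, g (insert z B) ^ 2 =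
      (j + 1 : ℤ) * ∑ A ∈ powersetCard (j + 1) U, g A ^ 2 := by
    have := sum_insert_eq U j (fun A _ => g A ^ 2)
    rw [this, Finset.mul_sum]
    refine Finset.sum_congr rfl fun A hA => ?_
    rw [Finset.sum_const, (mem_powersetCard.1 hA).2]
    simp
  have h2 : ∑ C ∈ powersetCard (j + 2) U, ∑ w ∈ C, g (C.erase w) ^ 2 =
      (U.card - (j + 1) : ℤ) * ∑ A ∈ powersetCard (j + 1) U, g A ^ 2 := by
    have := sum_insert_eq U (j + 1) (fun C w => g (C.erase w) ^ 2)
    rw [← this, Finset.mul_sum]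
    refine Finset.sum_congr rfl fun A hA => ?_
    obtain ⟨hAU, hc⟩ := mem_powersetCard.1 hA
    have : ∀ z ∈ U \ A, g ((insert z A).erase z) ^ 2 = g A ^ 2 := by
      intro z hz
      rw [erase_insert (mem_sdiff.1 hz).2]
    rw [Finset.sum_congr rfl this, Finset.sum_const, card_sdiff_of_subset hAU, hc,
      nsmul_eq_mul]
    have hle : j + 1 ≤ U.card := hc ▸ card_le_card hAU
    push_cast [Nat.cast_sub hle]
    ring
  -- the off diagonal terms
  have h3 : ∑ C ∈ powersetCard (j + 2) U, ∑ w ∈ C, ∑ w' ∈ C.erase w,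
        g (C.erase w) * g (C.erase w') =
      ∑ B ∈ powersetCard j U, ∑ z ∈ U \ B, ∑ w ∈ (U \ B).erase z,
        g (insert z B) * g (insert w B) := by
    have e1 := sum_insert_eq U (j + 1)
      (fun C w => ∑ w' ∈ C.erase w, g (C.erase w) * g (C.erase w'))
    rw [← e1]
    have e2 := sum_insert_eq U j
      (fun A w' => ∑ w ∈ U \ A, g A * g (insert w (A.erase w')))
    have e3 : ∀ A ∈ powersetCard (j + 1) U,
        ∑ z ∈ U \ A, ∑ w' ∈ (insert z A).erase z,
            g ((insert z A).erase z) * g ((insert z A).erase w') =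
          ∑ w' ∈ A, ∑ w ∈ U \ A, g A * g (insert w (A.erase w')) := by
      intro A _
      rw [Finset.sum_comm' (t' := A) (s' := fun _ => U \ A)]
      · refine Finset.sum_congr rfl fun w' hw' => Finset.sum_congr rfl fun z hz => ?_
        have hzA := (mem_sdiff.1 hz).2
        have hne : z ≠ w' := fun e => hzA (e ▸ hw')
        rw [erase_insert hzA, erase_insert_of_ne hne]
      · intro z w'
        constructor
        · rintro ⟨hz, hw⟩
          rw [erase_insert (mem_sdiff.1 hz).2] at hw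
          exact ⟨hz, hw⟩
        · rintro ⟨hz, hw⟩
          refine ⟨hz, ?_⟩
          rwa [erase_insert (mem_sdiff.1 hz).2]
    rw [Finset.sum_congr rfl e3, ← e2]
    refine Finset.sum_congr rfl fun B _ => Finset.sum_congr rfl fun z hz => ?_
    have hzB := (mem_sdiff.1 hz).2
    have hs : U \ insert z B = (U \ B).erase z := by
      ext y; simp only [mem_sdiff, mem_insert, mem_erase]; tauto
    rw [hs]
    refine Finset.sum_congr rfl fun w _ => ?_
    rw [erase_insert hzB]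
  -- assemble
  have hL : ∑ B ∈ powersetCard j U, (∑ z ∈ U \ B, g (insert z B)) ^ 2 =
      ∑ B ∈ powersetCard j U, ∑ z ∈ U \ B, g (insert z B) ^ 2 +
        ∑ B ∈ powersetCard j U, ∑ z ∈ U \ B, ∑ w ∈ (U \ B).erase z,
          g (insert z B) * g (insert w B) := by
    rw [← Finset.sum_add_distrib]
    exact Finset.sum_congr rfl fun B _ => sq_sum_expand _ _
  have hR : ∑ C ∈ powersetCard (j + 2) U, (∑ w ∈ C, g (C.erase w)) ^ 2 =
      ∑ C ∈ powersetCard (j + 2) U, ∑ w ∈ C, g (C.erase w) ^ 2 +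
        ∑ C ∈ powersetCard (j + 2) U, ∑ w ∈ C, ∑ w' ∈ C.erase w,
          g (C.erase w) * g (C.erase w') := by
    rw [← Finset.sum_add_distrib]
    exact Finset.sum_congr rfl fun C _ => sq_sum_expand _ _
  rw [hL, hR, h1, h2, h3]
  ring

/-- **Down operator.** If `|U| < 2k` and the sum of `g` over the `k`-subsets of `U` above each
`(k-1)`-subset vanishes, then `g` vanishes on the `k`-subsets of `U`. -/
theorem gottlieb (U : Finset X) (k : ℕ) (hk : U.card < 2 * k) (g : Finset X → ℤ)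
    (h : ∀ A ⊆ U, A.card + 1 = k → ∑ z ∈ U \ A, g (insert z A) = 0) :
    ∀ A ⊆ U, A.card = k → g A = 0 := by
  obtain ⟨j, rfl⟩ : ∃ j, k = j + 1 := ⟨k - 1, by omega⟩
  have hid := identity U j g
  have h0 : ∑ B ∈ powersetCard j U, (∑ z ∈ U \ B, g (insert z B)) ^ 2 = 0 := by
    refine Finset.sum_eq_zero fun B hB => ?_
    obtain ⟨hBU, hc⟩ := mem_powersetCard.1 hB
    rw [h B hBU (by omega)]
    simp
  rw [h0, zero_add] at hid
  have hE : 0 ≤ ∑ A ∈ powersetCard (j + 1) U, g A ^ 2 :=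
    Finset.sum_nonneg fun _ _ => sq_nonneg _
  have hC : 0 ≤ ∑ C ∈ powersetCard (j + 2) U, (∑ w ∈ C, g (C.erase w)) ^ 2 :=
    Finset.sum_nonneg fun _ _ => sq_nonneg _
  have hk' : (U.card : ℤ) + 1 ≤ 2 * (j + 1 : ℤ) := by
    have : U.card + 1 ≤ 2 * (j + 1) := hk
    exact_mod_cast this
  have hE0 : ∑ A ∈ powersetCard (j + 1) U, g A ^ 2 = 0 := by
    nlinarith
  intro A hA hc
  have hmem : A ∈ powersetCard (j + 1) U := mem_powersetCard.2 ⟨hA, hc⟩
  have := (Finset.sum_eq_zero_iff_of_nonneg (fun _ _ => sq_nonneg _)).1 hE0 A hmem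
  exact pow_eq_zero_iff (two_ne_zero) |>.1 this

end Vale.Agent.Lib.P197X
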