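import Mathlib

/-!
# P197X: all residues as subset sums (blueprint Sec 8)
-/

open Finset

namespace Vale.Agent.Lib.P197X

/-- **Growth lemma.** -/
theorem growth {ι : Type*} [DecidableEq ι] (v : ℕ) (hv : 1 ≤ v) (Y : Finset ι) (a : ι → ℕ)
    (hY : ∀ r, 2 ≤ r → r ∣ v → v ≤ (Y.filter fun i => ¬ r ∣ a i).card) :
    ∃ U ⊆ Y, U.card + 1 ≤ v ∧ ∀ x : ℕ, ∃ s ⊆ U, (∑ i ∈ s, a i) ≡ x [MOD v] := by
  classical
  have : NeZero v := ⟨by omega⟩
  set R : Finset ι → Finset (ZMod v) :=
    fun U => U.powerset.image (fun s => ((∑ i ∈ s, a i : ℕ) : ZMod v)) with hR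
  have hmemR : ∀ U y, y ∈ R U ↔ ∃ s ⊆ U, ((∑ i ∈ s, a i : ℕ) : ZMod v) = y := by
    intro U y
    simp [hR, Finset.mem_image, Finset.mem_powerset]
  set P := Y.powerset.filter (fun U => U.card + 1 ≤ (R U).card) with hPdef
  have hP : P.Nonempty := by
    refine ⟨∅, ?_⟩
    simp [hPdef, hR]
  obtain ⟨U, hU, hmax⟩ := Finset.exists_max_image P Finset.card hP
  rw [hPdef, Finset.mem_filter, Finset.mem_powerset] at hU
  obtain ⟨hUY, hUR⟩ := hU
  have hRle : (R U).card ≤ v := by
    calc (R U).card ≤ (Finset.univ : Finset (ZMod v)).card := Finset.card_le_card (Finset.subset_univ _)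
      _ = v := by simp [ZMod.card]
  have hUv : U.card + 1 ≤ v := le_trans hUR hRle
  refine ⟨U, hUY, hUv, ?_⟩
  -- closure of `R U` under adding `a i`, `i ∈ Y \ U`
  have hclosed : ∀ i ∈ Y, i ∉ U → ∀ y ∈ R U, y + ((a i : ℕ) : ZMod v) ∈ R U := by
    intro i hi hiU y hy
    by_contra hcon
    have hsub : insert (y + ((a i : ℕ) : ZMod v)) (R U) ⊆ R (insert i U) := by
      intro z hz
      rw [Finset.mem_insert] at hz
      rw [hmemR]
      rcases hz with rfl | hz
      · obtain ⟨s, hs, rfl⟩ := (hmemR U y).1 hy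
        refine ⟨insert i s, Finset.insert_subset_insert i hs, ?_⟩
        have his : i ∉ s := fun h => hiU (hs h)
        rw [Finset.sum_insert his]
        push_cast
        ring
      · obtain ⟨s, hs, rfl⟩ := (hmemR U z).1 hz
        exact ⟨s, hs.trans (Finset.subset_insert i U), rfl⟩
    have hcard : (insert i U).card + 1 ≤ (R (insert i U)).card := by
      have h1 := Finset.card_le_card hsub
      rw [Finset.card_insert_of_notMem hcon] at h1
      rw [Finset.card_insert_of_notMem hiU]
      omega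
    have hmem : insert i U ∈ P := by
      rw [hPdef, Finset.mem_filter, Finset.mem_powerset]
      exact ⟨Finset.insert_subset hi hUY, hcard⟩
    have := hmax _ hmem
    rw [Finset.card_insert_of_notMem hiU] at this
    omega
  -- stabiliser
  let S : AddSubgroup (ZMod v) :=
    { carrier := {g | ∀ y, y ∈ R U ↔ y + g ∈ R U}
      zero_mem' := by
        intro y
        simp
      add_mem' := by
        intro g g' hg hg' y
        rw [hg y, hg' (y + g), add_assoc]
      neg_mem' := by
        intro g hg y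
        rw [hg (y + -g)]
        simp }
  have hSmem : ∀ g, g ∈ S ↔ ∀ y, y ∈ R U ↔ y + g ∈ R U := fun g => Iff.rfl
  have hstab : ∀ g : ZMod v, (∀ y ∈ R U, y + g ∈ R U) → g ∈ S := by
    intro g hg
    rw [hSmem]
    intro y
    refine ⟨hg y, ?_⟩
    intro hy
    have him : (R U).image (fun z => z + g) = R U := by
      apply Finset.eq_of_subset_of_card_le
      · intro z hz
        obtain ⟨w, hw, rfl⟩ := Finset.mem_image.1 hz
        exact hg w hw
      · rw [Finset.card_image_of_injective _ (add_left_injective g)]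
    rw [← him] at hy
    obtain ⟨w, hw, hwy⟩ := Finset.mem_image.1 hy
    have : w = y := add_right_cancel hwy
    exact this ▸ hw
  by_contra hcon
  push Not at hcon
  obtain ⟨x0, hx0⟩ := hcon
  have hx0' : ((x0 : ℕ) : ZMod v) ∉ R U := by
    intro hmem
    obtain ⟨s, hs, hsx⟩ := (hmemR U _).1 hmem
    exact hx0 s hs ((ZMod.natCast_eq_natCast_iff _ _ _).1 hsx)
  have hex : ∃ n : ℕ, 0 < n ∧ ((n : ℕ) : ZMod v) ∈ S := by
    refine ⟨v, by omega, ?_⟩
    rw [ZMod.natCast_self]
    exact S.zero_mem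
  classical
  set r := Nat.find hex with hr
  have hrspec : 0 < r ∧ ((r : ℕ) : ZMod v) ∈ S := Nat.find_spec hex
  have hdvd : ∀ n : ℕ, ((n : ℕ) : ZMod v) ∈ S → r ∣ n := by
    intro n hn
    have hmod : ((n % r : ℕ) : ZMod v) ∈ S := by
      have hdecomp : ((n % r : ℕ) : ZMod v) = (n : ZMod v) - (n / r) • ((r : ℕ) : ZMod v) := by
        have hnr : n = n % r + r * (n / r) := (Nat.mod_add_div n r).symm
        have hthis : (n : ZMod v) = ((n % r : ℕ) : ZMod v) + ((r : ℕ) : ZMod v) * ((n / r : ℕ) : ZMod v) := by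
          rw [← Nat.cast_mul, ← Nat.cast_add, ← hnr]
        rw [hthis, nsmul_eq_mul]
        ring
      rw [hdecomp]
      exact S.sub_mem hn (S.nsmul_mem hrspec.2 _)
    by_contra hnd
    have hpos : 0 < n % r := by
      rcases Nat.eq_zero_or_pos (n % r) with h0 | h0
      · exact absurd (Nat.dvd_of_mod_eq_zero h0) hnd
      · exact h0
    have hlt : n % r < r := Nat.mod_lt _ hrspec.1
    exact Nat.find_min hex hlt ⟨hpos, hmod⟩
  have hrv : r ∣ v := by
    apply hdvd
    rw [ZMod.natCast_self]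
    exact S.zero_mem
  have hr2 : 2 ≤ r := by
    by_contra hlt
    have hr1 : r = 1 := by have := hrspec.1; omega
    have h1 : ((1 : ℕ) : ZMod v) ∈ S := by
      have := hrspec.2
      rwa [hr1] at this
    have hall : ((x0 : ℕ) : ZMod v) ∈ S := by
      have : ((x0 : ℕ) : ZMod v) = x0 • ((1 : ℕ) : ZMod v) := by simp
      rw [this]
      exact S.nsmul_mem h1 _
    have h0R : (0 : ZMod v) ∈ R U := by
      rw [hmemR]
      exact ⟨∅, Finset.empty_subset _, by simp⟩
    have := ((hSmem _).1 hall 0).1 h0R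
    rw [zero_add] at this
    exact hx0' this
  have hbound := hY r hr2 hrv
  have hsubU : (Y.filter fun i => ¬ r ∣ a i) ⊆ U := by
    intro i hi
    rw [Finset.mem_filter] at hi
    by_contra hiU
    exact hi.2 (hdvd _ (hstab _ (hclosed i hi.1 hiU)))
  have := Finset.card_le_card hsubU
  omega

/-- **Greedy lemma.** Partial sums of numbers at most `h` hit every window of length `h`. -/
theorem greedy {ι : Type*} [DecidableEq ι] (E : Finset ι) (a : ι → ℕ) (h : ℕ) (hh : 1 ≤ h)
    (ha : ∀ i ∈ E, a i ≤ h) (x : ℕ) (hx : x ≤ ∑ i ∈ E, a i) :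
    ∃ W ⊆ E, ∑ i ∈ W, a i ≤ x ∧ x < ∑ i ∈ W, a i + h := by
  classical
  set P := E.powerset.filter (fun W => ∑ i ∈ W, a i ≤ x) with hPdef
  have hP : P.Nonempty := ⟨∅, by simp [hPdef]⟩
  obtain ⟨W, hW, hmax⟩ := Finset.exists_max_image P Finset.card hP
  rw [hPdef, Finset.mem_filter, Finset.mem_powerset] at hW
  refine ⟨W, hW.1, hW.2, ?_⟩
  by_contra hcon
  push Not at hcon
  have hne : W ≠ E := by
    rintro rfl
    omega
  obtain ⟨i, hiE, hiW⟩ : ∃ i ∈ E, i ∉ W := by
    by_contra hall
    push Not at hall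
    exact hne (Finset.Subset.antisymm hW.1 hall)
  have hmem : insert i W ∈ P := by
    rw [hPdef, Finset.mem_filter, Finset.mem_powerset]
    refine ⟨Finset.insert_subset hiE hW.1, ?_⟩
    rw [Finset.sum_insert hiW]
    have := ha i hiE
    omega
  have := hmax _ hmem
  rw [Finset.card_insert_of_notMem hiW] at this
  omega

end Vale.Agent.Lib.P197X
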