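import Vale.Agent.Lib.P197X.Peel

/-!
# P197X: the arithmetic of the light case (blueprint Sec 12)
-/

open Finset

namespace Vale.Agent.Lib.P197X

private theorem two_stair' (t r : ℕ) : 2 * stairS (t + r) t = t * (t + 2 * r + 1) := by
  rw [two_stairS (t + r) t (by omega)]
  congr 1
  omega

private theorem two_NN (r : ℕ) : 2 * NN r = r * (r + 1) := by
  have h : 2 ∣ r * (r + 1) := by
    exact (Nat.even_mul_succ_self r).two_dvd
  show 2 * (r * (r + 1) / 2) = r * (r + 1)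
  exact Nat.mul_div_cancel' h

private theorem aux1 (D m C x : ℕ) (hm1 : 40000 * (D ^ 3 + 3 * D ^ 2 + 3 * D + 1) ≤ m)
    (hCl : m < C + 2 * D) (hD2 : D ≤ D ^ 2) (hD3 : D ^ 2 ≤ D ^ 3)
    (h4 : 2 * x ≤ 14 * D * (14 * D + 2 * (2 * D) + 1)) : x + 11 * D ^ 2 ≤ C := by
  have h : 14 * D * (14 * D + 2 * (2 * D) + 1) = 252 * D ^ 2 + 14 * D := by ring
  rw [h] at h4
  linarith

private theorem aux2 (D m C t r x : ℕ) (hD : 1 ≤ D)
    (hm1 : 40000 * (D ^ 3 + 3 * D ^ 2 + 3 * D + 1) ≤ m) (hm' : m = t + r) (ht : t ≤ 14 * D)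
    (ht2 : 12 * D ≤ t) (hx : 2 * x = t * (t + 2 * r + 1)) (h8 : x ≤ C)
    (hC2 : 2 * C < 16 * D * m) : False := by
  have h1 : 12 * D * (2 * r) ≤ t * (t + 2 * r + 1) := Nat.mul_le_mul ht2 (by omega)
  have h2 : 16 * D * t ≤ 16 * D * (14 * D) := Nat.mul_le_mul_left _ ht
  have h3 : D * (8 * r) < D * (224 * D) := by
    have e1 : 16 * D * m = 16 * D * t + 16 * D * r := by rw [hm']; ring
    have e2 : 12 * D * (2 * r) = 24 * D * r := by ring
    have e3 : 16 * D * (14 * D) = D * (224 * D) := by ring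
    have e4 : D * (8 * r) = 8 * (D * r) := by ring
    have e5 : 24 * D * r = 24 * (D * r) := by ring
    have e6 : 16 * D * r = 16 * (D * r) := by ring
    omega
  have h4 : 8 * r < 224 * D := Nat.lt_of_mul_lt_mul_left h3
  have h5 : D ≤ D ^ 2 := Nat.le_self_pow (by norm_num) D
  have h6 : 0 ≤ D ^ 3 := Nat.zero_le _
  have h7 : 40000 * D ≤ m := by linarith
  omega

private theorem aux4 (D m a S : ℕ) (ha2 : 2 * D ≤ a) (hx1 : a * m ≤ 2 * S) : D * m ≤ S := by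
  have h := Nat.mul_le_mul_right m ha2
  have e : 2 * D * m = 2 * (D * m) := by ring
  omega

private theorem aux5 (D m S : ℕ) (h23 : 40000 * D ≤ m) (hDm : D * m ≤ S) : 3 * D ^ 2 ≤ S := by
  have h := Nat.mul_le_mul_left D h23
  have e : D * (40000 * D) = 40000 * D ^ 2 := by ring
  omega

private theorem aux6 (D t : ℕ) (hD : 1 ≤ D) (h : 100 * (D ^ 2 + D) ≤ t) :
    28 * D * t + 102 * D ^ 2 ≤ t * t := by
  have h1 : 100 * D ≤ t := by
    have : 0 ≤ D ^ 2 := Nat.zero_le _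
    omega
  have h2 : 100 * D * t ≤ t * t := Nat.mul_le_mul_right t h1
  have h3 : D * (100 * D) ≤ D * t := Nat.mul_le_mul_left D h1
  have e1 : 100 * D * t = 100 * (D * t) := by ring
  have e2 : D * (100 * D) = 100 * D ^ 2 := by ring
  have e3 : 28 * D * t = 28 * (D * t) := by ring
  omega

private theorem aux7 (D t C x : ℕ) (hC39 : C < x + 39 * D ^ 2) (hx : x ≤ 14 * D * t)
    (h25 : 28 * D * t + 102 * D ^ 2 ≤ t * t) : 2 * C + 24 * D ^ 2 ≤ t * (t + 1) := by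
  have e1 : 28 * D * t = 2 * (14 * D * t) := by ring
  have e2 : t * (t + 1) = t * t + t := by ring
  omega

private theorem aux8 (D t x : ℕ) (h : 12 * D * t ≤ 2 * x) : D * t ≤ x := by
  have e : 12 * D * t = 12 * (D * t) := by ring
  omega

private theorem aux9 (D r : ℕ) (hD : 1 ≤ D) (hr1 : 39 * D ^ 2 + 2 * D ≤ r) :
    2 * D * r + 78 * D ^ 2 ≤ r * (r + 1) := by
  have h1 : (39 * D ^ 2 + 2 * D) * r ≤ r * r := Nat.mul_le_mul_right r hr1
  have h2 : 2 ≤ r := by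
    have : 1 ≤ D ^ 2 := Nat.one_le_pow _ _ hD
    omega
  have h3 : D ^ 2 * 2 ≤ D ^ 2 * r := Nat.mul_le_mul_left _ h2
  have e1 : (39 * D ^ 2 + 2 * D) * r = 39 * (D ^ 2 * r) + 2 * D * r := by ring
  have e2 : r * (r + 1) = r * r + r := by ring
  omega

/-- Parameters of the light case. All numbers are natural. -/
theorem light_arith (D m C E box q₁ q₂ : ℕ) (hD : 1 ≤ D) (hm : 40000 * (D + 1) ^ 3 ≤ m)
    (hq₁ : 1 ≤ q₁ ∧ q₁ ≤ D) (hq₂ : 1 ≤ q₂ ∧ q₂ ≤ D) (hCl : m < C + 2 * D) (hCu : C < 8 * D * m)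
    (hsum : box + C + E = NN m) (hbox : box ≤ D ^ 2) :
    ∃ t₂ mp : ℕ, t₂ ≤ 14 * D ∧ t₂ ≤ mp ∧ mp ≤ m ∧
      q₂ ∣ stairS mp t₂ ∧ q₁ ∣ stairS m (m - mp) ∧
      3 * D ^ 2 ≤ stairS mp t₂ ∧ stairS mp t₂ + 11 * D ^ 2 ≤ C ∧ C < stairS mp t₂ + 39 * D ^ 2 ∧
      3 * D ^ 2 ≤ stairS m (m - mp) ∧ stairS m (m - mp) + 11 * D ^ 2 ≤ E ∧
      D * m ≤ stairS m (m - mp) ∧ D * mp ≤ stairS mp t₂ ∧
      39 * D ^ 2 + 2 * D ≤ mp - t₂ ∧
      D * (mp - t₂) + 39 * D ^ 2 ≤ NN (mp - t₂) := by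
  obtain ⟨hq₁l, hq₁u⟩ := hq₁
  obtain ⟨hq₂l, hq₂u⟩ := hq₂
  have hm1 : 40000 * (D ^ 3 + 3 * D ^ 2 + 3 * D + 1) ≤ m := by
    calc 40000 * (D ^ 3 + 3 * D ^ 2 + 3 * D + 1) = 40000 * (D + 1) ^ 3 := by ring
      _ ≤ m := hm
  have hD2 : D ≤ D ^ 2 := Nat.le_self_pow (by norm_num) D
  have hD3 : D ^ 2 ≤ D ^ 3 := Nat.pow_le_pow_right hD (by norm_num)
  -- the multiple `t₂`
  obtain ⟨j₂, ht2l, ht2u⟩ : ∃ j₂, 12 * D ≤ 2 * q₂ * j₂ ∧ 2 * q₂ * j₂ ≤ 14 * D := by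
    refine ⟨12 * D / (2 * q₂) + 1, ?_, ?_⟩
    · exact (Nat.lt_mul_div_succ (12 * D) (by omega)).le
    · have := Nat.mul_div_le (12 * D) (2 * q₂)
      rw [Nat.mul_add, Nat.mul_one]
      omega
  set t₂ := 2 * q₂ * j₂ with ht2def
  -- the search for `j`
  have hP : ∃ j, 2 * q₁ * j + t₂ ≤ m ∧ stairS (m - 2 * q₁ * j) t₂ + 11 * D ^ 2 ≤ C := by
    have hmt : t₂ ≤ m := by linarith
    refine ⟨(m - t₂) / (2 * q₁), ?_, ?_⟩
    · have := Nat.mul_div_le (m - t₂) (2 * q₁)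
      omega
    · have h1 := Nat.mul_div_le (m - t₂) (2 * q₁)
      have h2 := Nat.lt_mul_div_succ (m - t₂) (show 0 < 2 * q₁ by omega)
      rw [Nat.mul_add, Nat.mul_one] at h2
      set w := 2 * q₁ * ((m - t₂) / (2 * q₁)) with hw
      obtain ⟨r₀, hr₀⟩ : ∃ r₀, m - w = t₂ + r₀ := ⟨m - w - t₂, by omega⟩
      have hr₀' : r₀ < 2 * q₁ := by omega
      rw [hr₀]
      have h3 := two_stair' t₂ r₀
      have h4 : 2 * stairS (t₂ + r₀) t₂ ≤ 14 * D * (14 * D + 2 * (2 * D) + 1) := by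
        rw [h3]
        apply Nat.mul_le_mul ht2u
        omega
      exact aux1 D m C _ hm1 hCl hD2 hD3 h4
  classical
  set j := Nat.find hP with hj
  obtain ⟨hj1, hj2⟩ := Nat.find_spec hP
  rw [← hj] at hj1 hj2
  have hmin : ∀ k, k < j → ¬ (2 * q₁ * k + t₂ ≤ m ∧ stairS (m - 2 * q₁ * k) t₂ + 11 * D ^ 2 ≤ C) :=
    fun k hk => Nat.find_min hP hk
  -- coordinates
  obtain ⟨r, hr⟩ : ∃ r, m - 2 * q₁ * j = t₂ + r := ⟨m - 2 * q₁ * j - t₂, by omega⟩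
  set a := 2 * q₁ * j with ha
  have hma : m = a + (t₂ + r) := by omega
  have hx2 := two_stair' t₂ r
  set x₂ := stairS (t₂ + r) t₂ with hx2def
  rw [hr] at hj2
  have hC2 : 2 * C < 16 * D * m := by linarith
  -- `j ≥ 1`
  have hj0 : j ≠ 0 := by
    intro h0
    have ha0 : a = 0 := by simp [ha, h0]
    have hm' : m = t₂ + r := by omega
    -- `2 x₂ ≥ 12 D m`
    have h5 : t₂ * (t₂ + r) ≤ t₂ * (t₂ + 2 * r + 1) := Nat.mul_le_mul_left _ (by omega)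
    have h6 : 12 * D * (t₂ + r) ≤ t₂ * (t₂ + r) := Nat.mul_le_mul_right _ ht2l
    rw [← hm'] at h5 h6
    have h7 : 12 * D * m ≤ 2 * x₂ := by omega
    have h8 : x₂ ≤ C := by omega
    exact aux2 D m C t₂ r x₂ hD hm1 hm' ht2u ht2l hx2 h8 hC2
  -- minimality
  have hC39 : C < x₂ + 39 * D ^ 2 := by
    obtain ⟨k, hk⟩ : ∃ k, j = k + 1 := ⟨j - 1, by omega⟩
    have hmk := hmin k (by omega)
    have ha' : a = 2 * q₁ * k + 2 * q₁ := by rw [ha, hk]; ring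
    have hle : 2 * q₁ * k + t₂ ≤ m := by omega
    have hn : ¬ (stairS (m - 2 * q₁ * k) t₂ + 11 * D ^ 2 ≤ C) := fun h => hmk ⟨hle, h⟩
    have hmk2 : m - 2 * q₁ * k = t₂ + (r + 2 * q₁) := by omega
    rw [hmk2] at hn
    have h9 := two_stair' t₂ (r + 2 * q₁)
    have h10 : stairS (t₂ + (r + 2 * q₁)) t₂ = x₂ + 2 * q₁ * t₂ := by
      have : t₂ * (t₂ + 2 * (r + 2 * q₁) + 1) = t₂ * (t₂ + 2 * r + 1) + 2 * (2 * q₁ * t₂) := by ring
      omega
    rw [h10] at hn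
    have h11 : 2 * q₁ * t₂ ≤ 2 * D * (14 * D) := Nat.mul_le_mul (by omega) ht2u
    have h11' : 2 * D * (14 * D) = 28 * D ^ 2 := by ring
    omega
  -- the size of `mp`
  have hx2u : x₂ ≤ 14 * D * (t₂ + r) := by
    have h12 : t₂ * (t₂ + 2 * r + 1) ≤ t₂ * (2 * (t₂ + r)) :=
      Nat.mul_le_mul_left _ (by omega)
    have h13 : t₂ * (2 * (t₂ + r)) ≤ 14 * D * (2 * (t₂ + r)) := Nat.mul_le_mul_right _ ht2u
    have h13' : 14 * D * (2 * (t₂ + r)) = 2 * (14 * D * (t₂ + r)) := by ring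
    have h13'' : x₂ + x₂ = t₂ * (t₂ + 2 * r + 1) := by omega
    omega
  have hx2l : 12 * D * (t₂ + r) ≤ 2 * x₂ := by
    have h14 : t₂ * (t₂ + r) ≤ t₂ * (t₂ + 2 * r + 1) := Nat.mul_le_mul_left _ (by omega)
    have h15 : 12 * D * (t₂ + r) ≤ t₂ * (t₂ + r) := Nat.mul_le_mul_right _ ht2l
    omega
  have hmpbig : 100 * (D ^ 2 + D) ≤ t₂ + r := by
    by_contra hcon
    push Not at hcon
    have h16 : 14 * D * (t₂ + r) ≤ 14 * D * (100 * (D ^ 2 + D)) :=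
      Nat.mul_le_mul_left _ hcon.le
    have h17 : 14 * D * (100 * (D ^ 2 + D)) = 1400 * D ^ 3 + 1400 * D ^ 2 := by ring
    linarith
  have hr1 : 39 * D ^ 2 + 2 * D ≤ r := by
    have : 100 * (D ^ 2 + D) ≥ 39 * D ^ 2 + 2 * D + 14 * D := by linarith
    omega
  -- `a` is large
  have ha2 : 2 * D ≤ a := by
    have h18a : x₂ ≤ C := by omega
    have h18 : 12 * D * (2 * r) ≤ t₂ * (t₂ + 2 * r + 1) := Nat.mul_le_mul ht2l (by omega)
    have h19 : 3 * r < 2 * m := by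
      have : D * (3 * r) < D * (2 * m) := by
        have e1 : 12 * D * (2 * r) = 8 * (D * (3 * r)) := by ring
        have e2 : 16 * D * m = 8 * (D * (2 * m)) := by ring
        omega
      exact Nat.lt_of_mul_lt_mul_left this
    have h21 : 40000 * D ≤ m := by linarith
    omega
  have hx1 := two_stairS m a (by omega)
  have hx1' : a * m ≤ 2 * stairS m a := by
    rw [hx1]
    apply Nat.mul_le_mul_left
    omega
  have hDm : D * m ≤ stairS m a := aux4 D m a _ ha2 hx1'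
  have hmpval : m - a = t₂ + r := by omega
  have hNN := NN_eq m a (by omega)
  rw [hmpval] at hNN
  have hNNmp := two_NN (t₂ + r)
  have hNNr := two_NN r
  have h3x2 : 3 * D ^ 2 ≤ x₂ := by
    have h22 : C + 2 * D > m := hCl
    have h22' : C < x₂ + 39 * D ^ 2 := hC39
    linarith
  refine ⟨t₂, t₂ + r, ht2u, by omega, by omega, ?_, ?_, h3x2, hj2, hC39, ?_, ?_, ?_, ?_, ?_, ?_⟩
  · rw [ht2def]
    apply dvd_stairS
    omega
  · have : m - (t₂ + r) = a := by omega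
    rw [this, ha]
    apply dvd_stairS
    omega
  · have : m - (t₂ + r) = a := by omega
    rw [this]
    have h23 : 40000 * D ≤ m := by linarith
    exact aux5 D m _ h23 hDm
  · have : m - (t₂ + r) = a := by omega
    rw [this]
    -- `NN mp ≥ C + 12 D²`
    have h24 : 2 * C + 24 * D ^ 2 ≤ (t₂ + r) * (t₂ + r + 1) := by
      have h25 : 28 * D * (t₂ + r) + 102 * D ^ 2 ≤ (t₂ + r) * (t₂ + r) :=
        aux6 D (t₂ + r) hD hmpbig
      exact aux7 D (t₂ + r) C x₂ hC39 hx2u h25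
    have h26 : C + 12 * D ^ 2 ≤ NN (t₂ + r) := by omega
    omega
  · have : m - (t₂ + r) = a := by omega
    rw [this]
    exact hDm
  · exact aux8 D (t₂ + r) x₂ hx2l
  · omega
  · have : t₂ + r - t₂ = r := by omega
    rw [this]
    have h27 : D * r + 39 * D ^ 2 ≤ NN r := by
      have h28 : 2 * D * r + 78 * D ^ 2 ≤ r * (r + 1) := aux9 D r hD hr1
      have e : 2 * D * r = 2 * (D * r) := by ring
      have h29 := two_NN r
      omega
    exact h27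

end Vale.Agent.Lib.P197X
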