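import Vale.Agent.Lib.P197X.Cols
import Vale.Agent.Lib.P197X.ClaimB

/-!
# P197X: column symmetrisation is injective on row invariants of a strict diagram (blueprint Sec 5)
-/

open Equiv Finset

namespace Vale.Agent.Lib.P197X

open Vale.Agent.Lib.P197 Vale.Agent.Lib.P197W

variable {n : ℕ} {τ : YoungDiagram}

/-- Permutations of the labels of column `k`. -/
def colK (T : Filling n τ) (k : ℕ) : Finset (Perm (Fin n)) :=
  univ.filter fun q => ∀ x, (colOf T x = k → colOf T (q x) = k) ∧ (colOf T x ≠ k → q x = x)

/-- Column preserving permutations fixing all labels in columns `≥ k`. -/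
def colBelow (T : Filling n τ) (k : ℕ) : Finset (Perm (Fin n)) :=
  univ.filter fun q => ∀ x, colOf T (q x) = colOf T x ∧ (k ≤ colOf T x → q x = x)

/-- Strictness gives the inequality of the one column lemma. -/
theorem strict_row_ineq (hs : StrictDiag τ) {k i : ℕ} (hi : i < τ.colLen k) :
    τ.colLen k ≤ (τ.rowLen i - k) + i := by
  have hcell : (τ.colLen k - 1, k) ∈ τ :=
    YoungDiagram.mem_iff_lt_colLen.2 (by omega)
  have hlast : k < τ.rowLen (τ.colLen k - 1) := YoungDiagram.mem_iff_lt_rowLen.1 hcell
  have key : ∀ j, j ≤ τ.colLen k - 1 → k + 1 + j ≤ τ.rowLen (τ.colLen k - 1 - j) := by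
    intro j
    induction j with
    | zero => intro _; simpa using hlast
    | succ j ih =>
      intro hj
      have h1 := ih (by omega)
      have ha : τ.colLen k - 1 - j = (τ.colLen k - 1 - (j + 1)) + 1 := by omega
      rw [ha] at h1
      rcases hs (τ.colLen k - 1 - (j + 1)) with h2 | h2
      · omega
      · have h3 : τ.rowLen (τ.colLen k - 1 - (j + 1) + 1) ≤ τ.rowLen (τ.colLen k - 1 - (j + 1)) :=
          τ.rowLen_anti _ _ (Nat.le_succ _)
        omega
  have h := key (τ.colLen k - 1 - i) (by omega)
  have he : τ.colLen k - 1 - (τ.colLen k - 1 - i) = i := by omega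
  rw [he] at h
  omega

private theorem mem_col_row (T : Filling n τ) (u : Fin n) :
    rowOf T u < τ.colLen (colOf T u) := by
  have h : (rowOf T u, colOf T u) ∈ τ := by
    have := (T u).2
    simpa [rowOf, colOf] using this
  exact YoungDiagram.mem_iff_lt_colLen.1 h

private theorem filling_ext (T : Filling n τ) {u v : Fin n} (h1 : rowOf T u = rowOf T v)
    (h2 : colOf T u = colOf T v) : u = v := by
  apply T.injective
  apply Subtype.ext
  exact Prod.ext h1 h2

/-- The labels of column `k` enumerated by rows. -/
private def colEquiv (T : Filling n τ) (k : ℕ) : Fin (τ.colLen k) ≃ {u : Fin n // colOf T u = k} where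
  toFun j := ⟨T.symm ⟨(j.1, k), YoungDiagram.mem_iff_lt_colLen.2 j.2⟩, by
    simp [colOf]⟩
  invFun u := ⟨rowOf T u.1, by
    have := mem_col_row T u.1
    rwa [u.2] at this⟩
  left_inv j := by
    apply Fin.ext
    simp [rowOf]
  right_inv u := by
    apply Subtype.ext
    apply filling_ext T
    · simp [rowOf]
    · simp [colOf, u.2.symm]

private theorem colEquiv_row (T : Filling n τ) (k : ℕ) (j : Fin (τ.colLen k)) :
    rowOf T (colEquiv T k j).1 = j := by
  simp [colEquiv, rowOf]

private theorem colEquiv_col (T : Filling n τ) (k : ℕ) (j : Fin (τ.colLen k)) :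
    colOf T (colEquiv T k j).1 = k := (colEquiv T k j).2

/-- The tuple of row classes, restricted to columns `≥ k`. -/
private def tup (T : Filling n τ) (k : ℕ) (g : Perm (Fin n)) (i : Fin (τ.colLen k)) : Finset (Fin n) :=
  univ.filter fun x => k ≤ colOf T (g x) ∧ rowOf T (g x) = i

private theorem mem_tup (T : Filling n τ) (k : ℕ) (g : Perm (Fin n)) (i : Fin (τ.colLen k)) (x : Fin n) :
    x ∈ tup T k g i ↔ k ≤ colOf T (g x) ∧ rowOf T (g x) = i := by
  simp [tup]

private theorem tup_card (T : Filling n τ) (k : ℕ) (g : Perm (Fin n)) (i : Fin (τ.colLen k)) :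
    (tup T k g i).card = τ.rowLen i - k := by
  have hi : (i.1, k) ∈ τ := YoungDiagram.mem_iff_lt_colLen.2 i.2
  have hik : k < τ.rowLen i := YoungDiagram.mem_iff_lt_rowLen.1 hi
  -- biject with `Finset.Ico k (rowLen i)`
  have : (tup T k g i).card = (Finset.Ico k (τ.rowLen i)).card := by
    refine Finset.card_bij (fun x _ => colOf T (g x)) ?_ ?_ ?_
    · intro x hx
      obtain ⟨h1, h2⟩ := (mem_tup T k g i x).1 hx
      refine Finset.mem_Ico.2 ⟨h1, ?_⟩
      have h3 : (rowOf T (g x), colOf T (g x)) ∈ τ := by
        have := (T (g x)).2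
        simpa [rowOf, colOf] using this
      rw [h2] at h3
      exact YoungDiagram.mem_iff_lt_rowLen.1 h3
    · intro x hx x' hx' hc
      obtain ⟨_, h2⟩ := (mem_tup T k g i x).1 hx
      obtain ⟨_, h2'⟩ := (mem_tup T k g i x').1 hx'
      exact g.injective (filling_ext T (h2.trans h2'.symm) hc)
    · intro j hj
      obtain ⟨hj1, hj2⟩ := Finset.mem_Ico.1 hj
      have hc : (i.1, j) ∈ τ := YoungDiagram.mem_iff_lt_rowLen.2 hj2
      refine ⟨g.symm (T.symm ⟨(i.1, j), hc⟩), ?_, ?_⟩
      · apply (mem_tup T k g i _).2
        simp [rowOf, colOf, hj1]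
      · simp [colOf]
  rw [this, Nat.card_Ico]

private theorem tup_disjoint (T : Filling n τ) (k : ℕ) (g : Perm (Fin n)) :
    Pairwise (Function.onFun Disjoint (tup T k g)) := by
  intro i j hij
  refine Finset.disjoint_left.2 fun x hx hx' => hij ?_
  obtain ⟨_, h2⟩ := (mem_tup T k g i x).1 hx
  obtain ⟨_, h2'⟩ := (mem_tup T k g j x).1 hx'
  exact Fin.ext (h2.symm.trans h2')

/-- Well definedness of the tuple function. -/
private theorem y_tup_eq (T : Filling n τ) (k : ℕ) (y : Perm (Fin n) → ℤ)
    (hinv : ∀ p g : Perm (Fin n), (∀ x, rowOf T (p x) = rowOf T x) →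
      (∀ x, colOf T x < k → p x = x) → y (p * g) = y g)
    (g₀ g g' : Perm (Fin n)) (hg : ∀ x, colOf T (g₀ x) < k → g x = g₀ x)
    (hg' : ∀ x, colOf T (g₀ x) < k → g' x = g₀ x) (ht : tup T k g = tup T k g') : y g = y g' := by
  have hp : g' = (g' * g⁻¹) * g := by group
  rw [hp]
  refine (hinv (g' * g⁻¹) g ?_ ?_).symm
  · intro u
    by_cases hu : k ≤ colOf T u
    · have hi : rowOf T u < τ.colLen k :=
        lt_of_lt_of_le (mem_col_row T u) (τ.colLen_anti _ _ hu)
      have hx : g⁻¹ u ∈ tup T k g ⟨rowOf T u, hi⟩ := by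
        apply (mem_tup T k g _ _).2
        simpa using hu
      rw [ht] at hx
      have := ((mem_tup T k g' _ _).1 hx).2
      simpa using this
    · have hu' : colOf T u < k := by omega
      have hx : g₀ (g₀⁻¹ u) = u := by simp
      have h1 := hg (g₀⁻¹ u) (by rw [hx]; exact hu')
      have h2 := hg' (g₀⁻¹ u) (by rw [hx]; exact hu')
      rw [hx] at h1 h2
      have h3 : g⁻¹ u = g₀⁻¹ u := Perm.inv_eq_iff_eq.2 h1.symm
      simp only [Perm.mul_apply, h3, h2]
  · intro u hu'
    have hx : g₀ (g₀⁻¹ u) = u := by simp
    have h1 := hg (g₀⁻¹ u) (by rw [hx]; exact hu')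
    have h2 := hg' (g₀⁻¹ u) (by rw [hx]; exact hu')
    rw [hx] at h1 h2
    have h3 : g⁻¹ u = g₀⁻¹ u := Perm.inv_eq_iff_eq.2 h1.symm
    simp only [Perm.mul_apply, h3, h2]

/-- Row preserving permutation moving prescribed labels into column `k`. -/
private theorem exists_row_perm (T : Filling n τ) (k : ℕ) (f : Fin (τ.colLen k) → Fin n)
    (hf1 : ∀ j, rowOf T (f j) = j) (hf2 : ∀ j, k ≤ colOf T (f j)) (S : Finset (Fin (τ.colLen k))) :
    ∃ p : Perm (Fin n), (∀ x, rowOf T (p x) = rowOf T x) ∧ (∀ x, colOf T x < k → p x = x) ∧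
      (∀ j ∈ S, p (f j) = (colEquiv T k j).1) ∧
      (∀ x, (∀ j ∈ S, rowOf T x ≠ j) → p x = x) := by
  classical
  induction S using Finset.induction_on with
  | empty =>
    exact ⟨1, fun _ => rfl, fun _ _ => rfl, by simp, fun _ _ => rfl⟩
  | insert j₀ S hj₀ ih =>
    obtain ⟨p, h1, h2, h3, h4⟩ := ih
    have hu1 : ∀ j, rowOf T (colEquiv T k j).1 = j := colEquiv_row T k
    have hu2 : ∀ j, colOf T (colEquiv T k j).1 = k := colEquiv_col T k
    have hfix : ∀ x, rowOf T x = j₀ → p x = x := by
      intro x hx
      apply h4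
      intro j hj hc
      apply hj₀
      have : j = j₀ := Fin.ext (hc.symm.trans hx)
      rwa [← this]
    refine ⟨swap (f j₀) (colEquiv T k j₀).1 * p, ?_, ?_, ?_, ?_⟩
    · intro x
      simp only [Perm.mul_apply]
      rw [← h1 x]
      by_cases ha : p x = f j₀
      · rw [ha, swap_apply_left, hu1, hf1]
      · by_cases hb : p x = (colEquiv T k j₀).1
        · rw [hb, swap_apply_right, hu1, hf1]
        · rw [swap_apply_of_ne_of_ne ha hb]
    · intro x hx
      simp only [Perm.mul_apply]
      rw [h2 x hx]
      refine swap_apply_of_ne_of_ne ?_ ?_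
      · intro hc
        have := hf2 j₀
        rw [← hc] at this
        omega
      · intro hc
        have := hu2 j₀
        rw [← hc] at this
        omega
    · intro j hj
      rcases Finset.mem_insert.1 hj with rfl | hjS
      · simp only [Perm.mul_apply]
        rw [hfix _ (hf1 j), swap_apply_left]
      · simp only [Perm.mul_apply]
        rw [h3 j hjS]
        have hne : j ≠ j₀ := fun hc => hj₀ (hc ▸ hjS)
        refine swap_apply_of_ne_of_ne ?_ ?_
        · intro hc
          apply hne
          have h5 := hf1 j₀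
          rw [← hc, hu1] at h5
          exact Fin.ext h5
        · intro hc
          apply hne
          exact (colEquiv T k).injective (Subtype.ext hc)
    · intro x hx
      have hx0 : rowOf T x ≠ j₀ := hx j₀ (Finset.mem_insert_self _ _)
      have hxS : ∀ j ∈ S, rowOf T x ≠ j := fun j hj => hx j (Finset.mem_insert_of_mem hj)
      simp only [Perm.mul_apply]
      rw [h4 x hxS]
      refine swap_apply_of_ne_of_ne ?_ ?_
      · intro hc
        apply hx0
        rw [hc, hf1]
      · intro hc
        apply hx0
        rw [hc, hu1]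

/-- The one column lemma for functions on permutations. -/
theorem claimB_perm (T : Filling n τ) (hs : StrictDiag τ) (k : ℕ)
    (y : Perm (Fin n) → ℤ)
    (hinv : ∀ p g : Perm (Fin n), (∀ x, rowOf T (p x) = rowOf T x) →
      (∀ x, colOf T x < k → p x = x) → y (p * g) = y g)
    (h0 : ∀ g : Perm (Fin n), ∑ q ∈ colK T k, y (q * g) = 0) :
    ∀ g, y g = 0 := by
  classical
  intro g₀
  let l := τ.colLen k
  let d : Fin l → ℕ := fun i => τ.rowLen i - k
  have hd : ∀ i : Fin l, l ≤ d i + i := fun i => strict_row_ineq hs i.2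
  let Compat : Perm (Fin n) → Prop := fun g => ∀ x, colOf T (g₀ x) < k → g x = g₀ x
  let Y : (Fin l → Finset (Fin n)) → ℤ := fun B =>
    if h : ∃ g, Compat g ∧ tup T k g = B then y h.choose else 0
  have hY : ∀ g, Compat g → Y (tup T k g) = y g := by
    intro g hg
    have h : ∃ g', Compat g' ∧ tup T k g' = tup T k g := ⟨g, hg, rfl⟩
    simp only [Y]
    rw [dif_pos h]
    exact y_tup_eq T k y hinv g₀ _ _ h.choose_spec.1 hg h.choose_spec.2
  have hU1 : ∀ j, rowOf T (colEquiv T k j).1 = j := colEquiv_row T k
  have hU2 : ∀ j, colOf T (colEquiv T k j).1 = k := colEquiv_col T k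
  have hcolK : ∀ q ∈ colK T k, ∀ x, (colOf T x = k → colOf T (q x) = k) ∧ (colOf T x ≠ k → q x = x) := by
    intro q hq
    simpa [colK] using hq
  have hinvcol : ∀ q ∈ colK T k, ∀ v, colOf T v = k → colOf T (q⁻¹ v) = k := by
    intro q hq v hv
    by_contra hc
    have h1 : q (q⁻¹ v) = q⁻¹ v := (hcolK q hq (q⁻¹ v)).2 hc
    have h2 : q (q⁻¹ v) = v := by simp
    rw [h2] at h1
    rw [← h1] at hc
    exact hc hv
  have hkey : ∀ (Bm : Fin l → Finset (Fin n)) (Z : Finset (Fin n)), Z.card = l →
      (∀ i, (Bm i).card + 1 = d i) → Pairwise (Function.onFun Disjoint Bm) →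
      (∀ i, Disjoint (Bm i) Z) →
      ∑ ξ ∈ injF l Z, Y (fun i => insert (ξ i) (Bm i)) = 0 := by
    intro Bm Z hZ hBm hdis hBZ
    by_cases hex : ∃ ξ ∈ injF l Z, ∃ g, Compat g ∧ tup T k g = fun i => insert (ξ i) (Bm i)
    swap
    · apply Finset.sum_eq_zero
      intro ξ hξ
      simp only [Y]
      rw [dif_neg]
      rintro ⟨g, hg, ht⟩
      exact hex ⟨ξ, hξ, g, hg, ht⟩
    obtain ⟨ξ₀, hξ₀, g₁, hg₁, ht₁⟩ := hex
    have hξ₀Z : ∀ i, ξ₀ i ∈ Z := by
      intro i
      have := (Finset.mem_filter.1 hξ₀).1
      exact Fintype.mem_piFinset.1 this i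
    have hξ₀inj : Function.Injective ξ₀ := (Finset.mem_filter.1 hξ₀).2
    have hZim : ∀ z ∈ Z, ∃ j, ξ₀ j = z := by
      have hsub : Finset.image ξ₀ univ ⊆ Z := by
        intro z hz
        obtain ⟨j, _, rfl⟩ := Finset.mem_image.1 hz
        exact hξ₀Z j
      have hcard : Z.card ≤ (Finset.image ξ₀ univ).card := by
        rw [Finset.card_image_of_injective _ hξ₀inj, hZ]
        simp [l]
      have heq := Finset.eq_of_subset_of_card_le hsub hcard
      intro z hz
      rw [← heq] at hz
      obtain ⟨j, _, rfl⟩ := Finset.mem_image.1 hz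
      exact ⟨j, rfl⟩
    have ht₁' : ∀ i, tup T k g₁ i = insert (ξ₀ i) (Bm i) := fun i => congrFun ht₁ i
    have hf : ∀ j, ξ₀ j ∈ tup T k g₁ j := by
      intro j
      rw [ht₁']
      exact Finset.mem_insert_self _ _
    obtain ⟨p, hp1, hp2, hp3, -⟩ := exists_row_perm T k (fun j => g₁ (ξ₀ j))
      (fun j => ((mem_tup T k g₁ j _).1 (hf j)).2) (fun j => ((mem_tup T k g₁ j _).1 (hf j)).1) univ
    have hpcol : ∀ u, k ≤ colOf T (p u) ↔ k ≤ colOf T u := by
      intro u
      constructor
      · intro h
        by_contra hc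
        have h1 := hp2 u (by omega)
        rw [h1] at h
        exact hc h
      · intro h
        by_contra hc
        have h1 := hp2 (p u) (by omega)
        have h2 : p u = u := p.injective h1
        rw [h2] at hc
        exact hc h
    let g₂ : Perm (Fin n) := p * g₁
    have hg₂ : Compat g₂ := by
      intro x hx
      simp only [g₂, Perm.mul_apply]
      rw [hg₁ x hx]
      exact hp2 _ hx
    have ht₂ : ∀ i, tup T k g₂ i = insert (ξ₀ i) (Bm i) := by
      intro i
      rw [← ht₁']
      ext x
      rw [mem_tup, mem_tup]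
      simp only [g₂, Perm.mul_apply]
      rw [hpcol, hp1]
    have hξ₂ : ∀ j, g₂ (ξ₀ j) = (colEquiv T k j).1 := by
      intro j
      simp only [g₂, Perm.mul_apply]
      exact hp3 j (Finset.mem_univ _)
    let ξq : Perm (Fin n) → Fin l → Fin n := fun q i => g₂⁻¹ (q⁻¹ (colEquiv T k i).1)
    have hξq : ∀ q ∈ colK T k, ξq q ∈ injF l Z := by
      intro q hq
      refine Finset.mem_filter.2 ⟨Fintype.mem_piFinset.2 ?_, ?_⟩
      · intro i
        have h1 := hinvcol q hq _ (hU2 i)
        obtain ⟨j, hj⟩ := (colEquiv T k).surjective ⟨q⁻¹ (colEquiv T k i).1, h1⟩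
        have h2 : (colEquiv T k j).1 = q⁻¹ (colEquiv T k i).1 := congrArg Subtype.val hj
        have h3 : ξq q i = ξ₀ j := by
          simp only [ξq]
          rw [← h2, ← hξ₂ j]
          simp
        rw [h3]
        exact hξ₀Z j
      · intro i i' h
        simp only [ξq] at h
        have h1 := g₂⁻¹.injective h
        have h2 := q⁻¹.injective h1
        exact (colEquiv T k).injective (Subtype.ext h2)
    have htq : ∀ q ∈ colK T k, tup T k (q * g₂) = fun i => insert (ξq q i) (Bm i) := by
      intro q hq
      funext i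
      have hmemBm : ∀ x, x ∈ Bm i → colOf T (g₂ x) ≠ k := by
        intro x hx hc
        have h1 : x ∈ tup T k g₂ i := by
          rw [ht₂]
          exact Finset.mem_insert_of_mem hx
        have h2 := ((mem_tup T k g₂ i x).1 h1).2
        have h3 : g₂ x = g₂ (ξ₀ i) := by
          rw [hξ₂]
          apply filling_ext T
          · rw [h2, hU1]
          · rw [hc, hU2]
        have h4 : x = ξ₀ i := g₂.injective h3
        exact (Finset.disjoint_left.1 (hBZ i)) hx (h4 ▸ hξ₀Z i)
      ext x
      rw [mem_tup, Finset.mem_insert]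
      simp only [Perm.mul_apply]
      constructor
      · rintro ⟨h1, h2⟩
        by_cases hc : colOf T (g₂ x) = k
        · left
          have h3 := (hcolK q hq _).1 hc
          have h4 : q (g₂ x) = (colEquiv T k i).1 := by
            apply filling_ext T
            · rw [h2, hU1]
            · rw [h3, hU2]
          simp only [ξq]
          rw [← h4]
          simp
        · right
          have h3 := (hcolK q hq _).2 hc
          rw [h3] at h1 h2
          have h4 : x ∈ tup T k g₂ i := (mem_tup T k g₂ i x).2 ⟨h1, h2⟩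
          rw [ht₂] at h4
          rcases Finset.mem_insert.1 h4 with h5 | h5
          · exfalso
            apply hc
            rw [h5, hξ₂, hU2]
          · exact h5
      · rintro (h | h)
        · have h1 : q (g₂ x) = (colEquiv T k i).1 := by
            rw [h]
            simp [ξq]
          rw [h1, hU1, hU2]
          exact ⟨le_refl _, rfl⟩
        · have h1 : x ∈ tup T k g₂ i := by
            rw [ht₂]
            exact Finset.mem_insert_of_mem h
          have h2 := (mem_tup T k g₂ i x).1 h1
          rw [(hcolK q hq _).2 (hmemBm x h)]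
          exact h2
    have hcompat : ∀ q ∈ colK T k, Compat (q * g₂) := by
      intro q hq x hx
      simp only [Perm.mul_apply]
      have h1 := hg₂ x hx
      rw [h1]
      exact (hcolK q hq _).2 (by omega)
    have hsum : ∑ q ∈ colK T k, y (q * g₂) =
        ∑ ξ ∈ injF l Z, Y (fun i => insert (ξ i) (Bm i)) := by
      refine Finset.sum_bij (fun q _ => ξq q) hξq ?_ ?_ ?_
      · intro q hq q' hq' h
        have h1 : ∀ i, q⁻¹ (colEquiv T k i).1 = q'⁻¹ (colEquiv T k i).1 := by
          intro i
          exact g₂⁻¹.injective (congrFun h i)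
        have h2 : q⁻¹ = q'⁻¹ := by
          ext v
          by_cases hv : colOf T v = k
          · obtain ⟨j, hj⟩ := (colEquiv T k).surjective ⟨v, hv⟩
            have h3 : (colEquiv T k j).1 = v := congrArg Subtype.val hj
            rw [← h3, h1]
          · have h3 := (hcolK q hq v).2 hv
            have h4 := (hcolK q' hq' v).2 hv
            have h5 : q⁻¹ v = v := Perm.inv_eq_iff_eq.2 h3.symm
            have h6 : q'⁻¹ v = v := Perm.inv_eq_iff_eq.2 h4.symm
            rw [h5, h6]
        exact inv_injective h2
      · intro ξ hξ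
        have hξZ : ∀ i, ξ i ∈ Z := by
          intro i
          have := (Finset.mem_filter.1 hξ).1
          exact Fintype.mem_piFinset.1 this i
        have hξinj : Function.Injective ξ := (Finset.mem_filter.1 hξ).2
        choose π hπ using fun i => hZim (ξ i) (hξZ i)
        have hπinj : Function.Injective π := by
          intro i i' h
          apply hξinj
          rw [← hπ i, ← hπ i', h]
        let e : Perm (Fin l) := Equiv.ofBijective π (Finite.injective_iff_bijective.1 hπinj)
        have heπ : ∀ i, e i = π i := fun i => rfl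
        let q : Perm (Fin n) := (e⁻¹).extendDomain (colEquiv T k)
        have hqU : ∀ j, q (colEquiv T k j).1 = (colEquiv T k (e⁻¹ j)).1 := by
          intro j
          simp [q, Equiv.Perm.extendDomain_apply_image]
        have hqmem : q ∈ colK T k := by
          refine Finset.mem_filter.2 ⟨Finset.mem_univ _, fun x => ⟨?_, ?_⟩⟩
          · intro hx
            obtain ⟨j, hj⟩ := (colEquiv T k).surjective ⟨x, hx⟩
            have h3 : (colEquiv T k j).1 = x := congrArg Subtype.val hj
            rw [← h3, hqU, hU2]
          · intro hx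
            exact Equiv.Perm.extendDomain_apply_not_subtype _ _ hx
        refine ⟨q, hqmem, ?_⟩
        funext i
        simp only [ξq]
        have h1 : q⁻¹ (colEquiv T k i).1 = (colEquiv T k (π i)).1 := by
          apply Perm.inv_eq_iff_eq.2
          rw [hqU, ← heπ]
          simp
        rw [h1, ← hξ₂, ← hπ i]
        simp
      · intro q hq
        rw [← htq q hq]
        exact (hY _ (hcompat q hq)).symm
    rw [← hsum]
    exact h0 g₂
  have hmain := claimB l d hd Y hkey (tup T k g₀) (fun i => tup_card T k g₀ i) (tup_disjoint T k g₀)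
  rw [hY g₀ (fun _ _ => rfl)] at hmain
  exact hmain

theorem colBelow_zero (T : Filling n τ) : colBelow T 0 = {1} := by
  ext q
  simp only [colBelow, mem_filter, mem_univ, true_and, mem_singleton]
  constructor
  · intro h
    ext x
    simpa using congrArg Fin.val ((h x).2 (Nat.zero_le _))
  · rintro rfl x
    simp

theorem colBelow_top (T : Filling n τ) (w : ℕ) (hw : ∀ x, colOf T x < w) :
    colBelow T w = colS (colOf T) := by
  ext q
  rw [mem_colS']
  simp only [colBelow, mem_filter, mem_univ, true_and]
  constructor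
  · intro h x
    exact (h x).1
  · intro h x
    exact ⟨h x, fun hx => absurd (hw x) (not_lt.mpr hx)⟩

/-- The product decomposition of the column group. -/
theorem sum_colBelow_succ (T : Filling n τ) (k : ℕ) (f : Perm (Fin n) → ℤ) :
    ∑ q ∈ colBelow T (k + 1), f q = ∑ q'' ∈ colK T k, ∑ q' ∈ colBelow T k, f (q' * q'') := by
  have memK : ∀ q : Perm (Fin n), q ∈ colK T k ↔
      ∀ x, (colOf T x = k → colOf T (q x) = k) ∧ (colOf T x ≠ k → q x = x) := by
    intro q; simp [colK]
  have memB : ∀ (j : ℕ) (q : Perm (Fin n)), q ∈ colBelow T j ↔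
      ∀ x, colOf T (q x) = colOf T x ∧ (j ≤ colOf T x → q x = x) := by
    intro j q; simp [colBelow]
  have colK_pres : ∀ q ∈ colK T k, ∀ x, colOf T (q x) = colOf T x := by
    intro q hq x
    have h := (memK q).1 hq x
    by_cases hx : colOf T x = k
    · rw [h.1 hx, hx]
    · rw [h.2 hx]
  rw [← Finset.sum_product']
  symm
  refine Finset.sum_bij (fun p _ => p.2 * p.1) ?_ ?_ ?_ ?_
  · rintro ⟨a, b⟩ hab
    rw [mem_product] at hab
    rw [memB]
    intro x
    have ha := hab.1
    have hb := (memB k b).1 hab.2
    refine ⟨?_, ?_⟩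
    · simp only [Perm.mul_apply]
      rw [(hb (a x)).1, colK_pres a ha x]
    · intro hx
      simp only [Perm.mul_apply]
      have h1 : a x = x := ((memK a).1 ha x).2 (by omega)
      rw [h1]
      exact (hb x).2 (by omega)
  · rintro ⟨a₁, b₁⟩ h₁ ⟨a₂, b₂⟩ h₂ heq
    rw [mem_product] at h₁ h₂
    simp only at heq
    have key : a₁ = a₂ := by
      ext x
      congr 1
      by_cases hx : colOf T x = k
      · have e1 : b₁ (a₁ x) = a₁ x :=
          ((memB k b₁).1 h₁.2 (a₁ x)).2 (by rw [colK_pres a₁ h₁.1 x, hx])
        have e2 : b₂ (a₂ x) = a₂ x :=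
          ((memB k b₂).1 h₂.2 (a₂ x)).2 (by rw [colK_pres a₂ h₂.1 x, hx])
        have e3 := congrArg (fun p : Perm (Fin n) => p x) heq
        simp only [Perm.mul_apply] at e3
        rw [e1, e2] at e3
        exact e3
      · rw [((memK a₁).1 h₁.1 x).2 hx, ((memK a₂).1 h₂.1 x).2 hx]
    subst key
    have : b₁ = b₂ := mul_right_cancel heq
    subst this
    rfl
  · intro q hq
    have hq' := (memB (k + 1) q).1 hq
    have hp : ∀ x, colOf T (q x) = k ↔ colOf T x = k := by
      intro x
      rw [(hq' x).1]
    let a : Perm (Fin n) := Perm.ofSubtype (Perm.subtypePerm q (p := fun x => colOf T x = k) hp)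
    have a_in : ∀ x, colOf T x = k → a x = q x := by
      intro x hx
      simp only [a]
      exact Perm.ofSubtype_apply_of_mem (p := fun x => colOf T x = k) _ hx
    have a_out : ∀ x, colOf T x ≠ k → a x = x := by
      intro x hx
      simp only [a]
      exact Perm.ofSubtype_apply_of_not_mem _ hx
    have ha : a ∈ colK T k := by
      rw [memK]
      intro x
      refine ⟨fun hx => ?_, a_out x⟩
      rw [a_in x hx, (hq' x).1, hx]
    have hainv : ∀ x, colOf T (a⁻¹ x) = colOf T x := by
      intro x
      have := colK_pres a ha (a⁻¹ x)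
      have e0 : a (a⁻¹ x) = x := by simp
      rw [e0] at this
      exact this.symm
    have hb : q * a⁻¹ ∈ colBelow T k := by
      rw [memB]
      intro x
      refine ⟨?_, ?_⟩
      · simp only [Perm.mul_apply]
        rw [(hq' _).1, hainv]
      · intro hx
        simp only [Perm.mul_apply]
        by_cases hxk : colOf T x = k
        · have : a (a⁻¹ x) = q (a⁻¹ x) := a_in _ (by rw [hainv, hxk])
          rw [← this]
          simp
        · have e : a x = x := a_out x hxk
          have : a⁻¹ x = x := by
            rw [Perm.inv_eq_iff_eq]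
            exact e.symm
          rw [this]
          exact (hq' x).2 (by omega)
    refine ⟨(a, q * a⁻¹), mem_product.2 ⟨ha, hb⟩, ?_⟩
    simp
  · rintro ⟨a, b⟩ _
    rfl

/-- **Nested span.** For a strict diagram a function of the row colouring that vanishes after
column symmetrisation vanishes. -/
theorem ns (T : Filling n τ) (hs : StrictDiag τ) (Y : (Fin n → ℕ) → ℤ)
    (h0 : ∀ g : Perm (Fin n), ∑ q ∈ colS (colOf T), Y (fun x => rowOf T (q (g x))) = 0) :
    ∀ g : Perm (Fin n), Y (fun x => rowOf T (g x)) = 0 := by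
  classical
  obtain ⟨w, hw⟩ : ∃ w, ∀ x, colOf T x < w :=
    ⟨(univ : Finset (Fin n)).sup (colOf T) + 1, fun x =>
      Nat.lt_succ_of_le (Finset.le_sup (f := colOf T) (mem_univ x))⟩
  have main : ∀ d k, k + d = w → ∀ g : Perm (Fin n),
      ∑ q ∈ colBelow T k, Y (fun x => rowOf T (q (g x))) = 0 := by
    intro d
    induction d with
    | zero =>
      intro k hk g
      have hk' : k = w := by omega
      subst hk'
      rw [colBelow_top T k hw]
      exact h0 g
    | succ d ih =>
      intro k hk
      have ih' := ih (k + 1) (by omega)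
      refine claimB_perm T hs k
        (fun g => ∑ q ∈ colBelow T k, Y (fun x => rowOf T (q (g x)))) ?_ ?_
      · intro p g hrow hfix
        refine Finset.sum_congr rfl fun q hq => ?_
        congr 1
        funext x
        have hq' : ∀ x, colOf T (q x) = colOf T x ∧ (k ≤ colOf T x → q x = x) := by
          simpa [colBelow] using hq
        have hpres : ∀ z, k ≤ colOf T z → k ≤ colOf T (p z) := by
          intro z hz
          by_contra hlt
          have hlt' : colOf T (p z) < k := not_le.mp hlt
          have e : p (p z) = p z := hfix _ hlt'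
          have e2 : p z = z := p.injective e
          rw [e2] at hlt'
          omega
        have hcomm : q (p (g x)) = p (q (g x)) := by
          by_cases hc : colOf T (g x) < k
          · rw [hfix _ hc, hfix]
            rw [(hq' _).1]
            exact hc
          · have hc' : k ≤ colOf T (g x) := not_lt.mp hc
            rw [(hq' _).2 (hpres _ hc'), (hq' _).2 hc']
        show rowOf T (q ((p * g) x)) = rowOf T (q (g x))
        simp only [Perm.mul_apply]
        rw [hcomm, hrow]
      · intro g
        have e := sum_colBelow_succ T k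
          (fun q => Y (fun x => rowOf T (q (g x))))
        rw [ih' g] at e
        simpa [Perm.mul_apply] using e.symm
  intro g
  have := main w 0 (by omega) g
  rw [colBelow_zero] at this
  simpa using this

end Vale.Agent.Lib.P197X
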