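import Vale.Agent.Lib.P197X.NS
import Vale.Agent.Lib.P197X.GaleRyser

/-!
# P197X: the strict diagram theorem: `g(τ,τ,γ) > 0` for `τ` strict and `γ` dominating `τ`
(blueprint Sec 7)
-/

open Equiv Finset MvPolynomial

namespace Vale.Agent.Lib.P197X

open Vale.Agent.Lib.P197 Vale.Agent.Lib.P197W

variable {n : ℕ}

/-- The antisymmetrised monomial of a colouring `ρ` against rows `s` and columns `d`. -/
noncomputable def lamP (ρ s d : Fin n → ℕ) : MvPolynomial (ℕ × ℕ) ℤ :=
  ∑ q ∈ colS d, C (sgnZ q) * ∏ x, X (ρ x, s (q x))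

/-- The specialisation map. -/
private noncomputable def specMap : MvPolynomial (ℕ × ℕ × ℕ) ℤ →ₐ[ℤ] MvPolynomial (ℕ × ℕ) ℤ :=
  aeval fun v => if v.1 = v.2.1 then X (v.1, v.2.2) else 0

private theorem ap_inv (q : Perm (Fin n)) (x : Fin n) : q (q⁻¹ x) = x := by simp

private theorem sgnZ_mul_self (q : Perm (Fin n)) : sgnZ q * sgnZ q = 1 := by
  have h : ((Perm.sign q : ℤˣ) : ℤ) * ((Perm.sign q : ℤˣ) : ℤ) = 1 := by
    rw [← Units.val_mul, Int.units_mul_self, Units.val_one]
  exact h

private theorem specMap_term (r c s : Fin n → ℕ) (hinj : ∀ x y, r x = r y → c x = c y → x = y)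
    (q₁ q₂ q₃ : Perm (Fin n)) (h₁ : q₁ ∈ colS c) (h₂ : q₂ ∈ colS c) :
    specMap (C (sgnZ q₁ * sgnZ q₂ * sgnZ q₃) * ∏ x, X (r (q₁ x), r (q₂ x), s (q₃ x))) =
      if q₂ = q₁ then C (sgnZ q₃) * ∏ x, X (r (q₁ x), s (q₃ x)) else 0 := by
  have h₁' : ∀ x, c (q₁ x) = c x := (Finset.mem_filter.1 h₁).2
  have h₂' : ∀ x, c (q₂ x) = c x := (Finset.mem_filter.1 h₂).2
  rw [map_mul, map_prod, specMap]
  simp only [algHom_C, aeval_X]
  split_ifs with h
  · subst h
    simp only [if_true]
    rw [sgnZ_mul_self, one_mul]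
    rfl
  · have hx : ∃ x, r (q₁ x) ≠ r (q₂ x) := by
      by_contra hcon
      push Not at hcon
      apply h
      ext x
      have := hinj (q₂ x) (q₁ x) (hcon x).symm (by rw [h₁', h₂'])
      rw [this]
    obtain ⟨x, hx⟩ := hx
    rw [Finset.prod_eq_zero (Finset.mem_univ x) (by simp [hx])]
    simp

/-- Specialising the first two row indices to be equal. -/
theorem polyF_spec (r c s d : Fin n → ℕ) (hinj : ∀ x y, r x = r y → c x = c y → x = y)
    (h : ∑ q ∈ colS c, lamP (fun x => r (q x)) s d ≠ 0) : polyF r c r c s d ≠ 0 := by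
  intro h0
  apply h
  have hmap : specMap (polyF r c r c s d) = ∑ q ∈ colS c, lamP (fun x => r (q x)) s d := by
    unfold polyF lamP
    rw [map_sum]
    refine Finset.sum_congr rfl fun q₁ h₁ => ?_
    rw [map_sum]
    have : ∀ q₂ ∈ colS c, specMap (∑ q₃ ∈ colS d,
        C (sgnZ q₁ * sgnZ q₂ * sgnZ q₃) * ∏ x, X (r (q₁ x), r (q₂ x), s (q₃ x))) =
        if q₂ = q₁ then ∑ q₃ ∈ colS d, C (sgnZ q₃) * ∏ x, X (r (q₁ x), s (q₃ x)) else 0 := by
      intro q₂ h₂
      rw [map_sum]
      rw [Finset.sum_congr rfl fun q₃ _ => specMap_term r c s hinj q₁ q₂ q₃ h₁ h₂]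
      split_ifs with hq
      · rfl
      · simp
    rw [Finset.sum_congr rfl this, Finset.sum_ite_eq' (colS c) q₁, if_pos h₁]
  rw [← hmap, h0, map_zero]

/-- Uniqueness of the diagonal monomial. -/
theorem lam_unique (ρ s d : Fin n → ℕ) (hinj : ∀ x y, s x = s y → d x = d y → x = y)
    (hρ : ∀ u u', d u = d u' → s u < s u' → ρ u < ρ u') (q : Perm (Fin n)) (hq : q ∈ colS d)
    (hdeg : degF (fun x => (ρ x, s (q x))) = degF (fun x => (ρ x, s x))) : q = 1 := by
  have hq' : ∀ x, d (q x) = d x := (Finset.mem_filter.1 hq).2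
  obtain ⟨π, hπ⟩ := exists_perm_of_degF hdeg
  have hπ1 : ∀ x, ρ (π x) = ρ x := fun x => congrArg Prod.fst (hπ x)
  have hπ2 : ∀ x, s (q (π x)) = s x := fun x => congrArg Prod.snd (hπ x)
  have key : ∀ b : ℕ, ∀ x, s x = b → q x = x := by
    intro b
    induction b using Nat.strong_induction_on with
    | _ b ih =>
      -- the sum of `ρ` over the level `b` is preserved
      have hsum : ∑ u ∈ univ.filter (fun u => s u = b), ρ (q⁻¹ u) =
          ∑ u ∈ univ.filter (fun u => s u = b), ρ u := by
        have e1 : ∑ u ∈ univ.filter (fun u => s u = b), ρ (q⁻¹ u) =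
            ∑ x ∈ univ.filter (fun x => s (q x) = b), ρ x := by
          refine Finset.sum_bij (fun u _ => q⁻¹ u) ?_ ?_ ?_ ?_
          · intro u hu
            simpa using hu
          · intro u _ v _ huv
            exact q⁻¹.injective huv
          · intro x hx
            refine ⟨q x, ?_, by simp⟩
            simpa using hx
          · intro u _
            rfl
        have e2 : ∑ x ∈ univ.filter (fun x => s (q x) = b), ρ x =
            ∑ u ∈ univ.filter (fun u => s u = b), ρ u := by
          refine (Finset.sum_bij (fun u _ => π u) ?_ ?_ ?_ ?_).symm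
          · intro u hu
            simp only [Finset.mem_filter, Finset.mem_univ, true_and] at hu ⊢
            rw [hπ2, hu]
          · intro u _ v _ huv
            exact π.injective huv
          · intro x hx
            refine ⟨π⁻¹ x, ?_, by simp⟩
            simp only [Finset.mem_filter, Finset.mem_univ, true_and] at hx ⊢
            rw [← hπ2, ap_inv, hx]
          · intro u _
            exact (hπ1 u).symm
        rw [e1, e2]
      have hle : ∀ u ∈ univ.filter (fun u => s u = b), ρ u ≤ ρ (q⁻¹ u) := by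
        intro u hu
        have hu' : s u = b := by simpa using hu
        have hdv : d u = d (q⁻¹ u) := by
          have := hq' (q⁻¹ u)
          rw [ap_inv] at this
          exact this
        rcases lt_trichotomy (s (q⁻¹ u)) b with hlt | heq | hgt
        · exfalso
          have hfix := ih _ hlt (q⁻¹ u) rfl
          rw [ap_inv] at hfix
          rw [← hfix] at hlt
          omega
        · have : u = q⁻¹ u := hinj _ _ (by omega) hdv
          rw [← this]
        · exact (hρ u (q⁻¹ u) hdv (by omega)).le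
      have heq := (Finset.sum_eq_sum_iff_of_le hle).1 hsum.symm
      intro x hx
      have hxm : x ∈ univ.filter (fun u => s u = b) := by simpa using hx
      have hρeq := heq x hxm
      have hdv : d x = d (q⁻¹ x) := by
        have := hq' (q⁻¹ x)
        rw [ap_inv] at this
        exact this
      rcases lt_trichotomy (s (q⁻¹ x)) b with hlt | heq' | hgt
      · exfalso
        have hfix := ih _ hlt (q⁻¹ x) rfl
        rw [ap_inv] at hfix
        rw [← hfix] at hlt
        omega
      · have h1 : x = q⁻¹ x := hinj _ _ (by omega) hdv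
        have h2 : q x = q (q⁻¹ x) := congrArg q h1
        rw [ap_inv] at h2
        exact h2
      · exfalso
        have := hρ x (q⁻¹ x) hdv (by omega)
        omega
  ext x
  simp [key (s x) x rfl]

/-- The coefficient of the diagonal monomial is one. -/
theorem lam_coeff (ρ s d : Fin n → ℕ) (hinj : ∀ x y, s x = s y → d x = d y → x = y)
    (hρ : ∀ u u', d u = d u' → s u < s u' → ρ u < ρ u') :
    MvPolynomial.coeff (degF fun x => (ρ x, s x)) (lamP ρ s d) = 1 := by
  classical
  unfold lamP
  rw [coeff_sum]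
  have h1 : (1 : Perm (Fin n)) ∈ colS d := by simp [colS]
  rw [Finset.sum_eq_single_of_mem 1 h1]
  · rw [coeff_C_mul, prod_X_eq]
    simp [sgnZ]
  · intro q hq hne
    rw [coeff_C_mul, prod_X_eq, coeff_monomial, if_neg, mul_zero]
    intro heq
    exact hne (lam_unique ρ s d hinj hρ q hq heq)

/-- Row and column of a filling determine the label. -/
private theorem fill_inj {μ : YoungDiagram} (T : Filling n μ) (x y : Fin n)
    (h1 : rowOf T x = rowOf T y) (h2 : colOf T x = colOf T y) : x = y := by
  apply T.injective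
  apply Subtype.ext
  exact Prod.ext h1 h2

/-- **The strict diagram theorem.** -/
theorem KP_strict {τ γ : YoungDiagram} (hs : StrictDiag τ) (hcard : τ.card = γ.card)
    (hdom : Dom γ τ) : KP τ τ γ := by
  classical
  obtain ⟨T⟩ := exists_filling τ.card τ rfl
  obtain ⟨S⟩ := exists_filling τ.card γ hcard.symm
  obtain ⟨f, hf⟩ := exists_strict_coloring T S hdom
  set m := degF fun x => (rowOf T (f x), rowOf S x) with hm
  let Y : (Fin τ.card → ℕ) → ℤ := fun ρ => MvPolynomial.coeff m (lamP ρ (rowOf S) (colOf S))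
  have hY : Y (fun x => rowOf T (f x)) = 1 :=
    lam_coeff (fun x => rowOf T (f x)) (rowOf S) (colOf S) (fill_inj S)
      (fun u u' hd hs => hf u u' hd hs)
  have hex : ∃ g : Perm (Fin τ.card),
      ∑ q ∈ colS (colOf T), Y (fun x => rowOf T (q (g x))) ≠ 0 := by
    by_contra hcon
    push Not at hcon
    have := ns T hs Y hcon f
    rw [hY] at this
    exact one_ne_zero this
  obtain ⟨g, hg⟩ := hex
  have hP : ∑ q ∈ colS (colOf T), lamP (fun x => rowOf T (q (g x))) (rowOf S) (colOf S) ≠ 0 := by
    intro h0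
    apply hg
    have : ∑ q ∈ colS (colOf T), Y (fun x => rowOf T (q (g x))) =
        MvPolynomial.coeff m (∑ q ∈ colS (colOf T),
          lamP (fun x => rowOf T (q (g x))) (rowOf S) (colOf S)) := by
      rw [coeff_sum]
    rw [this, h0, coeff_zero]
  let T' : Filling τ.card τ := g.trans T
  have hr : ∀ x, rowOf T' x = rowOf T (g x) := fun x => rfl
  have hc : ∀ x, colOf T' x = colOf T (g x) := fun x => rfl
  have hreindex : ∑ q' ∈ colS (colOf T'), lamP (fun x => rowOf T' (q' x)) (rowOf S) (colOf S) =
      ∑ q ∈ colS (colOf T), lamP (fun x => rowOf T (q (g x))) (rowOf S) (colOf S) := by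
    refine Finset.sum_bij (fun q' _ => g⁻¹.trans (q'.trans g)) ?_ ?_ ?_ ?_
    · intro q' hq'
      have hq'' : ∀ x, colOf T' (q' x) = colOf T' x := (Finset.mem_filter.1 hq').2
      refine Finset.mem_filter.2 ⟨Finset.mem_univ _, fun x => ?_⟩
      have h := hq'' (g⁻¹ x)
      rw [hc, hc, ap_inv] at h
      exact h
    · intro q₁ _ q₂ _ h
      ext x
      have h' := congrArg (fun p : Perm (Fin τ.card) => p (g x)) h
      simp only [Equiv.trans_apply] at h'
      have h3 : g⁻¹ (g x) = x := by simp
      rw [h3] at h'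
      have := g.injective h'
      rw [this]
    · intro q hq
      have hq'' : ∀ x, colOf T (q x) = colOf T x := (Finset.mem_filter.1 hq).2
      refine ⟨g.trans (q.trans g⁻¹), Finset.mem_filter.2 ⟨Finset.mem_univ _, fun x => ?_⟩, ?_⟩
      · rw [hc, hc]
        simp only [Equiv.trans_apply]
        rw [ap_inv, hq'']
      · ext x
        simp
    · intro q' _
      congr 1
      funext x
      rw [hr]
      simp
  have hfin : polyP T' T' S ≠ 0 := by
    apply polyF_spec (rowOf T') (colOf T') (rowOf S) (colOf S) (fill_inj T')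
    rw [hreindex]
    exact hP
  exact KP_of_poly T' T' S hfin

end Vale.Agent.Lib.P197X
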