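import Vale.Agent.Lib.P197X.Growth

/-!
# P197X: subset sums of many small numbers fill a long window (blueprint Sec 9)
-/

open Finset

namespace Vale.Agent.Lib.P197X

/-- The conclusion of the window lemma. -/
def WindowRes (h : ℕ) {ι : Type} [Fintype ι] [DecidableEq ι] (a : ι → ℕ) : Prop :=
  ∃ (q : ℕ) (G E : Finset ι) (lo : ℕ), 1 ≤ q ∧ Disjoint G E ∧ G.card ≤ 3 * h ∧
    Fintype.card ι ≤ G.card + E.card + 8 * h ∧ (∀ i ∈ E, q ∣ a i) ∧ lo ≤ ∑ i ∈ G, a i ∧
    ∀ E' ⊆ E, ∀ x, q ∣ x → lo ≤ x → x ≤ lo + ∑ i ∈ E', a i → ∃ s ⊆ G ∪ E', ∑ i ∈ s, a i = x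

/-- The hypothesis of the window lemma at level `h`. -/
def WindowHyp (h : ℕ) : Prop :=
  ∀ (ι : Type) [Fintype ι] [DecidableEq ι] (a : ι → ℕ), (∀ i, 1 ≤ a i ∧ a i ≤ h) →
    10000 * h ≤ Fintype.card ι → WindowRes h a

/-- Non robust case: few non multiples of some `r ≥ 2`. -/
theorem window_nonrobust (h : ℕ) (hh : 1 ≤ h) (IH : ∀ h', 1 ≤ h' → h' < h → WindowHyp h')
    {ι : Type} [Fintype ι] [DecidableEq ι] (a : ι → ℕ) (ha : ∀ i, 1 ≤ a i ∧ a i ≤ h)
    (hc : 10000 * h ≤ Fintype.card ι) (r : ℕ) (hr : 2 ≤ r)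
    (hfew : (univ.filter fun i => ¬ r ∣ a i).card ≤ 4 * h) : WindowRes h a := by
  have hsplit := Finset.card_filter_add_card_filter_not (s := (univ : Finset ι)) (fun i => r ∣ a i)
  rw [Finset.card_univ] at hsplit
  -- `r ≤ h`
  have hrh : r ≤ h := by
    by_contra hlt
    have hall : (univ.filter fun i => ¬ r ∣ a i) = univ := by
      ext i
      simp only [Finset.mem_filter, Finset.mem_univ, true_and, iff_true]
      intro hdvd
      have := Nat.le_of_dvd (ha i).1 hdvd
      have := (ha i).2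
      omega
    rw [hall, Finset.card_univ] at hfew
    omega
  let ι' := {i : ι // r ∣ a i}
  let a' : ι' → ℕ := fun i => a i.1 / r
  set h' := h / r with hh'
  have hrpos : 0 < r := by omega
  have hh'1 : 1 ≤ h' := Nat.div_pos hrh hrpos
  have hh'lt : h' < h := Nat.div_lt_self (by omega) (by omega)
  have hh'2 : 2 * h' ≤ h := by
    have h1 : h' * r ≤ h := Nat.div_mul_le_self h r
    have h2 : h' * 2 ≤ h' * r := Nat.mul_le_mul_left _ hr
    omega
  have hcard' : Fintype.card ι' = (univ.filter fun i => r ∣ a i).card := Fintype.card_subtype _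
  have ha' : ∀ i, 1 ≤ a' i ∧ a' i ≤ h' := by
    intro i
    constructor
    · exact Nat.div_pos (Nat.le_of_dvd (ha i.1).1 i.2) hrpos
    · exact Nat.div_le_div_right (ha i.1).2
  have hmul : ∀ i : ι', r * a' i = a i.1 := fun i => Nat.mul_div_cancel' i.2
  have hc' : 10000 * h' ≤ Fintype.card ι' := by omega
  obtain ⟨q', G', E', lo', hq', hdisj', hG', hcard'', hdvd', hlo', hwin'⟩ := IH h' hh'1 hh'lt ι' a' ha' hc'
  have hinj : Function.Injective (Subtype.val : ι' → ι) := Subtype.val_injective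
  refine ⟨r * q', G'.image Subtype.val, E'.image Subtype.val, r * lo', ?_, ?_, ?_, ?_, ?_, ?_, ?_⟩
  · exact Nat.mul_pos hrpos hq'
  · rw [Finset.disjoint_left]
    intro i hi hi2
    obtain ⟨j, hj, rfl⟩ := Finset.mem_image.1 hi
    obtain ⟨j2, hj2, he⟩ := Finset.mem_image.1 hi2
    have := hinj he
    subst this
    exact (Finset.disjoint_left.1 hdisj') hj hj2
  · rw [Finset.card_image_of_injective _ hinj]
    omega
  · rw [Finset.card_image_of_injective _ hinj, Finset.card_image_of_injective _ hinj]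
    omega
  · intro i hi
    obtain ⟨j, hj, rfl⟩ := Finset.mem_image.1 hi
    rw [← hmul j]
    exact Nat.mul_dvd_mul_left r (hdvd' j hj)
  · rw [Finset.sum_image (fun x _ y _ e => hinj e)]
    have : ∑ j ∈ G', a j.1 = r * ∑ j ∈ G', a' j := by
      rw [Finset.mul_sum]
      exact Finset.sum_congr rfl (fun j _ => (hmul j).symm)
    rw [this]
    exact Nat.mul_le_mul_left _ hlo'
  · intro Et hEt x hqx hlox hxhi
    obtain ⟨x', rfl⟩ : r ∣ x := dvd_trans (Dvd.intro _ rfl) hqx
    have hq'x : q' ∣ x' := Nat.dvd_of_mul_dvd_mul_left hrpos hqx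
    have hlo2 : lo' ≤ x' := Nat.le_of_mul_le_mul_left hlox hrpos
    set Ef := E'.filter (fun j => j.1 ∈ Et) with hEf
    have hEfim : Ef.image Subtype.val = Et := by
      ext i
      simp only [Finset.mem_image, hEf, Finset.mem_filter]
      constructor
      · rintro ⟨j, hj, rfl⟩
        exact hj.2
      · intro hi
        obtain ⟨j, hj, rfl⟩ := Finset.mem_image.1 (hEt hi)
        exact ⟨j, ⟨hj, hi⟩, rfl⟩
    have hsumE : ∑ i ∈ Et, a i = r * ∑ j ∈ Ef, a' j := by
      rw [← hEfim, Finset.sum_image (fun x _ y _ e => hinj e), Finset.mul_sum]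
      exact Finset.sum_congr rfl (fun j _ => (hmul j).symm)
    rw [hsumE, ← Nat.mul_add] at hxhi
    have hhi2 : x' ≤ lo' + ∑ j ∈ Ef, a' j := Nat.le_of_mul_le_mul_left hxhi hrpos
    obtain ⟨s', hs', hsum'⟩ := hwin' Ef (Finset.filter_subset _ _) x' hq'x hlo2 hhi2
    refine ⟨s'.image Subtype.val, ?_, ?_⟩
    · intro i hi
      obtain ⟨j, hj, rfl⟩ := Finset.mem_image.1 hi
      have := hs' hj
      rw [Finset.mem_union] at this ⊢
      rcases this with h1 | h1
      · exact Or.inl (Finset.mem_image_of_mem _ h1)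
      · exact Or.inr ((Finset.mem_filter.1 h1).2)
    · rw [Finset.sum_image (fun x _ y _ e => hinj e), ← hsum', Finset.mul_sum]
      exact Finset.sum_congr rfl (fun j _ => (hmul j).symm)

/-- Robust case with a repeated value. -/
theorem window_repeat (h : ℕ) (hh : 1 ≤ h)
    {ι : Type} [Fintype ι] [DecidableEq ι] (a : ι → ℕ) (ha : ∀ i, 1 ≤ a i ∧ a i ≤ h)
    (hc : 10000 * h ≤ Fintype.card ι)
    (hrob : ∀ r, 2 ≤ r → 4 * h < (univ.filter fun i => ¬ r ∣ a i).card)
    (v : ℕ) (hv : h + 2 ≤ (univ.filter fun i => a i = v).card) : WindowRes h a := by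
  classical
  obtain ⟨A, hAsub, hAcard⟩ := Finset.exists_subset_card_eq hv
  have hAv : ∀ i ∈ A, a i = v := fun i hi => (Finset.mem_filter.mp (hAsub hi)).2
  have hAne : A.Nonempty := by
    rw [← Finset.card_pos]; omega
  obtain ⟨i0, hi0⟩ := hAne
  have hv1 : 1 ≤ v := by rw [← hAv i0 hi0]; exact (ha i0).1
  have hvh : v ≤ h := by rw [← hAv i0 hi0]; exact (ha i0).2
  have hYg : ∀ r, 2 ≤ r → r ∣ v → v ≤ ((univ \ A).filter fun i => ¬ r ∣ a i).card := by
    intro r hr hrv
    have hsub : (univ.filter fun i => ¬ r ∣ a i) ⊆ (univ \ A).filter fun i => ¬ r ∣ a i := by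
      intro i hi
      have hi' := (Finset.mem_filter.mp hi).2
      refine Finset.mem_filter.mpr ⟨?_, hi'⟩
      refine Finset.mem_sdiff.mpr ⟨Finset.mem_univ i, fun hiA => hi' ?_⟩
      rw [hAv i hiA]; exact hrv
    have h1 := Finset.card_le_card hsub
    have h2 := hrob r hr
    omega
  obtain ⟨U, hUY, hUc, hUres⟩ := growth v hv1 (univ \ A) a hYg
  have hAU : Disjoint A U := by
    rw [Finset.disjoint_left]
    intro i hiA hiU
    exact (Finset.mem_sdiff.mp (hUY hiU)).2 hiA
  have hGE : Disjoint (A ∪ U) (univ \ (A ∪ U)) := Finset.disjoint_sdiff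
  have hGcard : (A ∪ U).card = h + 2 + U.card := by
    rw [Finset.card_union_of_disjoint hAU, hAcard]
  refine ⟨1, A ∪ U, univ \ (A ∪ U), ∑ i ∈ U, a i, le_refl _, hGE, ?_, ?_, ?_, ?_, ?_⟩
  · rw [hGcard]; omega
  · have : (A ∪ U).card + (univ \ (A ∪ U)).card = Fintype.card ι := by
      rw [Finset.card_sdiff_of_subset (Finset.subset_univ _), Finset.card_univ]
      have := Finset.card_le_univ (A ∪ U)
      omega
    omega
  · intro i _; exact one_dvd _
  · exact Finset.sum_le_sum_of_subset Finset.subset_union_right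
  · intro E' hE' x _ hlo hhi
    have hxE : x - ∑ i ∈ U, a i ≤ ∑ i ∈ E', a i := by omega
    obtain ⟨W, hWE, hW1, hW2⟩ := greedy E' a h hh (fun i _ => (ha i).2) _ hxE
    obtain ⟨U', hU'U, hU'⟩ := hUres (x - ∑ i ∈ W, a i)
    have hsplit : ∑ i ∈ U \ U', a i + ∑ i ∈ U', a i = ∑ i ∈ U, a i :=
      Finset.sum_sdiff hU'U
    have hcomp : ∑ i ∈ U \ U', a i ≤ U.card * h := by
      calc ∑ i ∈ U \ U', a i ≤ (U \ U').card • h :=
            Finset.sum_le_card_nsmul _ _ _ (fun i _ => (ha i).2)
        _ = (U \ U').card * h := by simp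
        _ ≤ U.card * h :=
            Nat.mul_le_mul_right _ (Finset.card_le_card Finset.sdiff_subset)
    have hy : ∑ i ∈ U', a i ≤ x - ∑ i ∈ W, a i := by omega
    have hdvd : v ∣ (x - ∑ i ∈ W, a i) - ∑ i ∈ U', a i := (Nat.modEq_iff_dvd' hy).mp hU'
    obtain ⟨e, he⟩ := hdvd
    have hvh2 : v * e < v * h := by
      rw [← he]
      have h3 : (U.card + 1) * h ≤ v * h := Nat.mul_le_mul_right _ hUc
      have h4 : (U.card + 1) * h = U.card * h + h := by ring
      omega
    have heh : e < h := Nat.lt_of_mul_lt_mul_left hvh2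
    have heA : e ≤ A.card := by omega
    obtain ⟨A', hA'A, hA'c⟩ := Finset.exists_subset_card_eq heA
    have hA'sum : ∑ i ∈ A', a i = v * e := by
      rw [Finset.sum_congr rfl (fun i hi => hAv i (hA'A hi)), Finset.sum_const, hA'c]
      simp [Nat.mul_comm]
    have hd1 : Disjoint U' A' :=
      Finset.disjoint_of_subset_left hU'U
        (Finset.disjoint_of_subset_right hA'A hAU.symm)
    have hd2 : Disjoint W (U' ∪ A') := by
      rw [Finset.disjoint_left]
      intro i hiW hi
      have hiE := hE' (hWE hiW)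
      have hiG : i ∈ A ∪ U := by
        rcases Finset.mem_union.mp hi with hi | hi
        · exact Finset.mem_union_right _ (hU'U hi)
        · exact Finset.mem_union_left _ (hA'A hi)
      exact (Finset.mem_sdiff.mp hiE).2 hiG
    refine ⟨W ∪ (U' ∪ A'), ?_, ?_⟩
    · intro i hi
      rcases Finset.mem_union.mp hi with hi | hi
      · exact Finset.mem_union_right _ (hWE hi)
      · rcases Finset.mem_union.mp hi with hi | hi
        · exact Finset.mem_union_left _ (Finset.mem_union_right _ (hU'U hi))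
        · exact Finset.mem_union_left _ (Finset.mem_union_left _ (hA'A hi))
    · rw [Finset.sum_union hd2, Finset.sum_union hd1, hA'sum]
      omega

private lemma pairs_index_eq {L k k' i i' : ℕ} (hi : i < L) (hi' : i' < L)
    (h : k * L + i = k' * L + i') : k = k' ∧ i = i' := by
  have hL : 0 < L := by omega
  have h1 : (k * L + i) / L = k := by
    rw [Nat.add_comm, Nat.add_mul_div_right _ _ hL, Nat.div_eq_of_lt hi, Nat.zero_add]
  have h2 : (k' * L + i') / L = k' := by
    rw [Nat.add_comm, Nat.add_mul_div_right _ _ hL, Nat.div_eq_of_lt hi', Nat.zero_add]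
  have hk : k = k' := by rw [← h1, ← h2, h]
  subst hk
  exact ⟨rfl, by omega⟩

private lemma pairs_telescope (B : ℕ → ℕ) (hB : Monotone B) (L i J : ℕ) :
    ∑ j ∈ range J, (B ((2 * j + 1) * L + i) - B (2 * j * L + i)) + B i ≤ B (2 * J * L + i) := by
  induction J with
  | zero => simp
  | succ J ih =>
    rw [sum_range_succ]
    have h1 : B (2 * J * L + i) ≤ B ((2 * J + 1) * L + i) :=
      hB (by nlinarith)
    have h2 : B ((2 * J + 1) * L + i) ≤ B (2 * (J + 1) * L + i) :=
      hB (by nlinarith)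
    omega

/-- Disjoint pairs of close different values when no value is repeated too often. -/
theorem exists_pairs (h : ℕ) (hh : 9999 ≤ h)
    {ι : Type} [Fintype ι] [DecidableEq ι] (a : ι → ℕ) (ha : ∀ i, 1 ≤ a i ∧ a i ≤ h)
    (hc : 10000 * h ≤ Fintype.card ι)
    (hrep : ∀ v, (univ.filter fun i => a i = v).card ≤ h + 1) :
    ∃ (lowI highI : Fin (150 * (h + 2)) → ι),
      (∀ p, a (lowI p) < a (highI p) ∧ a (highI p) ≤ a (lowI p) + (h / 150 + 1)) ∧
      Function.Injective lowI ∧ Function.Injective highI ∧ ∀ p p', lowI p ≠ highI p' := by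
  classical
  set N := Fintype.card ι with hN
  have hNpos : 0 < N := by omega
  let e : ι ≃ Fin N := Fintype.equivFin ι
  let f : Fin N → ℕ := fun k => a (e.symm k)
  let σ := Tuple.sort f
  have hmono : Monotone (f ∘ σ) := Tuple.monotone_sort f
  let c : Fin N → ι := fun k => e.symm (σ k)
  have hc_inj : Function.Injective c := fun x y hxy => σ.injective (e.symm.injective hxy)
  let cl : ℕ → Fin N := fun k => ⟨min k (N - 1), by omega⟩
  have hcl_val : ∀ k, k < N → (cl k : ℕ) = k := fun k hk => by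
    show min k (N - 1) = k
    omega
  let B : ℕ → ℕ := fun k => a (c (cl k))
  have hBmono : Monotone B := by
    intro x y hxy
    have : cl x ≤ cl y := by
      show min x (N - 1) ≤ min y (N - 1)
      omega
    exact hmono this
  have hBle : ∀ k, B k ≤ h := fun k => (ha _).2
  set L := h + 2 with hL
  have hLpos : 0 < L := by omega
  have hNL : 600 * L ≤ N := by omega
  let lowN : Fin L × Fin 300 → ℕ := fun p => 2 * (p.2 : ℕ) * L + p.1
  let highN : Fin L × Fin 300 → ℕ := fun p => (2 * (p.2 : ℕ) + 1) * L + p.1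
  have hlow_lt : ∀ p, lowN p < N := by
    intro p
    have h1 := p.1.isLt
    have h2 := p.2.isLt
    have : 2 * (p.2 : ℕ) * L + (p.1 : ℕ) < 600 * L := by nlinarith
    exact lt_of_lt_of_le this hNL
  have hhigh_lt : ∀ p, highN p < N := by
    intro p
    have h1 := p.1.isLt
    have h2 := p.2.isLt
    have : (2 * (p.2 : ℕ) + 1) * L + (p.1 : ℕ) < 600 * L := by nlinarith
    exact lt_of_lt_of_le this hNL
  have hlow_inj : Function.Injective lowN := by
    intro p p' hpp
    have := pairs_index_eq p.1.isLt p'.1.isLt hpp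
    ext
    · exact this.2
    · have h3 := this.1
      show (p.2 : ℕ) = p'.2
      omega
  have hhigh_inj : Function.Injective highN := by
    intro p p' hpp
    have := pairs_index_eq p.1.isLt p'.1.isLt hpp
    ext
    · exact this.2
    · have h3 := this.1
      show (p.2 : ℕ) = p'.2
      omega
  have hlowhigh : ∀ p p', lowN p ≠ highN p' := by
    intro p p' hpp
    have := pairs_index_eq p.1.isLt p'.1.isLt hpp
    have h3 := this.1
    omega
  -- strict increase
  have hstrict : ∀ p, B (lowN p) < B (highN p) := by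
    intro p
    by_contra hcon
    push Not at hcon
    set v := B (lowN p) with hv
    have hconst : ∀ k ∈ Finset.Icc (lowN p) (highN p), a (c (cl k)) = v := by
      intro k hk
      rw [Finset.mem_Icc] at hk
      apply le_antisymm
      · exact le_trans (hBmono hk.2) hcon
      · exact hBmono hk.1
    have hinj : Set.InjOn (fun k => c (cl k)) (Finset.Icc (lowN p) (highN p) : Finset ℕ) := by
      intro x hx y hy hxy
      have hx' := Finset.mem_Icc.mp hx
      have hy' := Finset.mem_Icc.mp hy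
      have h5 := hc_inj hxy
      have h6 : (cl x : ℕ) = cl y := congrArg Fin.val h5
      rw [hcl_val x (lt_of_le_of_lt hx'.2 (hhigh_lt p)),
        hcl_val y (lt_of_le_of_lt hy'.2 (hhigh_lt p))] at h6
      exact h6
    have hcard : (Finset.Icc (lowN p) (highN p)).card ≤ (univ.filter fun i => a i = v).card := by
      apply Finset.card_le_card_of_injOn (fun k => c (cl k))
      · intro k hk
        simp only [Finset.coe_filter, Finset.mem_univ, true_and, Set.mem_ofPred_eq]
        exact hconst k hk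
      · exact hinj
    have h7 := hrep v
    rw [Nat.card_Icc] at hcard
    have h8 : highN p = lowN p + L := by
      show (2 * (p.2 : ℕ) + 1) * L + p.1 = 2 * (p.2 : ℕ) * L + p.1 + L
      ring
    omega
  -- counting bad pairs
  set h1 := h / 150 + 1 with hh1
  have hh1pos : 0 < h1 := by omega
  have hh150 : h ≤ 150 * h1 := by omega
  let d : Fin L × Fin 300 → ℕ := fun p => B (highN p) - B (lowN p)
  have hsum : ∑ p, d p ≤ L * h := by
    have hfix : ∀ i : Fin L, ∑ j : Fin 300, d (i, j) ≤ h := by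
      intro i
      have h5 := pairs_telescope B hBmono L i 300
      have h6 := hBle (2 * 300 * L + i)
      have h7 : ∑ j : Fin 300, d (i, j) =
          ∑ j ∈ range 300, (B ((2 * j + 1) * L + i) - B (2 * j * L + i)) := by
        rw [Finset.sum_range]
      rw [h7]
      omega
    rw [Fintype.sum_prod_type]
    calc ∑ i : Fin L, ∑ j : Fin 300, d (i, j) ≤ ∑ _i : Fin L, h :=
          Finset.sum_le_sum fun i _ => hfix i
      _ = L * h := by simp
  let Bad : Finset (Fin L × Fin 300) := univ.filter fun p => h1 < d p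
  have hBad : Bad.card * h1 ≤ L * h := by
    calc Bad.card * h1 = ∑ _p ∈ Bad, h1 := by simp
      _ ≤ ∑ p ∈ Bad, d p := Finset.sum_le_sum fun p hp => (Finset.mem_filter.mp hp).2.le
      _ ≤ ∑ p, d p := Finset.sum_le_sum_of_subset (Finset.subset_univ _)
      _ ≤ L * h := hsum
  have hBad' : Bad.card ≤ 150 * L := by
    have : Bad.card * h1 ≤ (150 * L) * h1 := by
      calc Bad.card * h1 ≤ L * h := hBad
        _ ≤ L * (150 * h1) := Nat.mul_le_mul_left _ hh150
        _ = (150 * L) * h1 := by ring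
    exact Nat.le_of_mul_le_mul_right this hh1pos
  let Good : Finset (Fin L × Fin 300) := univ.filter fun p => ¬ h1 < d p
  have hGood : 150 * L ≤ Good.card := by
    have h5 := Finset.card_filter_add_card_filter_not (s := (univ : Finset (Fin L × Fin 300)))
      (fun p => h1 < d p)
    have h6 : (univ : Finset (Fin L × Fin 300)).card = L * 300 := by simp
    have h7 : Bad.card + Good.card = L * 300 := by rw [← h6]; exact h5
    omega
  have hemb : Nonempty (Fin (150 * L) ↪ Good) :=
    Function.Embedding.nonempty_of_card_le (by simpa using hGood)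
  obtain ⟨g⟩ := hemb
  refine ⟨fun x => c (cl (lowN (g x).1)), fun x => c (cl (highN (g x).1)), ?_, ?_, ?_, ?_⟩
  · intro x
    refine ⟨hstrict _, ?_⟩
    have hg := (Finset.mem_filter.mp (g x).2).2
    have h5 := hstrict (g x).1
    show B (highN (g x).1) ≤ B (lowN (g x).1) + h1
    have : d (g x).1 ≤ h1 := not_lt.mp hg
    have h6 : d (g x).1 = B (highN (g x).1) - B (lowN (g x).1) := rfl
    omega
  · intro x y hxy
    have h5 := hc_inj hxy
    have h6 : (cl (lowN (g x).1) : ℕ) = cl (lowN (g y).1) := congrArg Fin.val h5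
    rw [hcl_val _ (hlow_lt _), hcl_val _ (hlow_lt _)] at h6
    exact g.injective (Subtype.ext (hlow_inj h6))
  · intro x y hxy
    have h5 := hc_inj hxy
    have h6 : (cl (highN (g x).1) : ℕ) = cl (highN (g y).1) := congrArg Fin.val h5
    rw [hcl_val _ (hhigh_lt _), hcl_val _ (hhigh_lt _)] at h6
    exact g.injective (Subtype.ext (hhigh_inj h6))
  · intro x y hxy
    have h5 := hc_inj hxy
    have h6 : (cl (lowN (g x).1) : ℕ) = cl (highN (g y).1) := congrArg Fin.val h5
    rw [hcl_val _ (hlow_lt _), hcl_val _ (hhigh_lt _)] at h6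
    exact hlowhigh _ _ h6

/-- Selecting one end of every pair: the sum of a selection. -/
private lemma spread_pairs_sum {ι κ : Type} [DecidableEq ι] [DecidableEq κ] (a : ι → ℕ)
    (lowI highI : κ → ι)
    (hlow : Function.Injective lowI) (hhigh : Function.Injective highI)
    (hdisj : ∀ p p', lowI p ≠ highI p')
    (hle : ∀ p, a (lowI p) ≤ a (highI p)) (V s' : Finset κ) (hs : s' ⊆ V) :
    ∑ i ∈ s'.image highI ∪ (V \ s').image lowI, a i =
      ∑ p ∈ s', (a (highI p) - a (lowI p)) + ∑ p ∈ V, a (lowI p) := by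
  have hd : Disjoint (s'.image highI) ((V \ s').image lowI) := by
    rw [Finset.disjoint_left]
    intro i hi hi'
    obtain ⟨p, _, rfl⟩ := Finset.mem_image.1 hi
    obtain ⟨p', _, hp'⟩ := Finset.mem_image.1 hi'
    exact hdisj p' p hp'
  rw [Finset.sum_union hd, Finset.sum_image hhigh.injOn, Finset.sum_image hlow.injOn]
  have h1 : ∑ p ∈ s', a (highI p) =
      ∑ p ∈ s', (a (highI p) - a (lowI p)) + ∑ p ∈ s', a (lowI p) := by
    rw [← Finset.sum_add_distrib]
    exact Finset.sum_congr rfl fun p _ => (Nat.sub_add_cancel (hle p)).symm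
  have h2 := Finset.sum_sdiff (f := fun p => a (lowI p)) hs

  omega

/-- Many elements with values in `[1, h]` and bounded multiplicities force `h` to be large. -/
private lemma spread_h_large (h : ℕ) (hh : 1 ≤ h)
    {ι : Type} [Fintype ι] [DecidableEq ι] (a : ι → ℕ) (ha : ∀ i, 1 ≤ a i ∧ a i ≤ h)
    (hc : 10000 * h ≤ Fintype.card ι)
    (hrep : ∀ v, (univ.filter fun i => a i = v).card ≤ h + 1) : 9999 ≤ h := by
  have hcard : Fintype.card ι = ∑ v ∈ Finset.Icc 1 h, (univ.filter fun i => a i = v).card := by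
    rw [← Finset.card_univ]
    apply Finset.card_eq_sum_card_fiberwise
    intro i _
    simpa using ha i
  have hle : ∑ v ∈ Finset.Icc 1 h, (univ.filter fun i => a i = v).card ≤ h * (h + 1) := by
    calc _ ≤ (Finset.Icc 1 h).card • (h + 1) :=
          Finset.sum_le_card_nsmul _ _ _ (fun v _ => hrep v)
      _ = h * (h + 1) := by simp
  have h3 : h * 10000 ≤ h * (h + 1) := by
    calc h * 10000 = 10000 * h := by ring
      _ ≤ _ := by omega
  have := Nat.le_of_mul_le_mul_left h3 (by omega)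
  omega

/-- Robust case without a repeated value. -/
theorem window_spread (h : ℕ) (hh : 1 ≤ h) (IH : ∀ h', 1 ≤ h' → h' < h → WindowHyp h')
    {ι : Type} [Fintype ι] [DecidableEq ι] (a : ι → ℕ) (ha : ∀ i, 1 ≤ a i ∧ a i ≤ h)
    (hc : 10000 * h ≤ Fintype.card ι)
    (hrob : ∀ r, 2 ≤ r → 4 * h < (univ.filter fun i => ¬ r ∣ a i).card)
    (hrep : ∀ v, (univ.filter fun i => a i = v).card ≤ h + 1) : WindowRes h a := by
  have hh9 : 9999 ≤ h := spread_h_large h hh a ha hc hrep
  obtain ⟨lowI, highI, hpair, hlowinj, hhighinj, hdisj⟩ := exists_pairs h hh9 a ha hc hrep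
  obtain ⟨h1, hh1⟩ : ∃ h1, h1 = h / 150 + 1 := ⟨_, rfl⟩
  have hh1a : 1 ≤ h1 := by omega
  have e1 : 7 * h1 ≤ h := by omega
  have e2 : 10000 * h1 ≤ 150 * (h + 2) := by omega
  have e3 : h1 < h := by omega
  let δ : Fin (150 * (h + 2)) → ℕ := fun p => a (highI p) - a (lowI p)
  have hδdef : ∀ p, δ p = a (highI p) - a (lowI p) := fun p => rfl
  have hle : ∀ p, a (lowI p) ≤ a (highI p) := fun p => (hpair p).1.le
  have hδ1 : ∀ p, 1 ≤ δ p ∧ δ p ≤ h1 := by
    intro p
    have := hpair p
    rw [hδdef]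
    omega
  obtain ⟨q1, G1, E1, lo1, hq1, -, hG1, hcard1, hdvd1, hlo1, hwin1⟩ :=
    IH h1 hh1a e3 (Fin (150 * (h + 2))) δ hδ1 (by simpa using e2)
  have hcard1' : 150 * (h + 2) ≤ G1.card + E1.card + 8 * h1 := by simpa using hcard1
  have hE1 : h ≤ E1.card := by omega
  obtain ⟨E2, hE2sub, hE2card⟩ := Finset.exists_subset_card_eq hE1
  have hq1le : q1 ≤ h1 := by
    have hne : E2.Nonempty := by rw [← Finset.card_pos]; omega
    obtain ⟨p, hp⟩ := hne
    exact (Nat.le_of_dvd (hδ1 p).1 (hdvd1 p (hE2sub hp))).trans (hδ1 p).2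
  obtain ⟨V, hV⟩ : ∃ V, V = G1 ∪ E2 := ⟨_, rfl⟩
  have hVcard : V.card ≤ 3 * h1 + h := by
    have := Finset.card_union_le G1 E2
    rw [← hV] at this
    omega
  obtain ⟨I, hI⟩ : ∃ I, I = V.image lowI ∪ V.image highI := ⟨_, rfl⟩
  have hIcard : I.card ≤ 2 * (3 * h1 + h) := by
    have := Finset.card_union_le (V.image lowI) (V.image highI)
    rw [Finset.card_image_of_injective _ hlowinj, Finset.card_image_of_injective _ hhighinj,
      ← hI] at this
    omega
  obtain ⟨U, hUY, hUcard, hUres⟩ := growth q1 hq1 (univ \ I) a (by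
    intro r hr _
    have h1' := hrob r hr
    have hsub : (univ.filter fun i => ¬ r ∣ a i) ⊆ ((univ \ I).filter fun i => ¬ r ∣ a i) ∪ I := by
      intro i hi
      by_cases hiI : i ∈ I
      · exact mem_union_right _ hiI
      · refine mem_union_left _ ?_
        simp only [mem_filter, mem_univ, true_and, mem_sdiff] at hi ⊢
        exact ⟨hiI, hi⟩
    have := (card_le_card hsub).trans (card_union_le _ _)
    omega)
  have hUI : Disjoint U I := by
    rw [Finset.disjoint_left]
    intro i hi hi'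
    have := hUY hi
    simp only [mem_sdiff, mem_univ, true_and] at this
    exact this hi'
  have hUsum : ∑ i ∈ U, a i ≤ U.card * h := by
    have := Finset.sum_le_card_nsmul U a h (fun i _ => (ha i).2)
    simpa using this
  have hE2sum : h * q1 ≤ ∑ p ∈ E2, δ p := by
    have := Finset.card_nsmul_le_sum E2 δ q1
      (fun p hp => Nat.le_of_dvd (hδ1 p).1 (hdvd1 p (hE2sub hp)))
    simpa [hE2card] using this
  have hqU : (U.card + 1) * h ≤ q1 * h := Nat.mul_le_mul_right h hUcard
  obtain ⟨b1, hb1⟩ : ∃ b1, b1 = ∑ p ∈ V, a (lowI p) := ⟨_, rfl⟩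
  obtain ⟨lo, hlo⟩ : ∃ lo, lo = b1 + lo1 + ∑ i ∈ U, a i := ⟨_, rfl⟩
  -- the sum over the guard set
  have hGsum : lo ≤ ∑ i ∈ I ∪ U, a i := by
    have hd : Disjoint I U := hUI.symm
    have hd' : Disjoint (V.image lowI) (V.image highI) := by
      rw [Finset.disjoint_left]
      intro i hi hi'
      obtain ⟨p, _, rfl⟩ := Finset.mem_image.1 hi
      obtain ⟨p', _, hp'⟩ := Finset.mem_image.1 hi'
      exact hdisj p p' hp'.symm
    rw [Finset.sum_union hd, hI, Finset.sum_union hd', Finset.sum_image hlowinj.injOn,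
      Finset.sum_image hhighinj.injOn, hlo, hb1]
    have h2 : lo1 ≤ ∑ p ∈ V, a (highI p) := by
      calc lo1 ≤ ∑ p ∈ G1, δ p := hlo1
        _ ≤ ∑ p ∈ G1, a (highI p) := Finset.sum_le_sum fun p _ => Nat.sub_le _ _
        _ ≤ ∑ p ∈ V, a (highI p) := Finset.sum_le_sum_of_subset (by rw [hV]; exact subset_union_left)
    omega
  refine ⟨1, I ∪ U, univ \ (I ∪ U), lo, le_rfl, Finset.disjoint_sdiff, ?_, ?_,
    fun i _ => one_dvd _, hGsum, ?_⟩
  · have := Finset.card_union_le I U
    omega
  · rw [Finset.card_sdiff_of_subset (Finset.subset_univ _), Finset.card_univ]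
    have := Finset.card_le_univ (I ∪ U)
    omega
  · intro E' hE' x _ hlox hxhi
    obtain ⟨W, hWE', hW1, hW2⟩ := greedy E' a h hh (fun i _ => (ha i).2) (x - lo) (by omega)
    obtain ⟨y0, hy0⟩ : ∃ y0, y0 = x - ∑ i ∈ W, a i := ⟨_, rfl⟩
    have hy0lo : lo ≤ y0 := by omega
    have hy0hi : y0 < lo + h := by omega
    obtain ⟨U', hU'U, hU'mod⟩ := hUres (y0 - b1)
    have hsumU' : ∑ i ∈ U', a i ≤ ∑ i ∈ U, a i := Finset.sum_le_sum_of_subset hU'U
    obtain ⟨y, hy⟩ : ∃ y, y = y0 - b1 - ∑ i ∈ U', a i := ⟨_, rfl⟩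
    have hydvd : q1 ∣ y := by
      rw [hy]
      exact (Nat.modEq_iff_dvd' (by omega)).1 hU'mod
    have hylo : lo1 ≤ y := by omega
    have hyhi : y ≤ lo1 + ∑ p ∈ E2, δ p := by
      have h5 : (U.card + 1) * h = U.card * h + h := by ring
      have h6 : q1 * h = h * q1 := by ring
      omega
    obtain ⟨s', hs'V, hs'sum⟩ := hwin1 E2 hE2sub y hydvd hylo hyhi
    rw [← hV] at hs'V
    refine ⟨W ∪ (U' ∪ (s'.image highI ∪ (V \ s').image lowI)), ?_, ?_⟩
    · intro i hi
      simp only [mem_union] at hi ⊢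
      rcases hi with hi | hi | hi | hi
      · exact Or.inr (hWE' hi)
      · exact Or.inl (Or.inr (hU'U hi))
      · refine Or.inl (Or.inl ?_)
        rw [hI]
        obtain ⟨p, hp, rfl⟩ := Finset.mem_image.1 hi
        exact mem_union_right _ (Finset.mem_image_of_mem _ (hs'V hp))
      · refine Or.inl (Or.inl ?_)
        rw [hI]
        obtain ⟨p, hp, rfl⟩ := Finset.mem_image.1 hi
        exact mem_union_left _ (Finset.mem_image_of_mem _ (Finset.sdiff_subset hp))
    · have hTI : s'.image highI ∪ (V \ s').image lowI ⊆ I := by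
        intro i hi
        rw [hI]
        rcases mem_union.1 hi with hi | hi
        · obtain ⟨p, hp, rfl⟩ := Finset.mem_image.1 hi
          exact mem_union_right _ (Finset.mem_image_of_mem _ (hs'V hp))
        · obtain ⟨p, hp, rfl⟩ := Finset.mem_image.1 hi
          exact mem_union_left _ (Finset.mem_image_of_mem _ (Finset.sdiff_subset hp))
      have hd1 : Disjoint U' (s'.image highI ∪ (V \ s').image lowI) :=
        Finset.disjoint_of_subset_left hU'U (Finset.disjoint_of_subset_right hTI hUI)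
      have hd2 : Disjoint W (U' ∪ (s'.image highI ∪ (V \ s').image lowI)) := by
        rw [Finset.disjoint_left]
        intro i hi hi'
        have h7 := hE' (hWE' hi)
        simp only [mem_sdiff, mem_univ, true_and] at h7
        apply h7
        rcases mem_union.1 hi' with hi' | hi'
        · exact mem_union_right _ (hU'U hi')
        · exact mem_union_left _ (hTI hi')
      rw [Finset.sum_union hd2, Finset.sum_union hd1,
        spread_pairs_sum a lowI highI hlowinj hhighinj hdisj hle V s' hs'V, ← hb1]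
      have h8 : ∑ p ∈ s', (a (highI p) - a (lowI p)) = y := hs'sum
      omega

/-- **Window lemma.** -/
theorem window (h : ℕ) (hh : 1 ≤ h) : WindowHyp h := by
  induction h using Nat.strong_induction_on with
  | _ h ih =>
    intro ι _ _ a ha hc
    have IH : ∀ h', 1 ≤ h' → h' < h → WindowHyp h' := fun h' h1 h2 => ih h' h2 h1
    by_cases hn : ∃ r, 2 ≤ r ∧ (univ.filter fun i => ¬ r ∣ a i).card ≤ 4 * h
    · obtain ⟨r, hr, hf⟩ := hn
      exact window_nonrobust h hh IH a ha hc r hr hf
    · have hrob : ∀ r, 2 ≤ r → 4 * h < (univ.filter fun i => ¬ r ∣ a i).card := by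
        intro r hr
        by_contra hcon
        exact hn ⟨r, hr, not_lt.mp hcon⟩
      by_cases hv : ∃ v, h + 2 ≤ (univ.filter fun i => a i = v).card
      · obtain ⟨v, hv⟩ := hv
        exact window_repeat h hh a ha hc hrob v hv
      · have hrep : ∀ v, (univ.filter fun i => a i = v).card ≤ h + 1 := by
          intro v
          by_contra hcon
          exact hv ⟨v, by omega⟩
        exact window_spread h hh IH a ha hc hrob hrep

/-- The multiset form used by the peeling. -/
theorem window_ms (h : ℕ) (hh : 1 ≤ h) (P : Multiset ℕ) (hP : ∀ b ∈ P, 1 ≤ b ∧ b ≤ h)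
    (hc : 10000 * h ≤ Multiset.card P) :
    ∃ q lo : ℕ, 1 ≤ q ∧ q ≤ h ∧ lo ≤ 3 * h ^ 2 ∧
      ∀ x, q ∣ x → lo ≤ x → x + 11 * h ^ 2 ≤ P.sum → ∃ B ≤ P, B.sum = x := by
  classical
  set L : List ℕ := P.toList with hL
  let a : Fin L.length → ℕ := fun i => L.get i
  have hmem : ∀ i, a i ∈ P := by
    intro i
    have : a i ∈ L := List.get_mem L i
    simpa [hL] using this
  have ha : ∀ i, 1 ≤ a i ∧ a i ≤ h := fun i => hP _ (hmem i)
  have hcard : Fintype.card (Fin L.length) = Multiset.card P := by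
    simp [hL]
  have hc' : 10000 * h ≤ Fintype.card (Fin L.length) := by rw [hcard]; exact hc
  obtain ⟨q, G, E, lo, hq, hdis, hG, hGE, hdvd, hlo, hwin⟩ := window h hh (Fin L.length) a ha hc'
  -- total sum
  have hunivmap : (univ : Finset (Fin L.length)).val.map a = (P : Multiset ℕ) := by
    have h1 : (univ : Finset (Fin L.length)).val.map a = ((List.ofFn a : List ℕ) : Multiset ℕ) :=
      Fin.univ_val_map a
    have h2 : List.ofFn a = L := List.ofFn_get L
    rw [h1, h2, hL]
    exact Multiset.coe_toList P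
  have hsum : ∑ i, a i = P.sum := by
    have : ∑ i, a i = ((univ : Finset (Fin L.length)).val.map a).sum := rfl
    rw [this, hunivmap]
  -- bounds on sums over a finset
  have hsumle : ∀ s : Finset (Fin L.length), ∑ i ∈ s, a i ≤ s.card * h := by
    intro s
    calc ∑ i ∈ s, a i ≤ ∑ _i ∈ s, h := Finset.sum_le_sum (fun i _ => (ha i).2)
      _ = s.card * h := by simp
  -- E nonempty, so q ≤ h
  have hEcard : 1 ≤ E.card := by
    have : Multiset.card P ≤ G.card + E.card + 8 * h := by rw [← hcard]; exact hGE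
    omega
  obtain ⟨i0, hi0⟩ := Finset.card_pos.mp hEcard
  have hqh : q ≤ h :=
    (Nat.le_of_dvd (by have := (ha i0).1; omega) (hdvd i0 hi0)).trans (ha i0).2
  have hGsum : ∑ i ∈ G, a i ≤ 3 * h ^ 2 := by
    calc ∑ i ∈ G, a i ≤ G.card * h := hsumle G
      _ ≤ (3 * h) * h := Nat.mul_le_mul_right h hG
      _ = 3 * h ^ 2 := by ring
  refine ⟨q, lo, hq, hqh, hlo.trans hGsum, ?_⟩
  intro x hqx hlox hxP
  -- the rest
  set R : Finset (Fin L.length) := univ \ (G ∪ E) with hR
  have hRcard : R.card ≤ 8 * h := by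
    have h1 : R.card = Fintype.card (Fin L.length) - (G ∪ E).card := by
      rw [hR, Finset.card_sdiff_of_subset (Finset.subset_univ _), Finset.card_univ]
    have h2 : (G ∪ E).card = G.card + E.card := Finset.card_union_of_disjoint hdis
    omega
  have hsplit : ∑ i, a i = ∑ i ∈ G, a i + ∑ i ∈ E, a i + ∑ i ∈ R, a i := by
    rw [← Finset.sum_union hdis, hR]
    have := Finset.sum_sdiff (Finset.subset_univ (G ∪ E)) (f := a)
    omega
  have hRsum : ∑ i ∈ R, a i ≤ 8 * h ^ 2 := by
    calc ∑ i ∈ R, a i ≤ R.card * h := hsumle R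
      _ ≤ (8 * h) * h := Nat.mul_le_mul_right h hRcard
      _ = 8 * h ^ 2 := by ring
  have hxE : x ≤ lo + ∑ i ∈ E, a i := by
    rw [← hsum] at hxP
    omega
  obtain ⟨s, _, hs⟩ := hwin E (Finset.Subset.refl E) x hqx hlox hxE
  refine ⟨s.val.map a, ?_, ?_⟩
  · rw [← hunivmap]
    exact Multiset.map_le_map (Finset.val_le_iff.mpr (Finset.subset_univ s))
  · rw [← hs]
    rfl

end Vale.Agent.Lib.P197X
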