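import Vale.Agent.Lib.P197X.Semi
import Vale.Agent.Lib.P197X.Strict
import Vale.Agent.Lib.P197X.Window

/-!
# P197X: peeling columns off the staircase (blueprint Sec 10)
-/

open Equiv Finset

namespace Vale.Agent.Lib.P197X

open Vale.Agent.Lib.P197 Vale.Agent.Lib.P197W

/-- The number of cells of the first `t` rows of the staircase. -/
def stairS (m t : ℕ) : ℕ := ∑ i ∈ range t, (m - i)

/-- The first `t` rows of the staircase of size `m`. -/
def topStair (m t : ℕ) : YoungDiagram where
  cells := ((range t) ×ˢ (range m)).filter fun c => c.1 + c.2 < m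
  isLowerSet := by
    intro a b hab ha
    simp only [coe_filter, mem_product, mem_range, Set.mem_ofPred_eq] at ha ⊢
    have h1 := hab.1
    have h2 := hab.2
    omega

private theorem mem_topStair (m t : ℕ) (c : ℕ × ℕ) : c ∈ topStair m t ↔ c.1 < t ∧ c.1 + c.2 < m := by
  change c ∈ (((range t) ×ˢ (range m)).filter fun c => c.1 + c.2 < m) ↔ _
  simp only [mem_filter, mem_product, mem_range]
  omega

theorem rowLen_topStair (m t i : ℕ) :
    (topStair m t).rowLen i = if i < t then m - i else 0 := by
  split_ifs with h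
  · apply le_antisymm
    · by_contra h2
      push Not at h2
      have h3 : (i, m - i) ∈ topStair m t := (topStair m t).mem_iff_lt_rowLen.2 h2
      have h4 := (mem_topStair m t _).1 h3
      simp only at h4
      omega
    · by_contra h2
      push Not at h2
      have h3 : (i, (topStair m t).rowLen i) ∈ topStair m t := by
        apply (mem_topStair m t _).2
        simp only
        omega
      have h4 := (topStair m t).mem_iff_lt_rowLen.1 h3
      omega
  · by_contra h2
    have h3 : (i, 0) ∈ topStair m t := (topStair m t).mem_iff_lt_rowLen.2 (by omega)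
    have h4 := (mem_topStair m t _).1 h3
    exact h h4.1

theorem card_topStair (m t : ℕ) : (topStair m t).card = stairS m t := by
  have h : (topStair m t).cells = (range t).biUnion (fun i => (range (m - i)).image (fun j => (i, j))) := by
    ext c
    rcases c with ⟨a, b⟩
    simp only [YoungDiagram.mem_cells, mem_topStair, mem_biUnion, mem_range, mem_image, Prod.mk.injEq]
    constructor
    · rintro ⟨h1, h2⟩
      exact ⟨a, h1, b, by omega, rfl, rfl⟩
    · rintro ⟨i, hi, j, hj, rfl, rfl⟩
      omega
  change (topStair m t).cells.card = stairS m t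
  rw [h, card_biUnion]
  · unfold stairS
    apply sum_congr rfl
    intro i _
    rw [card_image_of_injective, card_range]
    intro x y hxy
    simpa using hxy
  · intro i _ k _ hik
    simp only [Function.onFun]
    rw [disjoint_left]
    intro c hc hc2
    simp only [mem_image, mem_range] at hc hc2
    obtain ⟨j, _, rfl⟩ := hc
    obtain ⟨j2, _, h3⟩ := hc2
    simp only [Prod.mk.injEq] at h3
    exact hik h3.1.symm

theorem strict_topStair (m t : ℕ) (ht : t ≤ m) : StrictDiag (topStair m t) := by
  intro i
  rw [rowLen_topStair, rowLen_topStair]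
  split_ifs <;> omega

theorem two_stairS (m t : ℕ) (ht : t ≤ m) : 2 * stairS m t = t * (2 * m + 1 - t) := by
  induction t with
  | zero => simp [stairS]
  | succ t ih =>
    have h1 := ih (by omega)
    have h2 : stairS m (t + 1) = stairS m t + (m - t) := by
      unfold stairS
      rw [sum_range_succ]
    rw [h2, Nat.mul_add, h1]
    obtain ⟨k, rfl⟩ := Nat.exists_eq_add_of_le ht
    have e1 : 2 * (t + 1 + k) + 1 - t = t + 2 * k + 3 := by omega
    have e2 : t + 1 + k - t = k + 1 := by omega
    have e3 : 2 * (t + 1 + k) + 1 - (t + 1) = t + 2 * k + 2 := by omega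
    rw [e1, e2, e3]
    ring

theorem NN_eq (m t : ℕ) (ht : t ≤ m) : NN m = NN (m - t) + stairS m t := by
  have h1 := two_stairS m t ht
  obtain ⟨k, rfl⟩ := Nat.exists_eq_add_of_le ht
  have e1 : t + k - t = k := by omega
  have e2 : 2 * (t + k) + 1 - t = t + 2 * k + 1 := by omega
  rw [e2] at h1
  simp only [NN]
  rw [e1]
  have h3 : 2 * (k * (k + 1) / 2) = k * (k + 1) := Nat.two_mul_div_two_of_even (Nat.even_mul_succ_self k)
  have h4 : 2 * ((t + k) * (t + k + 1) / 2) = (t + k) * (t + k + 1) :=
    Nat.two_mul_div_two_of_even (Nat.even_mul_succ_self (t + k))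
  have h5 : (t + k) * (t + k + 1) = k * (k + 1) + t * (t + 2 * k + 1) := by ring
  omega

/-- `q` divides the cells of the first `2 q j` rows. -/
theorem dvd_stairS (m q j : ℕ) (ht : 2 * q * j ≤ m) : q ∣ stairS m (2 * q * j) := by
  have h1 := two_stairS m (2 * q * j) ht
  have h2 : 2 * stairS m (2 * q * j) = 2 * (q * (j * (2 * m + 1 - 2 * q * j))) := by
    rw [h1]
    ring
  have h3 : stairS m (2 * q * j) = q * (j * (2 * m + 1 - 2 * q * j)) :=
    Nat.eq_of_mul_eq_mul_left (by norm_num) h2
  rw [h3]
  exact Dvd.intro _ rfl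

private theorem colLen_topStair_zero (m t : ℕ) (ht : t ≤ m) : (topStair m t).colLen 0 = t := by
  apply le_antisymm
  · by_contra h
    push Not at h
    have h3 : (t, 0) ∈ topStair m t := (topStair m t).mem_iff_lt_colLen.2 h
    have h4 := (mem_topStair m t _).1 h3
    exact absurd h4.1 (lt_irrefl _)
  · by_contra h
    push Not at h
    have h3 : ((topStair m t).colLen 0, 0) ∈ topStair m t := by
      apply (mem_topStair m t _).2
      simp only
      omega
    have h4 := (topStair m t).mem_iff_lt_colLen.1 h3
    omega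

/-- The columns of the staircase. -/
theorem colsOf_staircase (m t : ℕ) (ht : t ≤ m) :
    colsOf (staircase m) = colsOf (staircase (m - t)) + colsOf (topStair m t).transpose := by
  unfold colsOf
  obtain ⟨k, rfl⟩ := Nat.exists_eq_add_of_le ht
  have e0 : t + k - t = k := by omega
  rw [e0, YoungDiagram.rowLen_transpose, colLen_topStair_zero _ _ (by omega),
    staircase_rowLen, staircase_rowLen, Nat.sub_zero, Nat.sub_zero]
  have e1 : (Multiset.range t).map (topStair (t + k) t).transpose.colLen =
      (Multiset.range t).map (fun j => t + k - j) := by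
    apply Multiset.map_congr rfl
    intro j hj
    rw [YoungDiagram.colLen_transpose, rowLen_topStair, if_pos (Multiset.mem_range.1 hj)]
  have e2 : (Multiset.range k).map (staircase k).colLen =
      (Multiset.range k).map (fun j => k - j) := by
    apply Multiset.map_congr rfl
    intro j _
    rw [staircase_colLen]
  have e3 : (Multiset.range (t + k)).map (staircase (t + k)).colLen =
      (Multiset.range (t + k)).map (fun j => t + k - j) := by
    apply Multiset.map_congr rfl
    intro j _
    rw [staircase_colLen]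
  rw [e1, e2, e3, Multiset.range_add, Multiset.map_add, Multiset.map_map, add_comm]
  congr 1
  apply Multiset.map_congr rfl
  intro j _
  simp only [Function.comp]
  omega

/-- **Peel.** -/
theorem peel (m t : ℕ) (ht : t ≤ m) {ν₀ β ν : YoungDiagram}
    (h0 : KP (staircase (m - t)) (staircase (m - t)) ν₀)
    (hdom : Dom β (topStair m t)) (hcard : β.card = stairS m t)
    (hν : colsOf ν = colsOf ν₀ + colsOf β) : KP (staircase m) (staircase m) ν := by
  have h1 : KP (topStair m t) (topStair m t) β :=
    KP_strict (strict_topStair m t ht) ((card_topStair m t).trans hcard.symm) hdom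
  exact KP_add h0 (KP_conj12 h1) (colsOf_staircase m t ht) (colsOf_staircase m t ht) hν

/-- Sum of the first rows of a diagram and its size. -/
private lemma sum_rowLen_eq_card (μ : YoungDiagram) (h : ℕ) (hh : μ.colLen 0 ≤ h) :
    ∑ i ∈ range h, μ.rowLen i = μ.card := by
  classical
  have hmaps : ∀ c ∈ μ.cells, c.1 ∈ range h := by
    intro c hc
    have h1 : (c.1, 0) ∈ μ := μ.up_left_mem (le_refl c.1) (Nat.zero_le c.2) hc
    have h2 := YoungDiagram.mem_iff_lt_colLen.mp h1
    exact mem_range.mpr (lt_of_lt_of_le h2 hh)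
  show ∑ i ∈ range h, μ.rowLen i = μ.cells.card
  rw [Finset.card_eq_sum_card_fiberwise hmaps]
  refine Finset.sum_congr rfl (fun i _ => ?_)
  rw [YoungDiagram.rowLen_eq_card]
  rfl

private lemma sum_rowLen_le_card (μ : YoungDiagram) (k : ℕ) : ∑ i ∈ range k, μ.rowLen i ≤ μ.card := by
  rw [← sum_rowLen_eq_card μ (max k (μ.colLen 0)) (le_max_right _ _)]
  exact Finset.sum_le_sum_of_subset (Finset.range_subset_range.mpr (le_max_left _ _))

private lemma antitone_avg (f : ℕ → ℕ) (hf : Antitone f) (k : ℕ) (h : ℕ) (hkh : k ≤ h) :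
    k * ∑ i ∈ range h, f i ≤ h * ∑ i ∈ range k, f i := by
  induction h, hkh using Nat.le_induction with
  | base => exact le_of_eq (by ring)
  | succ h hkh ih =>
    rw [Finset.sum_range_succ]
    have h1 : k * f h ≤ ∑ i ∈ range k, f i := by
      have : ∑ i ∈ range k, f h ≤ ∑ i ∈ range k, f i :=
        Finset.sum_le_sum (fun i hi => hf (by have := mem_range.mp hi; omega))
      simpa using this
    calc k * (∑ i ∈ range h, f i + f h) = k * ∑ i ∈ range h, f i + k * f h := by ring
      _ ≤ h * ∑ i ∈ range k, f i + ∑ i ∈ range k, f i := Nat.add_le_add ih h1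
      _ = (h + 1) * ∑ i ∈ range k, f i := by ring

/-- A diagram with at most `h` rows and at least `h m` cells dominates `topStair m t`. -/
theorem dom_few_rows (m t h : ℕ) (hh : 1 ≤ h) (β : YoungDiagram) (hrows : β.colLen 0 ≤ h)
    (hbig : h * m ≤ β.card) (hcard : β.card = stairS m t) : Dom β (topStair m t) := by
  intro k
  by_cases hk : k ≤ h
  · have h1 : ∑ i ∈ range k, (topStair m t).rowLen i ≤ k * m := by
      have : ∑ i ∈ range k, (topStair m t).rowLen i ≤ ∑ i ∈ range k, m := by
        refine Finset.sum_le_sum (fun i _ => ?_)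
        rw [rowLen_topStair]
        split_ifs <;> omega
      simpa using this
    have h2 := antitone_avg (fun i => β.rowLen i) (fun a b hab => β.rowLen_anti a b hab) k h hk
    rw [sum_rowLen_eq_card β h hrows] at h2
    have h3 : h * (k * m) ≤ h * ∑ i ∈ range k, β.rowLen i := by
      calc h * (k * m) = k * (h * m) := by ring
        _ ≤ k * β.card := Nat.mul_le_mul_left _ hbig
        _ ≤ _ := h2
    exact h1.trans (Nat.le_of_mul_le_mul_left h3 (by omega))
  · have h1 := sum_rowLen_le_card (topStair m t) k
    rw [card_topStair, ← hcard] at h1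
    refine h1.trans ?_
    rw [← sum_rowLen_eq_card β h hrows]
    exact Finset.sum_le_sum_of_subset (Finset.range_subset_range.mpr (by omega))

/-- Removing a sub multiset of the columns with the right sum. -/
theorem peel_ms (m t h : ℕ) (hh : 1 ≤ h) (ht : t ≤ m) (ν : YoungDiagram) (B : Multiset ℕ)
    (hB : B ≤ colsOf ν) (hBh : ∀ b ∈ B, b ≤ h) (hsum : B.sum = stairS m t) (hbig : h * m ≤ B.sum)
    (h0 : KP (staircase (m - t)) (staircase (m - t)) (ofCols (colsOf ν - B))) :
    KP (staircase m) (staircase m) ν := by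
  have hpos : ∀ c ∈ B, 1 ≤ c := fun c hc => pos_of_mem_colsOf (Multiset.mem_of_le hB hc)
  have hpos2 : ∀ c ∈ colsOf ν - B, 1 ≤ c :=
    fun c hc => pos_of_mem_colsOf (Multiset.mem_of_le (Multiset.sub_le_self _ _) hc)
  have hrows : (ofCols B).colLen 0 ≤ h := by
    by_contra hlt
    have hlt' : h < (ofCols B).colLen 0 := by omega
    have hmem : (h, 0) ∈ ofCols B := YoungDiagram.mem_iff_lt_colLen.mpr hlt'
    rw [mem_ofCols, Multiset.card_pos_iff_exists_mem] at hmem
    obtain ⟨x, hx⟩ := hmem
    rw [Multiset.mem_filter] at hx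
    have := hBh x hx.1
    omega
  have hcard : (ofCols B).card = stairS m t := (card_ofCols B).trans hsum
  have hbig' : h * m ≤ (ofCols B).card := by rw [card_ofCols]; exact hbig
  refine peel m t ht h0 (dom_few_rows m t h hh (ofCols B) hrows hbig' hcard) hcard ?_
  rw [colsOf_ofCols _ hpos, colsOf_ofCols _ hpos2]
  exact (tsub_add_cancel_of_le hB).symm

/-- **Peel pool.** -/
theorem peel_pool (m h : ℕ) (hh : 1 ≤ h) (ν : YoungDiagram) (P : Multiset ℕ)
    (hP : P ≤ colsOf ν) (hb : ∀ b ∈ P, b ≤ h) (hm : 2000 * h ≤ m) (hs : 7 * h * m ≤ P.sum) :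
    ∃ t B, 3 * h ≤ t ∧ t ≤ 5 * h ∧ B ≤ P ∧ B.sum = stairS m t ∧
      (KP (staircase (m - t)) (staircase (m - t)) (ofCols (colsOf ν - B)) →
        KP (staircase m) (staircase m) ν) := by
  have hpos : ∀ b ∈ P, 1 ≤ b := fun b hb' => pos_of_mem_colsOf (Multiset.mem_of_le hP hb')
  -- the pool has many elements
  have hcardP : P.sum ≤ h * Multiset.card P := by
    have := Multiset.sum_le_card_nsmul P h hb
    simpa [mul_comm] using this
  have hc : 10000 * h ≤ Multiset.card P := by
    have h1 : h * (7 * m) ≤ h * Multiset.card P := by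
      calc h * (7 * m) = 7 * h * m := by ring
        _ ≤ P.sum := hs
        _ ≤ _ := hcardP
    have h2 := Nat.le_of_mul_le_mul_left h1 (by omega)
    omega
  obtain ⟨q, lo, hq1, hqh, hlo, hwin⟩ := window_ms h hh P (fun b hb' => ⟨hpos b hb', hb b hb'⟩) hc
  -- the number of rows
  set j := (3 * h + 2 * q - 1) / (2 * q) with hj
  have hq2 : 0 < 2 * q := by omega
  have hj1 : 3 * h + 2 * q - 1 < (j + 1) * (2 * q) := by
    have := Nat.lt_succ_iff.mpr (le_refl ((3 * h + 2 * q - 1) / (2 * q)))
    exact (Nat.div_lt_iff_lt_mul hq2).mp (by simp [hj])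
  have hj2 : j * (2 * q) ≤ 3 * h + 2 * q - 1 := Nat.div_mul_le_self _ _
  set t := 2 * q * j with ht
  have ht1 : 3 * h ≤ t := by
    have e : (j + 1) * (2 * q) = t + 2 * q := by rw [ht]; ring
    rw [e] at hj1
    omega
  have ht2 : t ≤ 5 * h := by
    have e : j * (2 * q) = t := by rw [ht]; ring
    rw [e] at hj2
    omega
  have htm : t ≤ m := by omega
  have htwo := two_stairS m t htm
  set x := stairS m t with hx
  have hmt : m ≤ 2 * m + 1 - t := by omega
  have hle1 : t * m ≤ 2 * x := by
    rw [htwo]
    exact Nat.mul_le_mul_left _ hmt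
  have hle2 : 2 * x ≤ t * (2 * m) := by
    rw [htwo]
    exact Nat.mul_le_mul_left _ (by omega)
  have h3hm : 3 * h * m ≤ 2 * x := (Nat.mul_le_mul_right m ht1).trans hle1
  have hhm : h * h * 2000 ≤ h * m := by
    calc h * h * 2000 = h * (2000 * h) := by ring
      _ ≤ h * m := Nat.mul_le_mul_left _ hm
  have hbig : h * m ≤ x := by nlinarith
  have hlox : lo ≤ x := by
    have : h ^ 2 = h * h := by ring
    nlinarith
  have hxup : x ≤ 5 * h * m := by
    have : t * (2 * m) ≤ (5 * h) * (2 * m) := Nat.mul_le_mul_right _ ht2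
    nlinarith
  have hsum : x + 11 * h ^ 2 ≤ P.sum := by
    have e : h ^ 2 = h * h := by ring
    have h5 : 7 * h * m = 5 * h * m + 2 * (h * m) := by ring
    rw [e]
    nlinarith
  have hdvd : q ∣ x := dvd_stairS m q j (by rw [← ht]; exact htm)
  obtain ⟨B, hBP, hBs⟩ := hwin x hdvd hlox hsum
  refine ⟨t, B, ht1, ht2, hBP, hBs, fun h0 => ?_⟩
  exact peel_ms m t h hh htm ν B (hBP.trans hP) (fun b hb' => hb b (Multiset.mem_of_le hBP hb'))
    hBs (by rw [hBs]; exact hbig) h0

end Vale.Agent.Lib.P197X
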