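import Vale.Agent.Lib.P197X.Peel

/-!
# P197X: removing far columns, the comparison with the staircase (blueprint Sec 11)
-/

open Equiv Finset

namespace Vale.Agent.Lib.P197X

open Vale.Agent.Lib.P197 Vale.Agent.Lib.P197W

/-- The column heights at positions `≥ D`. -/
def farCols (μ : YoungDiagram) (D : ℕ) : Multiset ℕ :=
  ((Multiset.range (μ.rowLen 0)).filter fun j => D ≤ j).map μ.colLen

/-- The number of cells in columns `≥ D`. -/
def farE (μ : YoungDiagram) (D : ℕ) : ℕ := (farCols μ D).sum

theorem farCols_le (μ : YoungDiagram) (D : ℕ) : farCols μ D ≤ colsOf μ := by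
  exact Multiset.map_le_map (Multiset.filter_le _ _)

/-- Outside `(D,D)` the far columns have height at most `D`. -/
theorem far_le {μ : YoungDiagram} {D : ℕ} (hD : (D, D) ∉ μ) {b : ℕ} (hb : b ∈ farCols μ D) :
    b ≤ D := by
  obtain ⟨j, hj, rfl⟩ := Multiset.mem_map.1 hb
  have hjD : D ≤ j := (Multiset.mem_filter.1 hj).2
  by_contra hlt
  push Not at hlt
  have h1 : (D, j) ∈ μ := YoungDiagram.mem_iff_lt_colLen.2 hlt
  exact hD (μ.up_left_mem le_rfl hjD h1)

theorem far_pos {μ : YoungDiagram} {D b : ℕ} (hb : b ∈ farCols μ D) : 1 ≤ b := by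
  obtain ⟨j, hj, rfl⟩ := Multiset.mem_map.1 hb
  have hj1 : j < μ.rowLen 0 := Multiset.mem_range.1 (Multiset.mem_filter.1 hj).1
  have h1 : (0, j) ∈ μ := YoungDiagram.mem_iff_lt_rowLen.2 hj1
  exact YoungDiagram.mem_iff_lt_colLen.1 h1

private theorem farE_eq_sum (μ : YoungDiagram) (D : ℕ) :
    farE μ D = ∑ j ∈ (range (μ.rowLen 0)).filter (fun j => D ≤ j), μ.colLen j := rfl

private theorem card_filter_far (μ : YoungDiagram) (D : ℕ) :
    (μ.cells.filter fun c => D ≤ c.2).card = farE μ D := by
  rw [farE_eq_sum]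
  have hmaps : ∀ c ∈ μ.cells.filter (fun c => D ≤ c.2),
      c.2 ∈ (range (μ.rowLen 0)).filter (fun j => D ≤ j) := by
    intro c hc
    obtain ⟨h1, h2⟩ := Finset.mem_filter.1 hc
    refine Finset.mem_filter.2 ⟨Finset.mem_range.2 ?_, h2⟩
    have h3 : (0, c.2) ∈ μ := μ.up_left_mem (Nat.zero_le _) le_rfl (show (c.1, c.2) ∈ μ from h1)
    exact YoungDiagram.mem_iff_lt_rowLen.1 h3
  rw [Finset.card_eq_sum_card_fiberwise hmaps]
  apply Finset.sum_congr rfl
  intro j hj
  have hjD : D ≤ j := (Finset.mem_filter.1 hj).2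
  have heq : ((μ.cells.filter fun c => D ≤ c.2).filter fun c => c.2 = j) =
      (range (μ.colLen j)).image fun i => (i, j) := by
    ext c
    simp only [Finset.mem_filter, Finset.mem_image, Finset.mem_range]
    constructor
    · rintro ⟨⟨h1, _⟩, rfl⟩
      exact ⟨c.1, YoungDiagram.mem_iff_lt_colLen.1 (show (c.1, c.2) ∈ μ from h1), rfl⟩
    · rintro ⟨i, hi, rfl⟩
      exact ⟨⟨YoungDiagram.mem_iff_lt_colLen.2 hi, hjD⟩, rfl⟩
  rw [heq, Finset.card_image_of_injective _ (fun a b hab => by simpa using hab), Finset.card_range]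

private theorem card_filter_far_row (μ : YoungDiagram) (D : ℕ) :
    (μ.cells.filter fun c => D ≤ c.1).card = farE μ.transpose D := by
  rw [← card_filter_far μ.transpose D]
  apply Finset.card_bij (fun c _ => (c.2, c.1))
  · intro c hc
    obtain ⟨h1, h2⟩ := Finset.mem_filter.1 hc
    refine Finset.mem_filter.2 ⟨?_, h2⟩
    have : (c.2, c.1) ∈ μ.transpose := YoungDiagram.mem_transpose.2 (show (c.1, c.2) ∈ μ from h1)
    exact this
  · intro a _ b _ hab
    have h1 : a.2 = b.2 := (Prod.mk.inj hab).1
    have h2 : a.1 = b.1 := (Prod.mk.inj hab).2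
    exact Prod.ext h2 h1
  · intro c hc
    obtain ⟨h1, h2⟩ := Finset.mem_filter.1 hc
    refine ⟨(c.2, c.1), Finset.mem_filter.2 ⟨?_, h2⟩, rfl⟩
    have : (c.1, c.2) ∈ μ.transpose := h1
    exact YoungDiagram.mem_transpose.1 this

private theorem card_filter_top (μ : YoungDiagram) (D : ℕ) :
    (μ.cells.filter fun c => c.1 < D).card = ∑ i ∈ range D, μ.rowLen i := by
  have hmaps : ∀ c ∈ μ.cells.filter (fun c => c.1 < D), c.1 ∈ range D := by
    intro c hc
    exact Finset.mem_range.2 (Finset.mem_filter.1 hc).2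
  rw [Finset.card_eq_sum_card_fiberwise hmaps]
  apply Finset.sum_congr rfl
  intro i hi
  have hiD : i < D := Finset.mem_range.1 hi
  have heq : ((μ.cells.filter fun c => c.1 < D).filter fun c => c.1 = i) =
      (range (μ.rowLen i)).image fun j => (i, j) := by
    ext c
    simp only [Finset.mem_filter, Finset.mem_image, Finset.mem_range]
    constructor
    · rintro ⟨⟨h1, _⟩, rfl⟩
      exact ⟨c.2, YoungDiagram.mem_iff_lt_rowLen.1 (show (c.1, c.2) ∈ μ from h1), rfl⟩
    · rintro ⟨j, hj, rfl⟩
      exact ⟨⟨YoungDiagram.mem_iff_lt_rowLen.2 hj, hiD⟩, rfl⟩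
  rw [heq, Finset.card_image_of_injective _ (fun a b hab => by simpa using hab), Finset.card_range]

/-- The cells of `μ`: the box, the far rows, the far columns. -/
theorem card_split {μ : YoungDiagram} {D : ℕ} (hD : (D, D) ∉ μ) :
    ∃ box, box ≤ D ^ 2 ∧ box + farE μ.transpose D + farE μ D = μ.card := by
  refine ⟨(μ.cells.filter fun c => c.1 < D ∧ c.2 < D).card, ?_, ?_⟩
  · have hsub : (μ.cells.filter fun c => c.1 < D ∧ c.2 < D) ⊆ range D ×ˢ range D := by
      intro c hc
      obtain ⟨_, h2⟩ := Finset.mem_filter.1 hc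
      exact Finset.mem_product.2 ⟨Finset.mem_range.2 h2.1, Finset.mem_range.2 h2.2⟩
    calc _ ≤ (range D ×ˢ range D).card := Finset.card_le_card hsub
      _ = D ^ 2 := by rw [Finset.card_product, Finset.card_range, sq]
  · rw [← card_filter_far_row, ← card_filter_far]
    have h1 : (μ.cells.filter fun c => D ≤ c.1).card + (μ.cells.filter fun c => ¬ D ≤ c.1).card
        = μ.cells.card := Finset.card_filter_add_card_filter_not _
    have h2 : (μ.cells.filter fun c => ¬ D ≤ c.1).card =
        ((μ.cells.filter fun c => ¬ D ≤ c.1).filter fun c => c.2 < D).card +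
        ((μ.cells.filter fun c => ¬ D ≤ c.1).filter fun c => ¬ c.2 < D).card :=
      (Finset.card_filter_add_card_filter_not _).symm
    have h3 : ((μ.cells.filter fun c => ¬ D ≤ c.1).filter fun c => c.2 < D) =
        μ.cells.filter fun c => c.1 < D ∧ c.2 < D := by
      ext c
      simp only [Finset.mem_filter, not_le]
      tauto
    have h4 : ((μ.cells.filter fun c => ¬ D ≤ c.1).filter fun c => ¬ c.2 < D) =
        μ.cells.filter fun c => D ≤ c.2 := by
      ext c
      simp only [Finset.mem_filter, not_le, not_lt]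
      constructor
      · rintro ⟨⟨h5, _⟩, h7⟩
        exact ⟨h5, h7⟩
      · rintro ⟨h5, h7⟩
        refine ⟨⟨h5, ?_⟩, h7⟩
        by_contra h8
        push Not at h8
        exact hD (μ.up_left_mem h8 h7 (show (c.1, c.2) ∈ μ from h5))
    rw [h3, h4] at h2
    show _ = μ.cells.card
    omega

/-- The first `D` rows and the far rows. -/
theorem card_top_rows (μ : YoungDiagram) (D : ℕ) :
    ∑ i ∈ range D, μ.rowLen i + farE μ.transpose D = μ.card := by
  rw [← card_filter_far_row, ← card_filter_top]
  have h1 := Finset.card_filter_add_card_filter_not (s := μ.cells) (fun c : ℕ × ℕ => c.1 < D)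
  have h2 : (μ.cells.filter fun c => ¬ c.1 < D) = μ.cells.filter fun c => D ≤ c.1 := by
    ext c
    simp only [Finset.mem_filter, not_lt]
  rw [h2] at h1
  exact h1

/-- Number of columns against the far sum. -/
theorem rowLen_le_far (μ : YoungDiagram) (D : ℕ) : μ.rowLen 0 ≤ D + farE μ D := by
  have h1 : Multiset.card (farCols μ D) • 1 ≤ (farCols μ D).sum :=
    Multiset.card_nsmul_le_sum (fun b hb => far_pos hb)
  have h2 : Multiset.card (farCols μ D) = ((range (μ.rowLen 0)).filter fun j => D ≤ j).card := by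
    simp [farCols, Finset.card]
  have h3 : μ.rowLen 0 ≤ D + ((range (μ.rowLen 0)).filter fun j => D ≤ j).card := by
    have h4 : range (μ.rowLen 0) ⊆ range D ∪ ((range (μ.rowLen 0)).filter fun j => D ≤ j) := by
      intro j hj
      by_cases hjD : j < D
      · exact Finset.mem_union_left _ (Finset.mem_range.2 hjD)
      · exact Finset.mem_union_right _ (Finset.mem_filter.2 ⟨hj, by omega⟩)
    have h5 := Finset.card_le_card h4
    have h6 := Finset.card_union_le (range D) ((range (μ.rowLen 0)).filter fun j => D ≤ j)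
    rw [Finset.card_range] at h5 h6
    omega
  have h7 : farE μ D = (farCols μ D).sum := rfl
  simp only [smul_eq_mul, mul_one] at h1
  omega

section Remove

variable {μ : YoungDiagram} {D : ℕ} {B : Multiset ℕ}

/-- The low columns. -/
private def lowCols (μ : YoungDiagram) (D : ℕ) : Multiset ℕ :=
  ((Multiset.range (μ.rowLen 0)).filter fun j => ¬ D ≤ j).map μ.colLen

private lemma far_add_low (μ : YoungDiagram) (D : ℕ) : farCols μ D + lowCols μ D = colsOf μ := by
  unfold farCols lowCols colsOf
  rw [← Multiset.map_add, Multiset.filter_add_not]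

private lemma sub_eq (hB : B ≤ farCols μ D) : colsOf μ - B = (farCols μ D - B) + lowCols μ D := by
  rw [← far_add_low μ D]
  exact (tsub_add_eq_add_tsub hB).symm

private lemma colLen_eq_of_iff {ν μ : YoungDiagram} {j : ℕ} (h : ∀ i, (i, j) ∈ ν ↔ (i, j) ∈ μ) :
    ν.colLen j = μ.colLen j := by
  apply le_antisymm
  · by_contra hc
    have h1 : μ.colLen j < ν.colLen j := by omega
    have h2 : (μ.colLen j, j) ∈ ν := YoungDiagram.mem_iff_lt_colLen.2 h1
    have h3 := (h _).1 h2
    exact lt_irrefl _ (YoungDiagram.mem_iff_lt_colLen.1 h3)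
  · by_contra hc
    have h1 : ν.colLen j < μ.colLen j := by omega
    have h2 : (ν.colLen j, j) ∈ μ := YoungDiagram.mem_iff_lt_colLen.2 h1
    have h3 := (h _).2 h2
    exact lt_irrefl _ (YoungDiagram.mem_iff_lt_colLen.1 h3)

theorem remove_subset (i j : ℕ) (h : (i, j) ∈ ofCols (colsOf μ - B)) (hB : B ≤ colsOf μ) :
    (i, j) ∈ μ := by
  rw [mem_ofCols] at h
  have h1 : Multiset.card ((colsOf μ - B).filter fun x => i < x) ≤
      Multiset.card ((colsOf μ).filter fun x => i < x) :=
    Multiset.card_le_card (Multiset.filter_le_filter _ tsub_le_self)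
  rw [card_filter_colsOf] at h1
  exact YoungDiagram.mem_iff_lt_rowLen.2 (lt_of_lt_of_le h h1)

/-- The diagram after removing far columns. -/
theorem mem_remove_iff (hD : (D, D) ∉ μ) (hB : B ≤ farCols μ D) (i j : ℕ) (hj : j < D) :
    (i, j) ∈ ofCols (colsOf μ - B) ↔ (i, j) ∈ μ := by
  classical
  constructor
  · intro h
    exact remove_subset i j h (hB.trans (farCols_le μ D))
  · intro h
    rw [mem_ofCols, sub_eq hB, Multiset.filter_add, Multiset.card_add]
    have h2 : j + 1 ≤ Multiset.card ((lowCols μ D).filter fun x => i < x) := by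
      unfold lowCols
      rw [Multiset.filter_map, Multiset.card_map]
      have e : ((Multiset.range (μ.rowLen 0)).filter fun j => ¬ D ≤ j).filter
          ((fun x => i < x) ∘ μ.colLen) =
          (((Finset.range (μ.rowLen 0)).filter fun j => ¬ D ≤ j).filter
          ((fun x => i < x) ∘ μ.colLen)).val := by
        simp [Finset.filter_val, Finset.range_val]
      rw [e]
      have h3 : Finset.range (j + 1) ⊆ (((Finset.range (μ.rowLen 0)).filter fun j => ¬ D ≤ j).filter
          ((fun x => i < x) ∘ μ.colLen)) := by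
        intro j' hj'
        have hj'' : j' ≤ j := by
          have := Finset.mem_range.1 hj'
          omega
        have h4 : (i, j') ∈ μ := μ.up_left_mem (le_refl i) hj'' h
        have h5 : (0, j') ∈ μ := μ.up_left_mem (Nat.zero_le i) (le_refl j') h4
        simp only [Finset.mem_filter, Finset.mem_range, Function.comp_apply]
        refine ⟨⟨YoungDiagram.mem_iff_lt_rowLen.1 h5, by omega⟩, YoungDiagram.mem_iff_lt_colLen.1 h4⟩
      have h6 := Finset.card_le_card h3
      rw [Finset.card_range] at h6
      exact h6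
    omega

/-- Far rows do not change. -/
theorem farCols_transpose_remove (hD : (D, D) ∉ μ) (hB : B ≤ farCols μ D) :
    farCols (ofCols (colsOf μ - B)).transpose D = farCols μ.transpose D := by
  classical
  have hrow : ∀ i, D ≤ i → (ofCols (colsOf μ - B)).rowLen i = μ.rowLen i := by
    intro i hi
    rw [rowLen_ofCols]
    have hB' : B ≤ colsOf μ := hB.trans (farCols_le μ D)
    have h1 : colsOf μ - B + B = colsOf μ := tsub_add_cancel_of_le hB'
    have h2 : Multiset.card ((colsOf μ).filter fun x => i < x) = μ.rowLen i :=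
      card_filter_colsOf μ i
    rw [← h1, Multiset.filter_add, Multiset.card_add] at h2
    have h3 : B.filter (fun x => i < x) = 0 := by
      rw [Multiset.filter_eq_nil]
      intro x hx
      have := far_le hD (Multiset.mem_of_le hB hx)
      omega
    rw [h3] at h2
    simpa using h2
  unfold farCols
  simp only [YoungDiagram.rowLen_transpose]
  have hset : (Multiset.range ((ofCols (colsOf μ - B)).colLen 0)).filter (fun j => D ≤ j) =
      (Multiset.range (μ.colLen 0)).filter (fun j => D ≤ j) := by
    rw [Multiset.Nodup.ext ((Multiset.nodup_range _).filter _) ((Multiset.nodup_range _).filter _)]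
    intro a
    simp only [Multiset.mem_filter, Multiset.mem_range]
    constructor
    · rintro ⟨h1, h2⟩
      refine ⟨?_, h2⟩
      have h3 : (a, 0) ∈ ofCols (colsOf μ - B) := YoungDiagram.mem_iff_lt_colLen.2 h1
      have h4 : 0 < (ofCols (colsOf μ - B)).rowLen a := YoungDiagram.mem_iff_lt_rowLen.1 h3
      rw [hrow a h2] at h4
      exact YoungDiagram.mem_iff_lt_colLen.1 (YoungDiagram.mem_iff_lt_rowLen.2 h4)
    · rintro ⟨h1, h2⟩
      refine ⟨?_, h2⟩
      have h3 : (a, 0) ∈ μ := YoungDiagram.mem_iff_lt_colLen.2 h1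
      have h4 : 0 < μ.rowLen a := YoungDiagram.mem_iff_lt_rowLen.1 h3
      rw [← hrow a h2] at h4
      exact YoungDiagram.mem_iff_lt_colLen.1 (YoungDiagram.mem_iff_lt_rowLen.2 h4)
  rw [hset]
  refine Multiset.map_congr rfl (fun x hx => ?_)
  rw [YoungDiagram.colLen_transpose, YoungDiagram.colLen_transpose]
  exact hrow x (Multiset.mem_filter.1 hx).2

/-- The far columns lose `B`. -/
theorem farCols_remove (hD : (D, D) ∉ μ) (hB : B ≤ farCols μ D) :
    farCols (ofCols (colsOf μ - B)) D = farCols μ D - B := by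
  classical
  set ν := ofCols (colsOf μ - B) with hν
  have hB' : B ≤ colsOf μ := hB.trans (farCols_le μ D)
  have hpos : ∀ c ∈ colsOf μ - B, 1 ≤ c := fun c hc =>
    pos_of_mem_colsOf (Multiset.mem_of_le tsub_le_self hc)
  have hcols : colsOf ν = colsOf μ - B := colsOf_ofCols _ hpos
  have hlow : lowCols ν D = lowCols μ D := by
    unfold lowCols
    have hset : (Multiset.range (ν.rowLen 0)).filter (fun j => ¬ D ≤ j) =
        (Multiset.range (μ.rowLen 0)).filter (fun j => ¬ D ≤ j) := by
      rw [Multiset.Nodup.ext ((Multiset.nodup_range _).filter _) ((Multiset.nodup_range _).filter _)]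
      intro a
      simp only [Multiset.mem_filter, Multiset.mem_range]
      constructor
      · rintro ⟨h1, h2⟩
        refine ⟨?_, h2⟩
        have h3 : (0, a) ∈ ν := YoungDiagram.mem_iff_lt_rowLen.2 h1
        exact YoungDiagram.mem_iff_lt_rowLen.1 ((mem_remove_iff hD hB 0 a (by omega)).1 h3)
      · rintro ⟨h1, h2⟩
        refine ⟨?_, h2⟩
        have h3 : (0, a) ∈ μ := YoungDiagram.mem_iff_lt_rowLen.2 h1
        exact YoungDiagram.mem_iff_lt_rowLen.1 ((mem_remove_iff hD hB 0 a (by omega)).2 h3)
    rw [hset]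
    refine Multiset.map_congr rfl (fun x hx => ?_)
    have hx' := (Multiset.mem_filter.1 hx).2
    exact colLen_eq_of_iff (fun i => mem_remove_iff hD hB i x (by omega))
  have h1 := far_add_low ν D
  rw [hcols, sub_eq hB, hlow] at h1
  exact add_right_cancel h1

theorem card_remove (hB : B ≤ colsOf μ) : (ofCols (colsOf μ - B)).card + B.sum = μ.card := by
  rw [card_ofCols, ← Multiset.sum_add, tsub_add_cancel_of_le hB, sum_colsOf]

end Remove

private theorem anti_avg (a : ℕ → ℕ) (ha : ∀ i j, i ≤ j → a j ≤ a i) {k D : ℕ} (hk : k ≤ D) :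
    k * ∑ i ∈ range D, a i ≤ D * ∑ i ∈ range k, a i := by
  induction D, hk using Nat.le_induction with
  | base => exact le_rfl
  | succ D hkD ih =>
    rw [sum_range_succ]
    have h1 : k * a D ≤ ∑ i ∈ range k, a i := by
      calc k * a D = ∑ _i ∈ range k, a D := by simp
        _ ≤ ∑ i ∈ range k, a i := sum_le_sum (fun i hi => ha i D (by have := mem_range.1 hi; omega))
    nlinarith

private theorem two_NN (m : ℕ) : 2 * NN m = m * (m + 1) :=
  Nat.two_mul_div_two_of_even (Nat.even_mul_succ_self m)

/-- Rows below the square are short, rows below the first column vanish. -/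
private theorem rowLen_le_of_not_mem {ν : YoungDiagram} {D i : ℕ} (hD : (D, D) ∉ ν) (hi : D ≤ i) :
    ν.rowLen i ≤ D := by
  by_contra hcon
  have h1 : (i, D) ∈ ν := YoungDiagram.mem_iff_lt_rowLen.2 (by omega)
  exact hD (ν.up_left_mem hi le_rfl h1)

private theorem rowLen_zero_of_le {ν : YoungDiagram} {i : ℕ} (hi : ν.colLen 0 ≤ i) :
    ν.rowLen i = 0 := by
  by_contra hcon
  have h1 : (i, 0) ∈ ν := YoungDiagram.mem_iff_lt_rowLen.2 (by omega)
  have h2 := YoungDiagram.mem_iff_lt_colLen.1 h1
  omega

private theorem tail_le {ν : YoungDiagram} {D k m : ℕ} (hD : (D, D) ∉ ν) (hk : D ≤ k) :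
    ∑ i ∈ Ico k m, ν.rowLen i ≤ D * (ν.colLen 0 - k) := by
  classical
  have h1 : ∑ i ∈ Ico k m, ν.rowLen i ≤ ∑ i ∈ Ico k m, (if i < ν.colLen 0 then D else 0) := by
    apply sum_le_sum
    intro i hi
    have hi' := mem_Ico.1 hi
    split_ifs with h
    · exact rowLen_le_of_not_mem hD (by omega)
    · rw [rowLen_zero_of_le (by omega)]
  have h2 : ∑ i ∈ Ico k m, (if i < ν.colLen 0 then D else 0) ≤ D * (ν.colLen 0 - k) := by
    rw [← sum_filter, sum_const, smul_eq_mul, mul_comm]
    apply Nat.mul_le_mul_left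
    calc ((Ico k m).filter fun i => i < ν.colLen 0).card ≤ (Ico k (ν.colLen 0)).card := by
          apply card_le_card
          intro i hi
          simp only [mem_filter, mem_Ico] at hi ⊢
          omega
      _ = ν.colLen 0 - k := by simp
  exact h1.trans h2

private theorem total_rows {ν : YoungDiagram} {m : ℕ} (hm : ν.colLen 0 ≤ m) :
    ∑ i ∈ range m, ν.rowLen i = ν.card := by
  have h := card_top_rows ν m
  have h0 : farE ν.transpose m = 0 := by
    unfold farE farCols
    have : (Multiset.range (ν.transpose.rowLen 0)).filter (fun j => m ≤ j) = 0 := by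
      apply Multiset.filter_eq_nil.2
      intro j hj
      have hj' : j < ν.transpose.rowLen 0 := Multiset.mem_range.1 hj
      rw [YoungDiagram.rowLen_transpose] at hj'
      omega
    rw [this]
    simp
  omega

/-- **Comparison with the staircase.** -/
theorem dom_stair (ν : YoungDiagram) (m D : ℕ) (hD1 : 1 ≤ D) (hν : ν.card = NN m) (hD : (D, D) ∉ ν)
    (hc : ν.colLen 0 + D ≤ m) (hR : D * m ≤ ∑ i ∈ range D, ν.rowLen i) : Dom ν (staircase m) := by
  intro k
  have hstair : ∑ i ∈ range k, (staircase m).rowLen i = stairS m k := by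
    unfold stairS
    exact sum_congr rfl (fun i _ => staircase_rowLen m i)
  rw [hstair]
  have htot : ∑ i ∈ range m, ν.rowLen i = NN m := by
    rw [total_rows (by omega), hν]
  have h2NN := two_NN m
  by_cases hkD : k ≤ D
  · -- the first rows
    have h1 := anti_avg ν.rowLen (fun i j hij => ν.rowLen_anti i j hij) hkD
    have h2 : k * m ≤ ∑ i ∈ range k, ν.rowLen i := by
      have h3 : D * (k * m) ≤ D * ∑ i ∈ range k, ν.rowLen i := by
        calc D * (k * m) = k * (D * m) := by ring
          _ ≤ k * ∑ i ∈ range D, ν.rowLen i := Nat.mul_le_mul_left _ hR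
          _ ≤ _ := h1
      exact Nat.le_of_mul_le_mul_left h3 (by omega)
    refine le_trans ?_ h2
    unfold stairS
    calc ∑ i ∈ range k, (m - i) ≤ ∑ _i ∈ range k, m := sum_le_sum (fun i _ => Nat.sub_le _ _)
      _ = k * m := by simp
  · by_cases hkm : m ≤ k
    · -- everything
      have h1 : stairS m k = stairS m m := by
        unfold stairS
        have hsub : range m ⊆ range k := range_mono hkm
        refine (sum_subset hsub ?_).symm
        intro i hi hi'
        simp only [mem_range, not_lt] at hi hi'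
        omega
      have h2 : 2 * stairS m m = m * (2 * m + 1 - m) := two_stairS m m le_rfl
      have h3 : 2 * m + 1 - m = m + 1 := by omega
      rw [h3] at h2
      have h4 : ∑ i ∈ range m, ν.rowLen i ≤ ∑ i ∈ range k, ν.rowLen i :=
        sum_le_sum_of_subset (range_mono hkm)
      rw [h1]
      omega
    · -- the tail
      have hkm' : k < m := by omega
      have htail := tail_le (m := m) hD (show D ≤ k by omega)
      have hsplit : ∑ i ∈ range k, ν.rowLen i + ∑ i ∈ Ico k m, ν.rowLen i = ∑ i ∈ range m, ν.rowLen i := by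
        rw [range_eq_Ico, range_eq_Ico]
        exact sum_Ico_consecutive _ (Nat.zero_le _) hkm'.le
      have h2 : 2 * stairS m k = k * (2 * m + 1 - k) := two_stairS m k hkm'.le
      obtain ⟨u, hu⟩ : ∃ u, m = k + u := ⟨m - k, by omega⟩
      have h5 : ν.colLen 0 - k ≤ u - D := by omega
      have h6 : 2 * (D * (u - D)) ≤ u * u + u := by
        by_cases hDu : D ≤ u
        · obtain ⟨v, hv⟩ : ∃ v, u = D + v := ⟨u - D, by omega⟩
          subst hv
          have : D + v - D = v := by omega
          rw [this]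
          nlinarith [sq_nonneg ((D : ℤ) - v), mul_self_nonneg (D - v), Nat.mul_self_le_mul_self (Nat.zero_le D)]
        · have : u - D = 0 := by omega
          rw [this]; simp
      have h7 : D * (ν.colLen 0 - k) ≤ D * (u - D) := Nat.mul_le_mul_left _ h5
      have h8 : k * (2 * m + 1 - k) + u * u + u = m * (m + 1) := by
        subst hu
        have : 2 * (k + u) + 1 - k = k + 2 * u + 1 := by omega
        rw [this]
        ring
      omega

/-- The staircase is strict. -/
theorem strict_staircase (m : ℕ) : StrictDiag (staircase m) := by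
  intro i
  rw [staircase_rowLen, staircase_rowLen]
  omega

/-- Case A of the light regime. -/
theorem KP_of_stair (ν : YoungDiagram) (m D : ℕ) (hD1 : 1 ≤ D) (hν : ν.card = NN m)
    (hD : (D, D) ∉ ν) (hc : ν.colLen 0 + D ≤ m) (hR : D * m ≤ ∑ i ∈ range D, ν.rowLen i) :
    KP (staircase m) (staircase m) ν :=
  KP_strict (strict_staircase m) (by rw [staircase_card, hν]) (dom_stair ν m D hD1 hν hD hc hR)

end Vale.Agent.Lib.P197X
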