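import Vale.Agent.Lib.P197S.FinalR
import Vale.Agent.Lib.P197X.Remove

/-!
# P197X: large square: induction down to at most `n^(11/20)` rows and columns (blueprint Sec 14)
-/

open Equiv Finset

namespace Vale.Agent.Lib.P197X

open Vale.Agent.Lib.P197 Vale.Agent.Lib.P197W

private theorem farE_eq (μ : YoungDiagram) (w : ℕ) :
    farE μ w = ∑ j ∈ (Finset.range (μ.rowLen 0)).filter (fun j => w ≤ j), μ.colLen j := by
  simp [farE, farCols, Finset.sum, Finset.filter_val, Finset.range_val]

private theorem colLen_eq_zero_of_le {μ : YoungDiagram} {w : ℕ} (h : μ.rowLen 0 ≤ w) :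
    μ.colLen w = 0 := by
  by_contra hne
  have h1 : 0 < μ.colLen w := Nat.pos_of_ne_zero hne
  have h2 : (0, w) ∈ μ := YoungDiagram.mem_iff_lt_colLen.2 h1
  have h3 := YoungDiagram.mem_iff_lt_rowLen.1 h2
  omega

/-- The number of cells in columns `≥ w` is the far sum. -/
theorem far_lt_of_le (μ : YoungDiagram) (w : ℕ) : farE μ (w + 1) + μ.colLen w = farE μ w := by
  rw [farE_eq, farE_eq]
  by_cases hw : w < μ.rowLen 0
  · have hs : (Finset.range (μ.rowLen 0)).filter (fun j => w ≤ j) =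
        insert w ((Finset.range (μ.rowLen 0)).filter (fun j => w + 1 ≤ j)) := by
      ext j
      simp only [Finset.mem_filter, Finset.mem_range, Finset.mem_insert]
      constructor
      · rintro ⟨h1, h2⟩
        by_cases hj : j = w
        · exact Or.inl hj
        · exact Or.inr ⟨h1, by omega⟩
      · rintro (rfl | ⟨h1, h2⟩)
        · exact ⟨hw, le_refl _⟩
        · exact ⟨h1, by omega⟩
    rw [hs, Finset.sum_insert (by simp)]
    ring
  · have h0 := colLen_eq_zero_of_le (μ := μ) (w := w) (by omega)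
    rw [h0]
    have e1 : (Finset.range (μ.rowLen 0)).filter (fun j => w ≤ j) = ∅ := by
      ext j
      simp only [Finset.mem_filter, Finset.mem_range, Finset.notMem_empty, iff_false, not_and]
      omega
    have e2 : (Finset.range (μ.rowLen 0)).filter (fun j => w + 1 ≤ j) = ∅ := by
      ext j
      simp only [Finset.mem_filter, Finset.mem_range, Finset.notMem_empty, iff_false, not_and]
      omega
    rw [e1, e2]
    simp

/-- A column at position `w` of height `h` costs `(w+1) h` cells. -/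
theorem col_area (μ : YoungDiagram) (w : ℕ) : (w + 1) * μ.colLen w ≤ μ.card := by
  have hsub : (Finset.range (μ.colLen w)) ×ˢ (Finset.range (w + 1)) ⊆ μ.cells := by
    rintro ⟨i, j⟩ hc
    simp only [Finset.mem_product, Finset.mem_range] at hc
    have h1 : (i, w) ∈ μ := YoungDiagram.mem_iff_lt_colLen.2 hc.1
    exact μ.up_left_mem (le_refl i) (by omega) h1
  have := Finset.card_le_card hsub
  rw [Finset.card_product, Finset.card_range, Finset.card_range] at this
  calc (w + 1) * μ.colLen w = μ.colLen w * (w + 1) := Nat.mul_comm _ _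
    _ ≤ μ.cells.card := this
    _ = μ.card := rfl

/-- A step of the peeling keeps a square. -/
theorem square_of_remove {μ : YoungDiagram} {D w : ℕ} (hD : (D, D) ∈ μ) (hw : D < w) {B : Multiset ℕ}
    (hB : B ≤ farCols μ w) : (D, D) ∈ ofCols (colsOf μ - B) := by
  rw [mem_ofCols]
  -- the columns before `w`
  set P : Multiset ℕ := ((Multiset.range (μ.rowLen 0)).filter fun j => ¬ w ≤ j).map μ.colLen with hP
  have hsplit : colsOf μ = farCols μ w + P := by
    unfold colsOf farCols
    rw [hP, ← Multiset.map_add, Multiset.filter_add_not]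
  have hPle : P ≤ colsOf μ - B := by
    rw [hsplit, add_comm (farCols μ w) P, Multiset.add_sub_assoc hB]
    exact Multiset.le_add_right _ _
  have hmono : Multiset.card (P.filter fun x => D < x) ≤
      Multiset.card ((colsOf μ - B).filter fun x => D < x) :=
    Multiset.card_le_card (Multiset.filter_le_filter _ hPle)
  refine lt_of_lt_of_le ?_ hmono
  have hD1 : D < μ.rowLen D := YoungDiagram.mem_iff_lt_rowLen.1 hD
  have hD2 : μ.rowLen D ≤ μ.rowLen 0 := μ.rowLen_anti 0 D (Nat.zero_le _)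
  have hcount : Multiset.card (P.filter fun x => D < x) =
      ((Finset.range (μ.rowLen 0)).filter fun j => ¬ w ≤ j ∧ D < μ.colLen j).card := by
    rw [hP, Multiset.filter_map, Multiset.card_map, Multiset.filter_filter]
    simp only [Function.comp_def]
    rw [Finset.card, Finset.filter_val, Finset.range_val]
    congr 1
    apply Multiset.filter_congr
    intro x _
    tauto
  rw [hcount]
  have hsub : Finset.range (D + 1) ⊆
      (Finset.range (μ.rowLen 0)).filter fun j => ¬ w ≤ j ∧ D < μ.colLen j := by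
    intro j hj
    simp only [Finset.mem_range] at hj
    simp only [Finset.mem_filter, Finset.mem_range]
    refine ⟨by omega, by omega, ?_⟩
    have h1 : (D, j) ∈ μ := μ.up_left_mem (le_refl D) (by omega) hD
    exact YoungDiagram.mem_iff_lt_colLen.1 h1
  have := Finset.card_le_card hsub
  rw [Finset.card_range] at this
  omega

private theorem far_anti (μ : YoungDiagram) (w k : ℕ) : farE μ (w + k) ≤ farE μ w := by
  induction k with
  | zero => simp
  | succ k ih =>
    have := far_lt_of_le μ (w + k)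
    have e : w + (k + 1) = w + k + 1 := by ring
    rw [e]
    omega

private theorem far_sum (μ : YoungDiagram) (w k : ℕ) :
    farE μ (w + k) + ∑ i ∈ Finset.range k, μ.colLen (w + i) = farE μ w := by
  induction k with
  | zero => simp
  | succ k ih =>
    have := far_lt_of_le μ (w + k)
    rw [Finset.sum_range_succ]
    have e : w + (k + 1) = w + k + 1 := by ring
    rw [e]
    omega

/-- Halving along a block of `7 m` columns when no peeling is possible. -/
theorem far_halve (μ : YoungDiagram) (m w₀ : ℕ) (hm : 1 ≤ m)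
    (hstuck : ∀ w, w₀ ≤ w → 1 ≤ μ.colLen w → farE μ w < 7 * μ.colLen w * m) (s : ℕ) :
    2 ^ s * farE μ (w₀ + 7 * m * s) ≤ farE μ w₀ := by
  induction s with
  | zero => simp
  | succ s ih =>
    set w := w₀ + 7 * m * s with hw
    have hW : w₀ + 7 * m * (s + 1) = w + 7 * m := by rw [hw]; ring
    rw [hW]
    have hclaim : 2 * farE μ (w + 7 * m) ≤ farE μ w := by
      by_cases hz : farE μ (w + 7 * m) = 0
      · rw [hz]; simp
      · -- the column at `w + 7 m` is non empty
        have hcW : 1 ≤ μ.colLen (w + 7 * m) := by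
          by_contra hc
          have hc0 : μ.colLen (w + 7 * m) = 0 := by omega
          apply hz
          rw [farE_eq]
          refine Finset.sum_eq_zero (fun j hj => ?_)
          have hj2 := (Finset.mem_filter.1 hj).2
          have := μ.colLen_anti _ _ hj2
          omega
        have hterm : ∀ i ∈ Finset.range (7 * m),
            farE μ (w + 7 * m) ≤ 7 * m * μ.colLen (w + i) := by
          intro i hi
          have hi' : i < 7 * m := Finset.mem_range.1 hi
          have h1 : μ.colLen (w + 7 * m) ≤ μ.colLen (w + i) := μ.colLen_anti _ _ (by omega)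
          have h2 := hstuck (w + i) (by rw [hw]; omega) (by omega)
          have h3 : farE μ (w + 7 * m) ≤ farE μ (w + i) := by
            have := far_anti μ (w + i) (7 * m - i)
            have e : w + i + (7 * m - i) = w + 7 * m := by omega
            rwa [e] at this
          calc farE μ (w + 7 * m) ≤ farE μ (w + i) := h3
            _ ≤ 7 * μ.colLen (w + i) * m := h2.le
            _ = 7 * m * μ.colLen (w + i) := by ring
        have hsum := Finset.sum_le_sum hterm
        rw [Finset.sum_const, Finset.card_range, smul_eq_mul, ← Finset.mul_sum] at hsum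
        have hpos : 0 < 7 * m := by omega
        have hle := Nat.le_of_mul_le_mul_left hsum hpos
        have := far_sum μ w (7 * m)
        omega
    calc 2 ^ (s + 1) * farE μ (w + 7 * m) = 2 ^ s * (2 * farE μ (w + 7 * m)) := by ring
      _ ≤ 2 ^ s * farE μ w := Nat.mul_le_mul_left _ hclaim
      _ ≤ farE μ w₀ := ih

/-- The first row of a stuck diagram. -/
theorem stuck_rowLen (μ : YoungDiagram) (m w₀ s : ℕ) (hm : 1 ≤ m)
    (hstuck : ∀ w, w₀ ≤ w → 1 ≤ μ.colLen w → farE μ w < 7 * μ.colLen w * m)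
    (hs : μ.card < 2 ^ s) : μ.rowLen 0 ≤ w₀ + 7 * m * s := by
  by_contra hlt
  have hlt := not_le.1 hlt
  set W := w₀ + 7 * m * s with hW
  have h1 : (0, W) ∈ μ := YoungDiagram.mem_iff_lt_rowLen.2 hlt
  have h2 : 1 ≤ μ.colLen W := YoungDiagram.mem_iff_lt_colLen.1 h1
  have h3 : μ.colLen W ≤ farE μ W := by
    have := far_lt_of_le μ W
    omega
  have h4 : 2 ^ s * farE μ W ≤ farE μ w₀ := far_halve μ m w₀ hm hstuck s
  have h5 : farE μ w₀ ≤ μ.card := by
    unfold farE
    rw [← sum_colsOf]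
    obtain ⟨c, hc⟩ := Multiset.le_iff_exists_add.1 (farCols_le μ w₀)
    rw [hc, Multiset.sum_add]
    omega
  have hpos : 0 < 2 ^ s := by positivity
  have h6 : 2 ^ s * 1 ≤ 2 ^ s * farE μ W := Nat.mul_le_mul_left _ (by omega)
  omega

/-- Numerics. -/
theorem params_stuck : ∃ m₂ : ℕ, ∀ m ≥ m₂, ∃ s : ℕ, NN m < 2 ^ s ∧
    ((2000 * m + 7 * m * s : ℕ) : ℝ) ≤ ((NN m : ℕ) : ℝ) ^ (11 / 20 : ℝ) := by
  refine ⟨1000 ^ 20, fun m hm => ⟨Nat.log 2 (NN m) + 1, Nat.lt_pow_succ_log_self (by norm_num) _, ?_⟩⟩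
  have hm1 : (1000 : ℝ) ^ 20 ≤ (m : ℝ) := by exact_mod_cast hm
  set x : ℝ := (m : ℝ) with hx
  have hx0 : 0 < x := lt_of_lt_of_le (by positivity) hm1
  have hx1 : 1 ≤ x := le_trans (one_le_pow₀ (by norm_num)) hm1
  set y : ℝ := x ^ (1 / 20 : ℝ) with hy
  have hy1000 : 1000 ≤ y := by
    have h1 : ((1000 : ℝ) ^ 20) ^ (1 / 20 : ℝ) ≤ x ^ (1 / 20 : ℝ) :=
      Real.rpow_le_rpow (by positivity) hm1 (by norm_num)
    have h2 : ((1000 : ℝ) ^ 20) ^ (1 / 20 : ℝ) = 1000 := by
      rw [← Real.rpow_natCast, ← Real.rpow_mul (by norm_num)]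
      norm_num
    rwa [h2] at h1
  have hy0 : 0 < y := by linarith
  have hyy : y ^ 2 = x ^ (1 / 10 : ℝ) := by
    rw [hy, ← Real.rpow_natCast, ← Real.rpow_mul hx0.le]
    norm_num
  -- the triangular number
  have h2N : 2 * NN m = m * (m + 1) := by
    have := Nat.even_mul_succ_self m
    obtain ⟨c, hc⟩ := this
    simp only [NN]
    omega
  have hNlow : x ^ 2 / 2 ≤ ((NN m : ℕ) : ℝ) := by
    have : (2 : ℝ) * ((NN m : ℕ) : ℝ) = x * (x + 1) := by
      rw [hx]; exact_mod_cast h2N
    nlinarith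
  have hNup : ((NN m : ℕ) : ℝ) ≤ x ^ 2 := by
    have : (2 : ℝ) * ((NN m : ℕ) : ℝ) = x * (x + 1) := by
      rw [hx]; exact_mod_cast h2N
    nlinarith
  have hNpos : (0 : ℝ) < ((NN m : ℕ) : ℝ) := lt_of_lt_of_le (by positivity) hNlow
  -- bound on the logarithm
  have hlogx : Real.log x ≤ 20 * y := by
    have := Real.log_le_rpow_div hx0.le (show (0 : ℝ) < 1 / 20 by norm_num)
    calc Real.log x ≤ x ^ (1 / 20 : ℝ) / (1 / 20) := this
      _ = 20 * y := by rw [hy]; ring
  have hlog0 : 0 ≤ Real.log x := Real.log_nonneg hx1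
  have hNne : NN m ≠ 0 := by
    intro h; rw [h] at hNpos; simp at hNpos
  have hs : ((Nat.log 2 (NN m) : ℕ) : ℝ) ≤ 60 * y := by
    have hpow : 2 ^ (Nat.log 2 (NN m)) ≤ NN m := Nat.pow_log_le_self 2 hNne
    have hpowR : (2 : ℝ) ^ (Nat.log 2 (NN m)) ≤ x ^ 2 := by
      refine le_trans ?_ hNup
      exact_mod_cast hpow
    have hl := Real.log_le_log (by positivity) hpowR
    rw [Real.log_pow, Real.log_pow] at hl
    have h2 := Real.log_two_gt_d9
    have hnn : (0 : ℝ) ≤ ((Nat.log 2 (NN m) : ℕ) : ℝ) := Nat.cast_nonneg _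
    push_cast at hl
    nlinarith
  -- the right side
  have hR : x * y ^ 2 / 2 ≤ ((NN m : ℕ) : ℝ) ^ (11 / 20 : ℝ) := by
    have h1 : (x ^ 2 / 2) ^ (11 / 20 : ℝ) ≤ ((NN m : ℕ) : ℝ) ^ (11 / 20 : ℝ) :=
      Real.rpow_le_rpow (by positivity) hNlow (by norm_num)
    refine le_trans ?_ h1
    have h5 : (x ^ 2 / 2) ^ (11 / 20 : ℝ) = (x ^ 2) ^ (11 / 20 : ℝ) * (2 : ℝ)⁻¹ ^ (11 / 20 : ℝ) := by
      rw [div_eq_mul_inv, Real.mul_rpow (by positivity) (by norm_num)]
    rw [h5]
    have h3 : (x ^ 2) ^ (11 / 20 : ℝ) = x * y ^ 2 := by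
      rw [hyy, ← Real.rpow_natCast, ← Real.rpow_mul hx0.le]
      nth_rewrite 2 [← Real.rpow_one x]
      rw [← Real.rpow_add hx0]
      norm_num
    have h4 : (1 / 2 : ℝ) ≤ (2 : ℝ)⁻¹ ^ (11 / 20 : ℝ) := by
      have := Real.rpow_le_rpow_of_exponent_ge (show (0 : ℝ) < 2⁻¹ by norm_num)
        (show (2 : ℝ)⁻¹ ≤ 1 by norm_num) (show (11 / 20 : ℝ) ≤ 1 by norm_num)
      rw [Real.rpow_one] at this
      linarith [this]
    rw [h3]
    have : 0 ≤ x * y ^ 2 := by positivity
    nlinarith
  refine le_trans ?_ hR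
  push_cast
  rw [← hx]
  have hbig : (2000 : ℝ) + 7 * (((Nat.log 2 (NN m) : ℕ) : ℝ) + 1) ≤ y ^ 2 / 2 := by
    nlinarith
  have : 2000 * x + 7 * x * (((Nat.log 2 (NN m) : ℕ) : ℝ) + 1) =
      x * ((2000 : ℝ) + 7 * (((Nat.log 2 (NN m) : ℕ) : ℝ) + 1)) := by ring
  rw [this]
  calc x * ((2000 : ℝ) + 7 * (((Nat.log 2 (NN m) : ℕ) : ℝ) + 1)) ≤ x * (y ^ 2 / 2) :=
        mul_le_mul_of_nonneg_left hbig hx0.le
    _ = x * y ^ 2 / 2 := by ring

private theorem card_transpose_I (ν : YoungDiagram) : ν.transpose.card = ν.card := by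
  unfold YoungDiagram.card
  rw [YoungDiagram.transpose]
  simp

/-- The peeling step on columns. -/
theorem regimeI_step (m : ℕ) (hm : 1 ≤ m) (ν : YoungDiagram) (hν : ν.card = NN m) (D w : ℕ)
    (hD : (D, D) ∈ ν) (hw0 : 2000 * m ≤ w) (hDw : D < w)
    (hh : 1 ≤ ν.colLen w) (hbig : 7 * ν.colLen w * m ≤ farE ν w)
    (IH : ∀ m' < m, ∀ ν' : YoungDiagram, ν'.card = NN m' → (D, D) ∈ ν' →
      KP (staircase m') (staircase m') ν') : KP (staircase m) (staircase m) ν := by
  have harea := col_area ν w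
  rw [hν] at harea
  have h2000 : 2000 * ν.colLen w ≤ m := by
    have h1 : 2 * ((w + 1) * ν.colLen w) ≤ m * (m + 1) := by
      have h3 : 2 * (m * (m + 1) / 2) ≤ m * (m + 1) := Nat.mul_div_le _ _
      have h4 : (w + 1) * ν.colLen w ≤ m * (m + 1) / 2 := harea
      omega
    have h5 : (2000 * m) * ν.colLen w ≤ w * ν.colLen w := Nat.mul_le_mul_right _ hw0
    have h6 : (w + 1) * ν.colLen w = w * ν.colLen w + ν.colLen w := by ring
    have h7 : m * (4000 * ν.colLen w) ≤ m * (m + 1) := by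
      have h8 : m * (4000 * ν.colLen w) = 2 * ((2000 * m) * ν.colLen w) := by ring
      omega
    have h9 : 4000 * ν.colLen w ≤ m + 1 := Nat.le_of_mul_le_mul_left h7 (by omega)
    omega
  have hP : farCols ν w ≤ colsOf ν := farCols_le ν w
  have hb : ∀ b ∈ farCols ν w, b ≤ ν.colLen w := by
    intro b hb
    unfold farCols at hb
    obtain ⟨j, hj, rfl⟩ := Multiset.mem_map.mp hb
    have hj' := (Multiset.mem_filter.mp hj).2
    exact YoungDiagram.colLen_anti ν w j hj'
  obtain ⟨t, B, ht1, ht2, hBP, hBsum, himp⟩ :=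
    peel_pool m (ν.colLen w) hh ν (farCols ν w) hP hb h2000 hbig
  apply himp
  have htm : t ≤ m := by omega
  apply IH (m - t) (by omega)
  · have h1 := card_remove (μ := ν) (B := B) (le_trans hBP hP)
    have h2 := NN_eq m t htm
    omega
  · exact square_of_remove hD hDw hBP

/-- **Regime of a large square.** -/
theorem regimeI : ∃ D₀ : ℕ, ∀ (m : ℕ) (ν : YoungDiagram), ν.card = NN m → (D₀, D₀) ∈ ν →
    KP (staircase m) (staircase m) ν := by
  obtain ⟨m₀, hm₀⟩ := Vale.Agent.Lib.P197S.balanced_1120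
  obtain ⟨m₂, hm₂⟩ := params_stuck
  refine ⟨max m₀ m₂, ?_⟩
  generalize hD₀ : max m₀ m₂ = D₀
  have hD0 : m₀ ≤ D₀ := by rw [← hD₀]; exact le_max_left _ _
  have hD2 : m₂ ≤ D₀ := by rw [← hD₀]; exact le_max_right _ _
  intro m
  induction m using Nat.strong_induction_on with
  | _ m IH =>
    intro ν hν hD
    -- the size of the square gives `D₀ < m`
    have hDm : D₀ < m := by
      by_contra hcon
      have hmD : m ≤ D₀ := by omega
      have harea := col_area ν D₀
      have hcl : D₀ + 1 ≤ ν.colLen D₀ := (YoungDiagram.mem_iff_lt_colLen).mp hD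
      have h1 : (D₀ + 1) * (D₀ + 1) ≤ ν.card :=
        le_trans (Nat.mul_le_mul_left _ hcl) harea
      rw [hν] at h1
      have h2 : m * (m + 1) / 2 ≤ m * (m + 1) := Nat.div_le_self _ _
      have h3 : m * (m + 1) ≤ D₀ * (D₀ + 1) := Nat.mul_le_mul hmD (by omega)
      have h4 : (D₀ + 1) * (D₀ + 1) = D₀ * (D₀ + 1) + (D₀ + 1) := by ring
      have h5 : NN m = m * (m + 1) / 2 := rfl
      omega
    have hm1 : 1 ≤ m := by omega
    by_cases h1 : ∃ w, 2000 * m ≤ w ∧ 1 ≤ ν.colLen w ∧ 7 * ν.colLen w * m ≤ farE ν w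
    · obtain ⟨w, hw, hh, hbig⟩ := h1
      exact regimeI_step m hm1 ν hν D₀ w hD hw (by omega) hh hbig IH
    by_cases h2 : ∃ w, 2000 * m ≤ w ∧ 1 ≤ ν.transpose.colLen w ∧
        7 * ν.transpose.colLen w * m ≤ farE ν.transpose w
    · obtain ⟨w, hw, hh, hbig⟩ := h2
      have hk := regimeI_step m hm1 ν.transpose (by rw [card_transpose_I]; exact hν)
        D₀ w (YoungDiagram.mem_transpose.mpr hD) hw (by omega) hh hbig IH
      have hk2 := KP_conj3 hk
      rwa [YoungDiagram.transpose_transpose] at hk2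
    have hst1 : ∀ w, 2000 * m ≤ w → 1 ≤ ν.colLen w → farE ν w < 7 * ν.colLen w * m := by
      intro w hw hh
      by_contra hcon
      exact h1 ⟨w, hw, hh, by omega⟩
    have hst2 : ∀ w, 2000 * m ≤ w → 1 ≤ ν.transpose.colLen w →
        farE ν.transpose w < 7 * ν.transpose.colLen w * m := by
      intro w hw hh
      by_contra hcon
      exact h2 ⟨w, hw, hh, by omega⟩
    obtain ⟨s, hs, hsR⟩ := hm₂ m (by omega)
    have hr1 := stuck_rowLen ν m (2000 * m) s hm1 hst1 (by rw [hν]; exact hs)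
    have hr2 := stuck_rowLen ν.transpose m (2000 * m) s hm1 hst2
      (by rw [card_transpose_I, hν]; exact hs)
    rw [YoungDiagram.rowLen_transpose] at hr2
    have hrR : (ν.rowLen 0 : ℝ) ≤ ((m * (m + 1) / 2 : ℕ) : ℝ) ^ (11 / 20 : ℝ) := by
      refine le_trans ?_ hsR
      have : ν.rowLen 0 ≤ 2000 * m + 7 * m * s := hr1
      exact_mod_cast this
    have hcR : (ν.colLen 0 : ℝ) ≤ ((m * (m + 1) / 2 : ℕ) : ℝ) ^ (11 / 20 : ℝ) := by
      refine le_trans ?_ hsR
      have : ν.colLen 0 ≤ 2000 * m + 7 * m * s := hr2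
      exact_mod_cast this
    obtain ⟨T₁⟩ := exists_filling (NN m) (staircase m) (staircase_card m)
    obtain ⟨T₃⟩ := exists_filling (NN m) ν hν
    have hk := hm₀ m (by omega) ν hν hrR hcR T₁ T₁ T₃
    refine ⟨NN m, T₁, T₁, T₃, ?_⟩
    intro h0
    have he := kronecker_eq T₁ T₁ T₃
    rw [h0, mul_zero] at he
    have he0 : kronecker T₁ T₁ T₃ = 0 := by exact_mod_cast he
    omega

end Vale.Agent.Lib.P197X
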