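import Vale.Agent.Lib.P197X.Remove
import Vale.Agent.Lib.P197X.LightArith

/-!
# P197X: bounded square: `m ≥ C₀ (D+1)^3` and `(D,D) ∉ ν` (blueprint Sec 13)
-/

open Equiv Finset

namespace Vale.Agent.Lib.P197X

open Vale.Agent.Lib.P197 Vale.Agent.Lib.P197W

/-- Twice a triangular number. -/
private theorem two_NN_main (m : ℕ) : 2 * NN m = m * (m + 1) := by
  have h : Even (m * (m + 1)) := Nat.even_mul_succ_self m
  obtain ⟨k, hk⟩ := h
  have : NN m = k := by
    show m * (m + 1) / 2 = k
    omega
  omega

/-- From the size of the far columns to the size of `m`. -/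
theorem m_big_of_E (m D E : ℕ) (hE : E ≤ NN m) (hbig : 10 ^ 10 * (D + 1) ^ 6 ≤ E) :
    40000 * (D + 1) ^ 3 ≤ m := by
  by_contra hlt
  push Not at hlt
  have h2 := two_NN_main m
  have h1 : 2 * (10 ^ 10 * (D + 1) ^ 6) ≤ m * (m + 1) := by omega
  have h3 : (m + 1) * (m + 1) ≤ (40000 * (D + 1) ^ 3) * (40000 * (D + 1) ^ 3) := by
    apply Nat.mul_le_mul <;> omega
  have h4 : m * (m + 1) ≤ (m + 1) * (m + 1) := Nat.mul_le_mul_right _ (by omega)
  have h5 : (40000 * (D + 1) ^ 3) * (40000 * (D + 1) ^ 3) = 1600000000 * (D + 1) ^ 6 := by ring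
  have hp : 0 < (D + 1) ^ 6 := by positivity
  omega

private theorem card_transpose_main (ν : YoungDiagram) : ν.transpose.card = ν.card := by
  show ν.transpose.cells.card = ν.cells.card
  refine Finset.card_bij (fun c _ => c.swap) ?_ ?_ ?_
  · intro c hc
    have h1 : c ∈ ν.transpose := hc
    exact (YoungDiagram.mem_transpose (μ := ν) (c := c)).1 h1
  · intro a _ b _ h
    exact Prod.swap_injective h
  · intro c hc
    refine ⟨c.swap, ?_, by simp⟩
    have h1 : c ∈ ν := hc
    exact (YoungDiagram.mem_transpose (μ := ν) (c := c.swap)).2 (by simpa using h1)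

private theorem not_mem_transpose_main {ν : YoungDiagram} {D : ℕ} (hD : (D, D) ∉ ν) :
    (D, D) ∉ ν.transpose := by
  intro h
  exact hD (by simpa using (YoungDiagram.mem_transpose (μ := ν) (c := (D, D))).1 h)

/-- The light case, no induction. -/
theorem light_case (m D : ℕ) (hD1 : 1 ≤ D) (ν : YoungDiagram) (hν : ν.card = NN m) (hD : (D, D) ∉ ν)
    (hm : 40000 * (D + 1) ^ 3 ≤ m) (hCE : farE ν.transpose D ≤ farE ν D)
    (hcol : m < ν.colLen 0 + D) (hCu : farE ν.transpose D < 8 * D * m) :
    KP (staircase m) (staircase m) ν := by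
  classical
  -- notation
  have hDt : (D, D) ∉ ν.transpose := not_mem_transpose_main hD
  set C := farE ν.transpose D with hC
  set E := farE ν D with hE
  -- the lower bound for C
  have hCl : m < C + 2 * D := by
    have h1 := rowLen_le_far ν.transpose D
    rw [YoungDiagram.rowLen_transpose] at h1
    omega
  obtain ⟨box, hbox, hsplit⟩ := card_split hD
  have hsum : box + C + E = NN m := by rw [← hν]; exact hsplit
  set P₁ := farCols ν D with hP₁
  set P₂ := farCols ν.transpose D with hP₂
  have hP₁sum : P₁.sum = E := rfl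
  have hP₂sum : P₂.sum = C := rfl
  have hb₁ : ∀ b ∈ P₁, 1 ≤ b ∧ b ≤ D := fun b hb => ⟨far_pos hb, far_le hD hb⟩
  have hb₂ : ∀ b ∈ P₂, 1 ≤ b ∧ b ≤ D := fun b hb => ⟨far_pos hb, far_le hDt hb⟩
  -- m is large
  have hD3 : 40000 * (D ^ 2 + 1) + 2 * D ≤ m := by
    have h1 : (D + 1) ^ 3 ≥ D ^ 2 + 1 + D := by nlinarith [sq_nonneg D, Nat.zero_le D]
    have h2 : 40000 * (D ^ 2 + 1 + D) ≤ 40000 * (D + 1) ^ 3 := Nat.mul_le_mul_left _ h1
    nlinarith
  have hDsq : D * D = D ^ 2 := by ring
  have hcard : ∀ P : Multiset ℕ, (∀ b ∈ P, 1 ≤ b ∧ b ≤ D) → m < P.sum + 2 * D →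
      10000 * D ≤ Multiset.card P := by
    intro P hb hs
    have h1 : P.sum ≤ Multiset.card P • D :=
      Multiset.sum_le_card_nsmul P D (fun x hx => (hb x hx).2)
    rw [smul_eq_mul] at h1
    by_contra hlt
    push Not at hlt
    have h2 : Multiset.card P * D ≤ 10000 * D * D := Nat.mul_le_mul_right _ hlt.le
    nlinarith
  obtain ⟨q₁, lo₁, hq₁1, hq₁2, hlo₁, hwin₁⟩ := window_ms D hD1 P₁ hb₁ (hcard P₁ hb₁ (by omega))
  obtain ⟨q₂, lo₂, hq₂1, hq₂2, hlo₂, hwin₂⟩ := window_ms D hD1 P₂ hb₂ (hcard P₂ hb₂ (by omega))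
  obtain ⟨t₂, mp, ht₂, ht₂mp, hmp, hdvd₂, hdvd₁, hx₂lo, hx₂up, hx₂C, hx₁lo, hx₁up, hDm, hDmp, hm₃, hNN₃⟩ :=
    light_arith D m C E box q₁ q₂ hD1 hm ⟨hq₁1, hq₁2⟩ ⟨hq₂1, hq₂2⟩ hCl hCu hsum hbox
  -- first removal
  obtain ⟨BR, hBR, hBRsum⟩ := hwin₁ (stairS m (m - mp)) hdvd₁ (by omega) (by omega)
  have hBRc : BR ≤ colsOf ν := hBR.trans (farCols_le ν D)
  have hsubm : m - (m - mp) = mp := Nat.sub_sub_self hmp
  refine peel_ms m (m - mp) D hD1 (Nat.sub_le _ _) ν BR hBRc
    (fun b hb => far_le hD (Multiset.mem_of_le hBR hb)) hBRsum (by omega) ?_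
  rw [hsubm]
  set ν₁ := ofCols (colsOf ν - BR) with hν₁
  have hν₁card : ν₁.card = NN mp := by
    have h1 := card_remove hBRc
    have h2 := NN_eq m (m - mp) (Nat.sub_le _ _)
    rw [hsubm] at h2
    rw [← hν₁, hBRsum] at h1
    omega
  have hν₁D : (D, D) ∉ ν₁ := fun h => hD (remove_subset D D h hBRc)
  -- pass to the transpose
  suffices h : KP (staircase mp) (staircase mp) ν₁.transpose by
    have h' := KP_conj3 h
    rwa [YoungDiagram.transpose_transpose] at h'
  set μ₁ := ν₁.transpose with hμ₁
  have hμ₁D : (D, D) ∉ μ₁ := not_mem_transpose_main hν₁D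
  have hμ₁far : farCols μ₁ D = P₂ := farCols_transpose_remove hD hBR
  have hμ₁card : μ₁.card = NN mp := by rw [hμ₁, card_transpose_main, hν₁card]
  -- second removal
  obtain ⟨BG, hBG, hBGsum⟩ := hwin₂ (stairS mp t₂) hdvd₂ (by omega) (by omega)
  have hBG' : BG ≤ farCols μ₁ D := by rw [hμ₁far]; exact hBG
  have hBGc : BG ≤ colsOf μ₁ := hBG'.trans (farCols_le μ₁ D)
  refine peel_ms mp t₂ D hD1 ht₂mp μ₁ BG hBGc
    (fun b hb => far_le hμ₁D (Multiset.mem_of_le hBG' hb)) hBGsum (by omega) ?_
  set ν₃' := ofCols (colsOf μ₁ - BG) with hν₃'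
  have hν₃'card : ν₃'.card = NN (mp - t₂) := by
    have h1 := card_remove hBGc
    have h2 := NN_eq mp t₂ ht₂mp
    rw [← hν₃', hBGsum] at h1
    omega
  have hν₃'D : (D, D) ∉ ν₃' := fun h => hμ₁D (remove_subset D D h hBGc)
  -- the remaining far sum
  have hfar₃ : farE ν₃' D + stairS mp t₂ = C := by
    have h1 : farCols ν₃' D = farCols μ₁ D - BG := farCols_remove hμ₁D hBG'
    have h2 : farCols μ₁ D - BG + BG = farCols μ₁ D := tsub_add_cancel_of_le hBG'
    have h3 := congrArg Multiset.sum h2
    rw [Multiset.sum_add, hμ₁far, hP₂sum, hBGsum] at h3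
    show (farCols ν₃' D).sum + stairS mp t₂ = C
    rw [h1, hμ₁far]
    exact h3
  have hfar₃' : farE ν₃' D < 39 * D ^ 2 := by omega
  -- transpose once more and conclude by the comparison with the staircase
  suffices h : KP (staircase (mp - t₂)) (staircase (mp - t₂)) ν₃'.transpose by
    have h' := KP_conj3 h
    rwa [YoungDiagram.transpose_transpose] at h'
  have hν₃card : ν₃'.transpose.card = NN (mp - t₂) := by rw [card_transpose_main, hν₃'card]
  refine KP_of_stair ν₃'.transpose (mp - t₂) D hD1 hν₃card (not_mem_transpose_main hν₃'D) ?_ ?_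
  · rw [YoungDiagram.colLen_transpose]
    have h1 := rowLen_le_far ν₃' D
    omega
  · have h1 := card_top_rows ν₃'.transpose D
    rw [YoungDiagram.transpose_transpose, hν₃card] at h1
    omega

/-- The main induction. -/
theorem claimQ (D : ℕ) (hD1 : 1 ≤ D) : ∀ (m : ℕ) (ν : YoungDiagram), ν.card = NN m → (D, D) ∉ ν →
    farE ν.transpose D ≤ farE ν D → 10 ^ 10 * (D + 1) ^ 6 ≤ farE ν D →
    KP (staircase m) (staircase m) ν := by
  intro m
  induction m using Nat.strong_induction_on with
  | _ m IH =>
  intro ν hν hD hCE hbig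
  obtain ⟨box, hbox, hsplit⟩ := card_split (μ := ν) hD
  have hE : farE ν D ≤ NN m := by omega
  have hm := m_big_of_E m D _ hE hbig
  have hcube : (D + 1) ≤ (D + 1) ^ 3 := by
    calc D + 1 = (D + 1) ^ 1 := (pow_one _).symm
      _ ≤ (D + 1) ^ 3 := Nat.pow_le_pow_right (by omega) (by norm_num)
  have hm2 : 40000 * (D + 1) ≤ m := by omega
  by_cases hcol : ν.colLen 0 + D ≤ m
  · -- the case of few rows: the staircase is dominated
    refine KP_of_stair ν m D hD1 hν hD hcol ?_
    have htop := card_top_rows ν D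
    have hNN := two_NN_main m
    have hmul : (40000 * (D + 1)) * (m + 1) ≤ m * (m + 1) := Nat.mul_le_mul_right _ hm2
    have hDD : D ^ 2 ≤ D * m := by
      rw [pow_two]
      exact Nat.mul_le_mul_left _ (by omega)
    have hk : 40000 * (D * m) ≤ (40000 * (D + 1)) * (m + 1) := by
      calc 40000 * (D * m) ≤ 40000 * ((D + 1) * (m + 1)) := by
            apply Nat.mul_le_mul_left
            exact Nat.mul_le_mul (by omega) (by omega)
        _ = (40000 * (D + 1)) * (m + 1) := by ring
    omega
  · push Not at hcol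
    by_cases hCu : farE ν.transpose D < 8 * D * m
    · exact light_case m D hD1 ν hν hD hm hCE hcol hCu
    · push Not at hCu
      -- peel far rows
      have hDt : (D, D) ∉ ν.transpose := not_mem_transpose_main hD
      have hP : farCols ν.transpose D ≤ colsOf ν.transpose := farCols_le _ _
      have hb : ∀ b ∈ farCols ν.transpose D, b ≤ D := fun b hb => far_le hDt hb
      have hs : 7 * D * m ≤ (farCols ν.transpose D).sum := by
        have : farE ν.transpose D = (farCols ν.transpose D).sum := rfl
        have h7 : 7 * D * m ≤ 8 * D * m := by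
          apply Nat.mul_le_mul_right
          apply Nat.mul_le_mul_right
          norm_num
        omega
      have h2000 : 2000 * D ≤ m := by omega
      obtain ⟨t, B, ht3, ht5, hBP, hBsum, hKP⟩ := peel_pool m D hD1 ν.transpose _ hP hb h2000 hs
      have htm : t ≤ m := by omega
      have hBc : B ≤ colsOf ν.transpose := hBP.trans hP
      set μ := ofCols (colsOf ν.transpose - B) with hμ
      have hrem := card_remove (μ := ν.transpose) hBc
      have hNNeq := NN_eq m t htm
      have hcardt := card_transpose_main ν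
      have hμcard : μ.card = NN (m - t) := by
        have : μ.card + B.sum = ν.transpose.card := hrem
        omega
      have hμD : (D, D) ∉ μ := fun h =>
        hDt (remove_subset (μ := ν.transpose) D D h hBc)
      -- the far columns of `μ.transpose`
      have hfar1 : farCols μ.transpose D = farCols ν D := by
        have := farCols_transpose_remove (μ := ν.transpose) hDt hBP
        rw [YoungDiagram.transpose_transpose] at this
        exact this
      have hfar2 : farCols μ D = farCols ν.transpose D - B :=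
        farCols_remove (μ := ν.transpose) hDt hBP
      have hE1 : farE μ.transpose D = farE ν D := by
        show (farCols μ.transpose D).sum = (farCols ν D).sum
        rw [hfar1]
      have hC1 : farE μ D ≤ farE ν.transpose D := by
        show (farCols μ D).sum ≤ (farCols ν.transpose D).sum
        rw [hfar2]
        have h := Multiset.sub_add_cancel hBP
        have h2 : ((farCols ν.transpose D - B) + B).sum = (farCols ν.transpose D).sum := by rw [h]
        rw [Multiset.sum_add] at h2
        omega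
      have hlt : m - t < m := by omega
      have hμtcard : μ.transpose.card = NN (m - t) := by rw [card_transpose_main, hμcard]
      have hμtD : (D, D) ∉ μ.transpose := not_mem_transpose_main hμD
      have hKμt : KP (staircase (m - t)) (staircase (m - t)) μ.transpose := by
        refine IH (m - t) hlt μ.transpose hμtcard hμtD ?_ ?_
        · rw [YoungDiagram.transpose_transpose, hE1]
          omega
        · rw [hE1]
          exact hbig
      have hKμ : KP (staircase (m - t)) (staircase (m - t)) μ := by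
        have := KP_conj3 hKμt
        rwa [YoungDiagram.transpose_transpose] at this
      have hKt := hKP hKμ
      have := KP_conj3 hKt
      rwa [YoungDiagram.transpose_transpose] at this

/-- **Regime of a bounded square.** -/
theorem regimeII : ∀ (D m : ℕ) (ν : YoungDiagram), 10 ^ 6 * (D + 1) ^ 3 ≤ m → ν.card = NN m →
    (D, D) ∉ ν → KP (staircase m) (staircase m) ν := by
  intro D m ν hm hν hD
  have hNN := two_NN_main m
  have hcube : 1 ≤ (D + 1) ^ 3 := Nat.one_le_pow _ _ (by omega)
  have hm1 : 10 ^ 6 ≤ m := by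
    calc 10 ^ 6 = 10 ^ 6 * 1 := by norm_num
      _ ≤ 10 ^ 6 * (D + 1) ^ 3 := Nat.mul_le_mul_left _ hcube
      _ ≤ m := hm
  rcases Nat.eq_zero_or_pos D with h0 | hD1
  · -- the diagram is empty
    subst h0
    exfalso
    have hcard0 : ν.card = 0 := by
      have : ν.cells = ∅ := by
        apply Finset.eq_empty_of_forall_notMem
        intro c hc
        have hc' : c ∈ ν := hc
        exact hD (ν.isLowerSet (show ((0, 0) : ℕ × ℕ) ≤ c from ⟨Nat.zero_le _, Nat.zero_le _⟩) hc')
      show ν.cells.card = 0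
      rw [this]; rfl
    have hpos : 0 < m * (m + 1) := Nat.mul_pos (by omega) (by omega)
    omega
  · obtain ⟨box, hbox, hsplit⟩ := card_split (μ := ν) hD
    -- the arithmetic of the two far sums
    have hsq : 10 ^ 12 * (D + 1) ^ 6 ≤ m * m := by
      calc 10 ^ 12 * (D + 1) ^ 6 = (10 ^ 6 * (D + 1) ^ 3) * (10 ^ 6 * (D + 1) ^ 3) := by ring
        _ ≤ m * m := Nat.mul_le_mul hm hm
    have hmm : m * m ≤ m * (m + 1) := Nat.mul_le_mul_left _ (by omega)
    have hDD : D ^ 2 ≤ (D + 1) ^ 6 := by
      calc D ^ 2 ≤ (D + 1) ^ 2 := Nat.pow_le_pow_left (by omega) _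
        _ ≤ (D + 1) ^ 6 := Nat.pow_le_pow_right (by omega) (by norm_num)
    have hp : 0 < (D + 1) ^ 6 := by positivity
    have hsum : 2 * (10 ^ 10 * (D + 1) ^ 6) ≤ farE ν.transpose D + farE ν D := by omega
    by_cases hCE : farE ν.transpose D ≤ farE ν D
    · exact claimQ D hD1 m ν hν hD hCE (by omega)
    · push Not at hCE
      have hDt : (D, D) ∉ ν.transpose := not_mem_transpose_main hD
      have hK : KP (staircase m) (staircase m) ν.transpose := by
        refine claimQ D hD1 m ν.transpose (by rw [card_transpose_main, hν]) hDt ?_ ?_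
        · rw [YoungDiagram.transpose_transpose]
          omega
        · omega
      have := KP_conj3 hK
      rwa [YoungDiagram.transpose_transpose] at this

end Vale.Agent.Lib.P197X
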