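import Vale.Agent.Lib.P197X.RegimeI
import Vale.Agent.Lib.P197X.RegimeII

/-!
# P197X: Saxl for all large staircases (blueprint Sec 15)
-/

open Equiv Finset

namespace Vale.Agent.Lib.P197X

open Vale.Agent.Lib.P197 Vale.Agent.Lib.P197W

/-- **Saxl for all large staircases.** -/
theorem saxl_large : ∃ m₁ : ℕ, ∀ m ≥ m₁, ∀ ν : YoungDiagram, ν.card = m * (m + 1) / 2 →
    ∀ (T₁ T₂ : Filling (m * (m + 1) / 2) (staircase m)) (T₃ : Filling (m * (m + 1) / 2) ν),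
      0 < kronecker T₁ T₂ T₃ := by
  obtain ⟨D₀, hD₀⟩ := regimeI
  refine ⟨10 ^ 6 * (D₀ + 1) ^ 3, ?_⟩
  intro m hm ν hν T₁ T₂ T₃
  by_cases hD : (D₀, D₀) ∈ ν
  · exact kronecker_of_KP (hD₀ m ν hν hD) T₁ T₂ T₃
  · exact kronecker_of_KP (regimeII D₀ m ν hm hν hD) T₁ T₂ T₃

/-- The algebraic part: every diagram with `(D,D)` outside and `m ≥ 10^6 (D+1)^3`. -/
theorem saxl_bounded_square (D m : ℕ) (hm : 10 ^ 6 * (D + 1) ^ 3 ≤ m) (ν : YoungDiagram)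
    (hν : ν.card = m * (m + 1) / 2) (hD : (D, D) ∉ ν)
    (T₁ T₂ : Filling (m * (m + 1) / 2) (staircase m)) (T₃ : Filling (m * (m + 1) / 2) ν) :
    0 < kronecker T₁ T₂ T₃ :=
  kronecker_of_KP (regimeII D m ν hm hν hD) T₁ T₂ T₃

end Vale.Agent.Lib.P197X
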