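import Vale.Agent.Lib.P197X.Cols

/-!
# P197X: the semigroup property for column unions, transposition (blueprint Sec 2)
-/

open Equiv Finset

namespace Vale.Agent.Lib.P197X

open Vale.Agent.Lib.P197 Vale.Agent.Lib.P197W

/-- The multiplicity of a value among the column heights is a cardinality of a fibre. -/
private theorem count_colsOf (μ : YoungDiagram) (v : ℕ) :
    Multiset.count v (colsOf μ) =
      Fintype.card {i : Fin (μ.rowLen 0) // μ.colLen (i : ℕ) = v} := by
  classical
  unfold colsOf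
  rw [Multiset.count_map, Fintype.card_subtype]
  have h1 : Multiset.card ((Multiset.range (μ.rowLen 0)).filter fun a => v = μ.colLen a) =
      ((Finset.range (μ.rowLen 0)).filter fun a => μ.colLen a = v).card := by
    have : (Multiset.range (μ.rowLen 0)).filter (fun a => v = μ.colLen a) =
        ((Finset.range (μ.rowLen 0)).filter fun a => μ.colLen a = v).val := by
      rw [Finset.filter_val]
      simp only [Finset.range_val]
      exact Multiset.filter_congr fun a _ => eq_comm
    rw [this]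
    rfl
  rw [h1, Finset.card_filter, Finset.card_filter, Finset.sum_range]

/-- Column assignment: the columns of `D` are the columns of `A` and `B`. -/
theorem exists_col_maps {A B D : YoungDiagram} (hD : colsOf D = colsOf A + colsOf B) :
    ∃ (φ ψ : ℕ → ℕ),
      (∀ j, j < A.rowLen 0 → φ j < D.rowLen 0 ∧ D.colLen (φ j) = A.colLen j) ∧
      (∀ j, j < B.rowLen 0 → ψ j < D.rowLen 0 ∧ D.colLen (ψ j) = B.colLen j) ∧
      (∀ j j', j < A.rowLen 0 → j' < A.rowLen 0 → φ j = φ j' → j = j') ∧
      (∀ j j', j < B.rowLen 0 → j' < B.rowLen 0 → ψ j = ψ j' → j = j') ∧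
      (∀ j j', j < A.rowLen 0 → j' < B.rowLen 0 → φ j ≠ ψ j') := by
  classical
  let f : Fin (A.rowLen 0) ⊕ Fin (B.rowLen 0) → ℕ :=
    Sum.elim (fun j => A.colLen (j : ℕ)) (fun j => B.colLen (j : ℕ))
  let g : Fin (D.rowLen 0) → ℕ := fun i => D.colLen (i : ℕ)
  have hfib : ∀ v, Nonempty ({a // f a = v} ≃ {b // g b = v}) := by
    intro v
    apply Fintype.card_eq.1
    have h1 := congrArg (Multiset.count v) hD
    rw [Multiset.count_add, count_colsOf, count_colsOf, count_colsOf] at h1
    have h2 : Fintype.card {a // f a = v} =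
        Fintype.card {i : Fin (A.rowLen 0) // A.colLen (i : ℕ) = v} +
          Fintype.card {i : Fin (B.rowLen 0) // B.colLen (i : ℕ) = v} := by
      rw [Fintype.card_subtype, Fintype.card_subtype, Fintype.card_subtype]
      rw [Finset.card_filter, Finset.card_filter, Finset.card_filter, Fintype.sum_sum_type]
      rfl
    rw [h2]
    exact h1.symm
  let σ : Fin (A.rowLen 0) ⊕ Fin (B.rowLen 0) ≃ Fin (D.rowLen 0) :=
    Equiv.ofFiberEquiv (fun v => (hfib v).some)
  have hσ : ∀ a, D.colLen ((σ a : Fin (D.rowLen 0)) : ℕ) = f a := fun a =>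
    Equiv.ofFiberEquiv_map (fun v => (hfib v).some) a
  refine ⟨fun j => if h : j < A.rowLen 0 then (σ (Sum.inl ⟨j, h⟩) : ℕ) else 0,
    fun j => if h : j < B.rowLen 0 then (σ (Sum.inr ⟨j, h⟩) : ℕ) else 0, ?_, ?_, ?_, ?_, ?_⟩
  · intro j hj
    simp only [dif_pos hj]
    exact ⟨(σ (Sum.inl ⟨j, hj⟩)).2, hσ (Sum.inl ⟨j, hj⟩)⟩
  · intro j hj
    simp only [dif_pos hj]
    exact ⟨(σ (Sum.inr ⟨j, hj⟩)).2, hσ (Sum.inr ⟨j, hj⟩)⟩
  · intro j j' hj hj' h
    simp only [dif_pos hj, dif_pos hj'] at h
    have := σ.injective (Fin.ext h)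
    simpa using this
  · intro j j' hj hj' h
    simp only [dif_pos hj, dif_pos hj'] at h
    have := σ.injective (Fin.ext h)
    simpa using this
  · intro j j' hj hj' h
    simp only [dif_pos hj, dif_pos hj'] at h
    have := σ.injective (Fin.ext h)
    simp at this

/-- The filling of a column union. -/
theorem exists_cols_sum {N k l : ℕ} {A B D : YoungDiagram} (hD : colsOf D = colsOf A + colsOf B)
    (e : Fin N ≃ Fin k ⊕ Fin l) (T : Filling k A) (T' : Filling l B) :
    ∃ Tp : Filling N D,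
      IsSum e (rowOf T) (colOf T) (rowOf T') (colOf T') (rowOf Tp) (colOf Tp) := by
  classical
  obtain ⟨φ, ψ, hφ, hψ, hφi, hψi, hne⟩ := exists_col_maps hD
  have hcol : ∀ x, colOf T x < A.rowLen 0 := by
    intro x
    have h1 : (rowOf T x, colOf T x) ∈ A := (T x).2
    have h2 : (0, colOf T x) ∈ A := A.up_left_mem (Nat.zero_le _) le_rfl h1
    exact YoungDiagram.mem_iff_lt_rowLen.1 h2
  have hcol' : ∀ y, colOf T' y < B.rowLen 0 := by
    intro x
    have h1 : (rowOf T' x, colOf T' x) ∈ B := (T' x).2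
    have h2 : (0, colOf T' x) ∈ B := B.up_left_mem (Nat.zero_le _) le_rfl h1
    exact YoungDiagram.mem_iff_lt_rowLen.1 h2
  have hrow : ∀ x, rowOf T x < A.colLen (colOf T x) := by
    intro x
    have h1 : (rowOf T x, colOf T x) ∈ A := (T x).2
    exact YoungDiagram.mem_iff_lt_colLen.1 h1
  have hrow' : ∀ x, rowOf T' x < B.colLen (colOf T' x) := by
    intro x
    have h1 : (rowOf T' x, colOf T' x) ∈ B := (T' x).2
    exact YoungDiagram.mem_iff_lt_colLen.1 h1
  let t : Fin k ⊕ Fin l → {c // c ∈ D.cells} := fun u =>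
    match u with
    | Sum.inl x => ⟨(rowOf T x, φ (colOf T x)), by
        have : (rowOf T x, φ (colOf T x)) ∈ D := by
          apply YoungDiagram.mem_iff_lt_colLen.2
          rw [(hφ _ (hcol x)).2]
          exact hrow x
        exact this⟩
    | Sum.inr y => ⟨(rowOf T' y, ψ (colOf T' y)), by
        have : (rowOf T' y, ψ (colOf T' y)) ∈ D := by
          apply YoungDiagram.mem_iff_lt_colLen.2
          rw [(hψ _ (hcol' y)).2]
          exact hrow' y
        exact this⟩
  have hinjT : ∀ x x', rowOf T x = rowOf T x' → colOf T x = colOf T x' → x = x' := by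
    intro x x' h1 h2
    apply T.injective
    apply Subtype.ext
    exact Prod.ext h1 h2
  have hinjT' : ∀ x x', rowOf T' x = rowOf T' x' → colOf T' x = colOf T' x' → x = x' := by
    intro x x' h1 h2
    apply T'.injective
    apply Subtype.ext
    exact Prod.ext h1 h2
  have ht_inj : Function.Injective t := by
    rintro (x | y) (x' | y') h
    · have h' := congrArg Subtype.val h
      simp only [t, Prod.mk.injEq] at h'
      have := hinjT x x' h'.1 (hφi _ _ (hcol x) (hcol x') h'.2)
      rw [this]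
    · have h' := congrArg Subtype.val h
      simp only [t, Prod.mk.injEq] at h'
      exact absurd h'.2 (hne _ _ (hcol x) (hcol' y'))
    · have h' := congrArg Subtype.val h
      simp only [t, Prod.mk.injEq] at h'
      exact absurd h'.2.symm (hne _ _ (hcol x') (hcol' y))
    · have h' := congrArg Subtype.val h
      simp only [t, Prod.mk.injEq] at h'
      have := hinjT' y y' h'.1 (hψi _ _ (hcol' y) (hcol' y') h'.2)
      rw [this]
  have hcard : Fintype.card (Fin k ⊕ Fin l) = Fintype.card {c // c ∈ D.cells} := by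
    have h1 : A.card = k := card_of_filling T
    have h2 : B.card = l := card_of_filling T'
    have h3 : D.card = A.card + B.card := by
      rw [← sum_colsOf, ← sum_colsOf, ← sum_colsOf, hD, Multiset.sum_add]
    simp only [Fintype.card_sum, Fintype.card_fin, Fintype.card_coe]
    have h4 : D.cells.card = D.card := rfl
    omega
  let τ : Fin k ⊕ Fin l ≃ {c // c ∈ D.cells} :=
    Equiv.ofBijective t ((Fintype.bijective_iff_injective_and_card t).2 ⟨ht_inj, hcard⟩)
  have hτ : ∀ u, τ u = t u := fun _ => rfl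
  refine ⟨e.trans τ, ?_, ?_, ?_, ?_, ?_⟩
  · intro x
    simp [rowOf, hτ, t]
  · intro y
    simp [rowOf, hτ, t]
  · intro x x'
    simp only [colOf, Equiv.trans_apply, Equiv.apply_symm_apply, hτ, t]
    exact ⟨fun h => hφi _ _ (hcol x) (hcol x') h, fun h => by
      have h' : colOf T x = colOf T x' := h
      simp only [colOf] at h'
      rw [h']⟩
  · intro y y'
    simp only [colOf, Equiv.trans_apply, Equiv.apply_symm_apply, hτ, t]
    exact ⟨fun h => hψi _ _ (hcol' y) (hcol' y') h, fun h => by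
      have h' : colOf T' y = colOf T' y' := h
      simp only [colOf] at h'
      rw [h']⟩
  · intro x y
    simp only [colOf, Equiv.trans_apply, Equiv.apply_symm_apply, hτ, t]
    exact hne _ _ (hcol x) (hcol' y)

/-- **Semigroup property.** -/
theorem KP_add {A A' B B' C C' D₁ D₂ D₃ : YoungDiagram} (h : KP A B C) (h' : KP A' B' C')
    (h₁ : colsOf D₁ = colsOf A + colsOf A') (h₂ : colsOf D₂ = colsOf B + colsOf B')
    (h₃ : colsOf D₃ = colsOf C + colsOf C') : KP D₁ D₂ D₃ := by
  obtain ⟨n, T₁, T₂, T₃, hne⟩ := h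
  obtain ⟨n', T₁', T₂', T₃', hne'⟩ := h'
  obtain ⟨σ₁, σ₂, σ₃, hp⟩ := poly_of_pos T₁ T₂ T₃ hne
  obtain ⟨σ₁', σ₂', σ₃', hp'⟩ := poly_of_pos T₁' T₂' T₃' hne'
  let e : Fin (n + n') ≃ Fin n ⊕ Fin n' := finSumFinEquiv.symm
  obtain ⟨P₁, hP₁⟩ := exists_cols_sum h₁ e (σ₁.trans T₁) (σ₁'.trans T₁')
  obtain ⟨P₂, hP₂⟩ := exists_cols_sum h₂ e (σ₂.trans T₂) (σ₂'.trans T₂')
  obtain ⟨P₃, hP₃⟩ := exists_cols_sum h₃ e (σ₃.trans T₃) (σ₃'.trans T₃')
  refine KP_of_poly P₁ P₂ P₃ ?_
  unfold polyP
  rw [polyF_sum e hP₁ hP₂ hP₃]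
  exact mul_ne_zero hp hp'

/-- Transposing the first two diagrams. -/
theorem KP_conj12 {la mu nu : YoungDiagram} (h : KP la mu nu) :
    KP la.transpose mu.transpose nu := by
  obtain ⟨n, T₁, T₂, T₃, hne⟩ := h
  refine ⟨n, tFill T₁, tFill T₂, T₃, ?_⟩
  have hterm : ∀ π : Perm (Fin n),
      rr (tFill T₁) π * rr (tFill T₂) π * rr T₃ π = rr T₁ π * rr T₂ π * rr T₃ π := by
    intro π
    rw [rr_tFill, rr_tFill]
    have hs : ((sgnZ π : ℤ) : ℝ) * ((sgnZ π : ℤ) : ℝ) = 1 := by
      have := sgnZ_mul_sgnZ_self π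
      exact_mod_cast this
    calc _ = (((sgnZ π : ℤ) : ℝ) * ((sgnZ π : ℤ) : ℝ)) * (rr T₁ π * rr T₂ π * rr T₃ π) := by ring
      _ = _ := by rw [hs, one_mul]
  simp_rw [hterm]
  exact hne

/-- For the staircase the third diagram may be transposed. -/
theorem KP_conj3 {m : ℕ} {ν : YoungDiagram} (h : KP (staircase m) (staircase m) ν) :
    KP (staircase m) (staircase m) ν.transpose := by
  have hpos : PosS m ν := by
    intro T₁ T₂ T₃
    exact KP_all h T₁ T₂ T₃
  have hpos' := posS_transpose m ν hpos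
  obtain ⟨n, T₁, T₂, T₃, _⟩ := h
  have hn : n = m * (m + 1) / 2 := by
    rw [← card_of_filling T₁]
    exact staircase_card m
  subst hn
  exact ⟨_, T₁, T₂, tFill T₃, hpos' T₁ T₂ (tFill T₃)⟩

end Vale.Agent.Lib.P197X
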